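import Vale.Agent.P025.R2.H492.Ext3

set_option linter.all false

/-!
# Finite extensions of function fields of one variable: isomorphisms, Galois extensions, inertia
-/

namespace P025H492

open Vale.Agent.P019P IntermediateField Polynomial

section iso

variable {k K L : Type*} [Field k] [Field K] [Field L] [Algebra k K] [Algebra k L]

/-- transport of places along an isomorphism. -/
def tr (e : K ≃ₐ[k] L) (P : Plk k K) : Plk k L :=
  ⟨P.1.comap (e.symm : L →+* K), fun a => by
    rw [ValuationSubring.mem_comap]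
    show e.symm (algebraMap k L a) ∈ P.1
    rw [AlgEquiv.commutes]
    exact P.2.1 a, fun h => P.2.2 (by
      rw [eq_top_iff]
      intro x _
      have h1 : e x ∈ P.1.comap (e.symm : L →+* K) := by
        rw [h]
        exact ValuationSubring.mem_top _
      have h2 : e.symm (e x) ∈ P.1 := h1
      rwa [e.symm_apply_apply] at h2)⟩

theorem mem_tr (e : K ≃ₐ[k] L) (P : Plk k K) (z : L) : z ∈ (tr e P).1 ↔ e.symm z ∈ P.1 := Iff.rfl

theorem tr_symm_tr (e : K ≃ₐ[k] L) (P : Plk k K) : tr e.symm (tr e P) = P := by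
  refine Subtype.ext (ValuationSubring.ext _ _ fun z => ?_)
  rw [mem_tr, mem_tr, AlgEquiv.symm_symm, e.symm_apply_apply]

theorem tr_tr_symm (e : K ≃ₐ[k] L) (P : Plk k L) : tr e (tr e.symm P) = P := by
  refine Subtype.ext (ValuationSubring.ext _ _ fun z => ?_)
  rw [mem_tr, mem_tr, AlgEquiv.symm_symm, e.apply_symm_apply]

/-- transport as a bijection. -/
def trEquiv (e : K ≃ₐ[k] L) : Plk k K ≃ Plk k L :=
  ⟨tr e, tr e.symm, tr_symm_tr e, tr_tr_symm e⟩

theorem ord_tr [CFF k K] [CFF k L] (e : K ≃ₐ[k] L) (P : Plk k K) (z : K) :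
    ord (tr e P) (e z) = ord P z := by
  have h1 : IsOrd (tr e P).1 fun w => ord P (e.symm w) := by
    have hP := ord_spec P
    have hne : ∀ x : L, x ≠ 0 → e.symm x ≠ 0 := fun x hx h => hx (by
      rw [← e.apply_symm_apply x, h, map_zero])
    refine ⟨by rw [map_zero, hP.zero], fun x y hx hy => ?_, fun x y hx hy hxy => ?_, fun x => ?_, ?_⟩
    · show ord P (e.symm (x * y)) = ord P (e.symm x) + ord P (e.symm y)
      rw [map_mul]
      exact hP.mul _ _ (hne x hx) (hne y hy)
    · show min (ord P (e.symm x)) (ord P (e.symm y)) ≤ ord P (e.symm (x + y))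
      have h3 := hne _ hxy
      rw [map_add] at h3 ⊢
      exact hP.add _ _ (hne x hx) (hne y hy) h3
    · rw [mem_tr, hP.mem]
      constructor
      · rintro (h | h)
        · left
          by_contra h4
          exact hne x h4 h
        · exact Or.inr h
      · rintro (h | h)
        · left
          rw [h, map_zero]
        · exact Or.inr h
    · obtain ⟨π, h⟩ := hP.one
      exact ⟨e π, by rw [e.symm_apply_apply, h]⟩
  rw [IsOrd.unique (ord_spec (tr e P)) h1]
  show ord P (e.symm (e z)) = ord P z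
  rw [e.symm_apply_apply]

end iso

section conj

variable {k K L : Type*} [Field k] [Field K] [Field L] [Algebra k K] [Algebra k L]
  [Algebra K L] [IsScalarTower k K L]

variable (k) in
/-- the conjugate of a place under an automorphism over `K`. -/
def conj (σ : L ≃ₐ[K] L) (P : Plk k L) : Plk k L := tr (σ.restrictScalars k) P

theorem mem_conj (σ : L ≃ₐ[K] L) (P : Plk k L) (z : L) : z ∈ (conj k σ P).1 ↔ σ.symm z ∈ P.1 :=
  Iff.rfl

theorem conj_one (P : Plk k L) : conj k (1 : L ≃ₐ[K] L) P = P :=
  Subtype.ext (ValuationSubring.ext _ _ fun z => Iff.rfl)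

theorem conj_mul (σ τ : L ≃ₐ[K] L) (P : Plk k L) : conj k (σ * τ) P = conj k σ (conj k τ P) :=
  Subtype.ext (ValuationSubring.ext _ _ fun z => Iff.rfl)

theorem conj_inv_conj (σ : L ≃ₐ[K] L) (P : Plk k L) : conj k σ⁻¹ (conj k σ P) = P := by
  rw [← conj_mul, inv_mul_cancel, conj_one]

theorem conj_conj_inv (σ : L ≃ₐ[K] L) (P : Plk k L) : conj k σ (conj k σ⁻¹ P) = P := by
  rw [← conj_mul, mul_inv_cancel, conj_one]

theorem ord_conj [CFF k L] (σ : L ≃ₐ[K] L) (P : Plk k L) (z : L) :
    ord (conj k σ P) (σ z) = ord P z :=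
  ord_tr (σ.restrictScalars k) P z

theorem ord_conj' [CFF k L] (σ : L ≃ₐ[K] L) (P : Plk k L) (z : L) :
    ord (conj k σ P) z = ord P (σ.symm z) := by
  rw [← ord_conj σ P (σ.symm z), AlgEquiv.apply_symm_apply]

theorem ord_aut [CFF k L] (σ : L ≃ₐ[K] L) (P : Plk k L) (z : L) :
    ord P (σ z) = ord (conj k σ⁻¹ P) z := by
  rw [← ord_conj σ (conj k σ⁻¹ P) z, conj_conj_inv]

theorem down_conj [Algebra.IsAlgebraic K L] (σ : L ≃ₐ[K] L) (P : Plk k L) :
    down K (conj k σ P) = down K P := by
  refine Subtype.ext (ValuationSubring.ext _ _ fun z => ?_)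
  rw [mem_down, mem_down, mem_conj, AlgEquiv.commutes]

theorem ram_conj [Algebra.IsAlgebraic K L] [CFF k K] [CFF k L] (σ : L ≃ₐ[K] L) (P : Plk k L) :
    ram K (conj k σ P) = ram K P := by
  obtain ⟨π, hπ0, hπ⟩ := exists_unif (down K P)
  have h1 : ord (down K (conj k σ P)) π = 1 := by rw [down_conj, hπ]
  refine ram_eq (z := π) (by omega) ?_
  rw [ord_conj', AlgEquiv.commutes, ord_algebraMap, h1, hπ]

variable (K) in
/-- the inertia group (= decomposition group, the constants being algebraically closed). -/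
def inertia (P : Plk k L) : Subgroup (L ≃ₐ[K] L) where
  carrier := {σ | conj k σ P = P}
  one_mem' := conj_one P
  mul_mem' {σ τ} hσ hτ := by
    show conj k (σ * τ) P = P
    rw [conj_mul, show conj k τ P = P from hτ, show conj k σ P = P from hσ]
  inv_mem' {σ} hσ := by
    show conj k σ⁻¹ P = P
    conv_lhs => rw [← show conj k σ P = P from hσ]
    exact conj_inv_conj σ P

theorem mem_inertia {σ : L ≃ₐ[K] L} {P : Plk k L} : σ ∈ inertia K P ↔ conj k σ P = P := Iff.rfl

/-- inertia acts trivially on residues. -/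
theorem inertia_residue [CFF k L] {σ : L ≃ₐ[K] L} {P : Plk k L} (h : σ ∈ inertia K P) {z : L}
    {c : k} (hz : 0 < ord P (z - algebraMap k L c)) : 0 < ord P (σ z - algebraMap k L c) := by
  have h1 : σ z - algebraMap k L c = σ (z - algebraMap k L c) := by
    rw [map_sub, IsScalarTower.algebraMap_apply k K L, AlgEquiv.commutes]
  rw [h1, ord_aut, (mem_inertia.1 ((inertia K P).inv_mem h) : conj k σ⁻¹ P = P)]
  exact hz

end conj

section galois

variable {k K L : Type*} [Field k] [Field K] [Field L] [Algebra k K] [Algebra k L]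
  [Algebra K L] [IsScalarTower k K L] [CFF k K] [CFF k L] [FiniteDimensional K L] [IsGalois K L]

/-- the Galois group is transitive on the fibres. -/
theorem exists_conj_eq {P Q : Plk k L} (h : down K P = down K Q) :
    ∃ σ : L ≃ₐ[K] L, conj k σ P = Q := by
  classical
  by_contra hcon
  push Not at hcon
  have hex : ∃ z : L, z ≠ 0 ∧ ∀ R ∈ (over_finite (K := K) (L := L) (down K Q)).toFinset,
      ord R z = if R = Q then 1 else 0 :=
    exists_ord_eq _ fun R => if R = Q then 1 else 0
  obtain ⟨z, hz0, hz⟩ := hex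
  have h1 := ord_norm_pos (K := K) (P' := Q) (z := z) (by
    rw [hz Q (mem_over.2 rfl), if_pos rfl]; omega) (fun Q' hQ' => by
      rw [hz Q' (mem_over.2 hQ')]
      split_ifs <;> omega)
  rw [← h, ← ord_up_pos_iff, Algebra.norm_eq_prod_automorphisms,
    ord_prod _ _ _ (fun σ _ => (_root_.map_ne_zero σ).2 hz0)] at h1
  have h2 : ∀ σ ∈ (Finset.univ : Finset (L ≃ₐ[K] L)), ord P (σ z) = 0 := by
    intro σ _
    rw [ord_aut, hz _ (mem_over.2 (by rw [down_conj, h])), if_neg (hcon _)]
  rw [Finset.sum_eq_zero h2] at h1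
  exact lt_irrefl _ h1

theorem ram_eq_of_down_eq {P Q : Plk k L} (h : down K P = down K Q) : ram K P = ram K Q := by
  obtain ⟨σ, rfl⟩ := exists_conj_eq h
  rw [ram_conj]

/-- the order of the inertia group is the ramification index. -/
theorem card_inertia (P : Plk k L) : Nat.card (inertia K P) = ram K P := by
  classical
  set S := (over_finite (K := K) (L := L) (down K P)).toFinset with hS
  have h1 : S.card * ram K P = Module.finrank K L := by
    rw [← sum_ram (L := L) (down K P), ← hS, Finset.sum_congr rfl fun Q hQ =>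
      ram_eq_of_down_eq (mem_over.1 hQ : down K Q = down K P), Finset.sum_const, smul_eq_mul]
  let f : (L ≃ₐ[K] L) ⧸ inertia K P → S := Quotient.lift
    (fun σ => (⟨conj k σ P, mem_over.2 (down_conj σ P)⟩ : S)) (by
      intro σ τ hστ
      rw [← Quotient.eq_iff_equiv, QuotientGroup.eq] at hστ
      refine Subtype.ext ?_
      show conj k σ P = conj k τ P
      have h2 : conj k (σ⁻¹ * τ) P = P := hστ
      rw [conj_mul] at h2
      rw [← conj_conj_inv σ (conj k τ P), h2])
  have hf : Function.Bijective f := by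
    constructor
    · intro a b
      induction a using Quotient.inductionOn with | _ σ => ?_
      induction b using Quotient.inductionOn with | _ τ => ?_
      intro hab
      have h2 : conj k σ P = conj k τ P := congrArg Subtype.val hab
      refine QuotientGroup.eq.2 ?_
      show conj k (σ⁻¹ * τ) P = P
      rw [conj_mul, ← h2, conj_inv_conj]
    · rintro ⟨Q, hQ⟩
      obtain ⟨σ, hσ⟩ := exists_conj_eq ((mem_over.1 hQ).symm : down K P = down K Q)
      exact ⟨QuotientGroup.mk σ, Subtype.ext hσ⟩
  have h2 := Nat.card_eq_of_bijective f hf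
  have h3 := Subgroup.card_eq_card_quotient_mul_card_subgroup (inertia K P)
  rw [h2, IsGalois.card_aut_eq_finrank, ← h1, Nat.card_eq_fintype_card, Fintype.card_coe] at h3
  have h4 : 0 < S.card := Finset.card_pos.2 ⟨P, mem_over.2 rfl⟩
  exact (Nat.eq_of_mul_eq_mul_left h4 h3).symm

theorem ram_eq_one_iff (P : Plk k L) : ram K P = 1 ↔ inertia K P = ⊥ := by
  rw [← card_inertia, Subgroup.card_eq_one]

end galois

end P025H492
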