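import Mathlib
import Vale.Agent.P025.R2.H492.Ext4

set_option linter.all false

/-!
# Finite extensions of function fields of one variable: unramified extensions
-/

namespace P025H492

open Vale.Agent.P019P IntermediateField Polynomial

section defs

variable (k K L : Type*) [Field k] [Field K] [Field L] [Algebra k K] [Algebra k L]
  [Algebra K L] [IsScalarTower k K L] [CFF k K] [CFF k L] [Algebra.IsAlgebraic K L]

/-- everywhere unramified extensions of function fields over algebraically closed fields. -/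
def IsUnr : Prop := ∀ P : Plk k L, ram K P = 1

end defs

section basic

variable {k K L : Type*} [Field k] [Field K] [Field L] [Algebra k K] [Algebra k L]
  [Algebra K L] [IsScalarTower k K L] [CFF k K] [CFF k L]

section alg

variable [Algebra.IsAlgebraic K L]

theorem IsUnr.ord_algebraMap (h : IsUnr k K L) (P : Plk k L) (z : K) :
    ord P (algebraMap K L z) = ord (down K P) z := by
  rw [P025H492.ord_algebraMap, h P, Nat.cast_one, one_mul]

theorem ram_eq_one_of_exists {P : Plk k L} {z : K} (h : ord P (algebraMap K L z) = 1) :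
    ram K P = 1 := by
  rw [ord_algebraMap] at h
  have h1 : (ram K P : ℤ) ∣ 1 := ⟨_, h.symm⟩
  exact_mod_cast Int.eq_one_of_dvd_one (by positivity) h1

theorem ram_eq_one_iff_exists {P : Plk k L} :
    ram K P = 1 ↔ ∃ z : K, ord P (algebraMap K L z) = 1 := by
  refine ⟨fun h => ?_, fun ⟨z, hz⟩ => ram_eq_one_of_exists hz⟩
  obtain ⟨π, -, hπ⟩ := exists_unif (down K P)
  exact ⟨π, by rw [ord_algebraMap, h, hπ]; norm_num⟩

/-- comparison of values. -/
theorem val_le_iff {F : Type*} [Field F] [Algebra k F] [CFF k F] (P : Plk k F) {x y : F}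
    (hx : x ≠ 0) (hy : y ≠ 0) : P.1.valuation x ≤ P.1.valuation y ↔ ord P y ≤ ord P x := by
  have h0 : P.1.valuation y ≠ 0 := (Valuation.ne_zero_iff _).2 hy
  have h1 : P.1.valuation x ≤ P.1.valuation y ↔ P.1.valuation (x / y) ≤ 1 := by
    rw [map_div₀, div_le_one₀ (zero_lt_iff.2 h0)]
  rw [h1, ValuationSubring.valuation_le_one_iff, mem_iff_ord, div_eq_mul_inv,
    ord_mul _ hx (inv_ne_zero hy), ord_inv]
  constructor
  · rintro (h | h)
    · exact absurd h (mul_ne_zero hx (inv_ne_zero hy))
    · omega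
  · intro h
    right
    omega

theorem val_eq_iff {F : Type*} [Field F] [Algebra k F] [CFF k F] (P : Plk k F) {x y : F}
    (hx : x ≠ 0) (hy : y ≠ 0) : P.1.valuation x = P.1.valuation y ↔ ord P x = ord P y := by
  rw [le_antisymm_iff, val_le_iff P hx hy, val_le_iff P hy hx]
  exact ⟨fun h => le_antisymm h.2 h.1, fun h => ⟨h.ge, h.le⟩⟩

/-- the definition of the section conjecture files: every value is a value from below. -/
theorem isUnr_iff_val : IsUnr k K L ↔ ∀ P : Plk k L, ∀ x : L, ∃ y : K,
    P.1.valuation (algebraMap K L y) = P.1.valuation x := by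
  constructor
  · intro h P x
    by_cases hx : x = 0
    · exact ⟨0, by rw [hx, map_zero]⟩
    obtain ⟨π, hπ0, hπ⟩ := exists_unif (down K P)
    refine ⟨π ^ ord P x, ?_⟩
    rw [val_eq_iff P ((_root_.map_ne_zero _).2 (zpow_ne_zero _ hπ0)) hx, h.ord_algebraMap,
      ord_zpow, hπ, mul_one]
  · intro h P
    obtain ⟨π, hπ0, hπ⟩ := exists_unif P
    obtain ⟨y, hy⟩ := h P π
    have hy0 : algebraMap K L y ≠ 0 := by
      rw [← Valuation.ne_zero_iff P.1.valuation, hy]
      exact (Valuation.ne_zero_iff _).2 hπ0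
    rw [val_eq_iff P hy0 hπ0, hπ] at hy
    exact ram_eq_one_of_exists hy

end alg

section finite

variable [FiniteDimensional K L]

/-- unramified at `P`: the fibre has the maximal number of points. -/
theorem card_fibre_le (P : Plk k K) :
    (over_finite (L := L) P).toFinset.card ≤ Module.finrank K L := by
  rw [← sum_ram (L := L) P, Finset.card_eq_sum_ones]
  exact Finset.sum_le_sum fun P' _ => ram_pos P'

theorem ram_eq_one_of_card {P : Plk k K}
    (h : Module.finrank K L ≤ (over_finite (L := L) P).toFinset.card) {P' : Plk k L}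
    (hP' : down K P' = P) : ram K P' = 1 := by
  have h1 : ∑ Q ∈ (over_finite (L := L) P).toFinset, (ram K Q - 1) = 0 := by
    have h2 := sum_ram (L := L) P
    have h3 : ∑ Q ∈ (over_finite (L := L) P).toFinset, ram K Q =
        ∑ Q ∈ (over_finite (L := L) P).toFinset, (ram K Q - 1) +
          (over_finite (L := L) P).toFinset.card := by
      rw [Finset.card_eq_sum_ones, ← Finset.sum_add_distrib]
      refine Finset.sum_congr rfl fun Q _ => ?_
      have := ram_pos (K := K) Q
      omega
    omega
  have h2 := Finset.sum_eq_zero_iff.1 h1 P' (mem_over.2 hP')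
  have := ram_pos (K := K) P'
  omega

theorem IsUnr.card (h : IsUnr k K L) (P : Plk k K) :
    (over_finite (L := L) P).toFinset.card = Module.finrank K L := by
  rw [← sum_ram (L := L) P, Finset.card_eq_sum_ones]
  exact Finset.sum_congr rfl fun P' _ => (h P').symm

theorem isUnr_iff_inertia [IsGalois K L] : IsUnr k K L ↔ ∀ P : Plk k L, inertia K P = ⊥ :=
  forall_congr' fun P => ram_eq_one_iff P

end finite

end basic

section tower

variable {k K L M : Type*} [Field k] [Field K] [Field L] [Field M]
  [Algebra k K] [Algebra k L] [Algebra k M] [Algebra K L] [Algebra K M] [Algebra L M]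
  [IsScalarTower k K L] [IsScalarTower k K M] [IsScalarTower k L M] [IsScalarTower K L M]
  [CFF k K] [CFF k L] [CFF k M]

theorem IsUnr.trans [Algebra.IsAlgebraic K L] [Algebra.IsAlgebraic K M] [Algebra.IsAlgebraic L M]
    (h : IsUnr k K L) (h' : IsUnr k L M) : IsUnr k K M := by
  intro P
  rw [ram_mul (K := K) (L := L), h, h' P]

theorem IsUnr.top [Algebra.IsAlgebraic K L] [Algebra.IsAlgebraic K M] [Algebra.IsAlgebraic L M]
    (h : IsUnr k K M) : IsUnr k L M := by
  intro P
  have h1 := h P
  rw [ram_mul (K := K) (L := L)] at h1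
  exact Nat.eq_one_of_mul_eq_one_right h1

theorem IsUnr.bot [Algebra.IsAlgebraic K L] [Algebra.IsAlgebraic K M] [FiniteDimensional L M]
    (h : IsUnr k K M) : IsUnr k K L := by
  intro P
  obtain ⟨P', rfl⟩ := exists_over (L := M) P
  have h1 := h P'
  rw [ram_mul (K := K) (L := L)] at h1
  exact Nat.eq_one_of_mul_eq_one_left h1

end tower

section kummer

variable {k K L : Type*} [Field k] [Field K] [Field L] [Algebra k K] [Algebra k L]
  [Algebra K L] [IsScalarTower k K L] [CFF k K] [CFF k L] [FiniteDimensional K L]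

/-- an inertia element acts trivially on an `n`-th root of a function whose order is divisible
by `n`. -/
theorem inertia_root {n : ℕ} (hn : (n : k) ≠ 0) {P : Plk k L} {σ : L ≃ₐ[K] L}
    (hσ : σ ∈ inertia K P) {y : L} (hy : y ≠ 0) {f : K} (hyf : y ^ n = algebraMap K L f)
    (hf : (n : ℤ) ∣ ord (down K P) f) : σ y = y := by
  have hn0 : n ≠ 0 := by
    rintro rfl
    exact hn Nat.cast_zero
  have hac : IsAlgClosed k := CFF.ac (k := k) (F := K)
  obtain ⟨m, hm⟩ := hf
  obtain ⟨π, hπ0, hπ⟩ := exists_unif (down K P)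
  -- `z = y / π ^ m` is a unit
  set w : L := algebraMap K L (π ^ m) with hw
  have hw0 : w ≠ 0 := (_root_.map_ne_zero _).2 (zpow_ne_zero _ hπ0)
  set z : L := y * w⁻¹ with hz
  have hz0 : z ≠ 0 := mul_ne_zero hy (inv_ne_zero hw0)
  have hf0 : f ≠ 0 := by
    rintro rfl
    rw [map_zero] at hyf
    exact hy (eq_zero_of_pow_eq_zero hyf)
  have hordz : ord P z = 0 := by
    have h1 : ord P (z ^ n) = 0 := by
      rw [hz, mul_pow, hyf, inv_pow, hw, ← map_pow, ← map_inv₀, ← map_mul, ord_algebraMap,
        ord_mul _ hf0 (inv_ne_zero (pow_ne_zero _ (zpow_ne_zero _ hπ0))), ord_inv, ord_pow,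
        ord_zpow, hπ, hm]
      ring
    rw [ord_pow] at h1
    rcases mul_eq_zero.1 h1 with h2 | h2
    · exact absurd (by exact_mod_cast h2) hn0
    · exact h2
  obtain ⟨c, hc⟩ := exists_cst P ((mem_iff_ord P z).2 (Or.inr hordz.ge))
  have hc0 : c ≠ 0 := by
    rintro rfl
    rw [map_zero, sub_zero] at hc
    rcases hc with h | h
    · exact hz0 h
    · omega
  have hσw : σ w = w := σ.commutes _
  -- `σ y / y` is a root of unity
  have hpow : (σ z * z⁻¹) ^ n = 1 := by
    have h1 : (σ y) ^ n = y ^ n := by rw [← map_pow, hyf, AlgEquiv.commutes]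
    have h2 : (σ z) ^ n = z ^ n := by
      rw [hz, map_mul, map_inv₀, hσw, mul_pow, mul_pow, h1]
    rw [mul_pow, h2, ← mul_pow, mul_inv_cancel₀ hz0, one_pow]
  obtain ⟨ζ, hζ⟩ : ∃ ζ : k, σ z * z⁻¹ = algebraMap k L ζ := by
    by_contra hcon
    push Not at hcon
    obtain ⟨Q, hQ⟩ := exists_zero hcon
    have h3 := congrArg (ord Q) hpow
    rw [ord_pow, ord_one] at h3
    rcases mul_eq_zero.1 h3 with h4 | h4
    · exact hn0 (by exact_mod_cast h4)
    · omega
  have hσz : σ z = algebraMap k L ζ * z := by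
    rw [← hζ, mul_assoc, inv_mul_cancel₀ hz0, mul_one]
  have hzc : ∀ u : L, u = 0 ∨ 0 < ord P u → ∀ v : L, v = 0 ∨ 0 < ord P v → 
      u - v = 0 ∨ 0 < ord P (u - v) := by
    intro u hu v hv
    by_cases huv : u - v = 0
    · exact Or.inl huv
    right
    by_cases hu0 : u = 0
    · rw [hu0, zero_sub, ord_neg]
      rcases hv with h | h
      · rw [hu0, h, sub_zero] at huv
        exact absurd rfl huv
      · exact h
    by_cases hv0 : v = 0
    · rw [hv0, sub_zero]
      exact hu.resolve_left hu0
    have h1 := ord_le_add P hu0 (neg_ne_zero.2 hv0) (by rwa [← sub_eq_add_neg])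
    rw [← sub_eq_add_neg, ord_neg] at h1
    have h2 := hu.resolve_left hu0
    have h3 := hv.resolve_left hv0
    omega
  have hzc1 : z - algebraMap k L c = 0 ∨ 0 < ord P (z - algebraMap k L c) := by
    rcases hc with h | h
    · exact Or.inl (sub_eq_zero.2 h)
    · exact Or.inr h
  have h5 : σ z - algebraMap k L c = 0 ∨ 0 < ord P (σ z - algebraMap k L c) := by
    rcases hc with h | h
    · left
      rw [h, IsScalarTower.algebraMap_apply k K L, AlgEquiv.commutes, sub_self]
    · exact Or.inr (inertia_residue hσ h)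
  -- `ζ z - c` and `ζ (z - c)` are both small
  have h6 : algebraMap k L ζ * (z - algebraMap k L c) = 0 ∨
      0 < ord P (algebraMap k L ζ * (z - algebraMap k L c)) := by
    rcases hzc1 with h | h
    · left
      rw [h, mul_zero]
    · by_cases hζ0 : algebraMap k L ζ = 0
      · left
        rw [hζ0, zero_mul]
      · right
        have h7 : z - algebraMap k L c ≠ 0 := by
          intro h8
          rw [h8, ord_zero] at h
          exact lt_irrefl _ h
        rw [ord_mul _ hζ0 h7, ord_const]
        omega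
  have h7 := hzc _ h6 _ h5
  have h8 : algebraMap k L ζ * (z - algebraMap k L c) - (σ z - algebraMap k L c) =
      algebraMap k L (c * (1 - ζ)) := by
    rw [hσz, map_mul, map_sub, map_one]
    ring
  rw [h8, ord_const] at h7
  have h9 : c * (1 - ζ) = 0 := by
    rcases h7 with h | h
    · exact (_root_.map_eq_zero _).1 h
    · exact absurd h (lt_irrefl _)
  have h10 : ζ = 1 := by
    rcases mul_eq_zero.1 h9 with h | h
    · exact absurd h hc0
    · exact (sub_eq_zero.1 h).symm
  rw [h10, map_one, one_mul] at hσz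
  have hyz : y = z * w := by rw [hz, mul_assoc, inv_mul_cancel₀ hw0, mul_one]
  rw [hyz, map_mul, hσz, hσw]

/-- a field generated by radicals over a field containing the algebraically closed field `k` is
Galois. -/
theorem isGalois_radicals {S : Set L} (hS : adjoin K S = ⊤)
    (h : ∀ y ∈ S, ∃ (n : ℕ) (f : K), (n : k) ≠ 0 ∧ y ^ n = algebraMap K L f) : IsGalois K L := by
  have hac : IsAlgClosed k := CFF.ac (k := k) (F := K)
  have key : ∀ y ∈ S, IsIntegral K y ∧ ((minpoly K y).map (algebraMap K L)).Splits ∧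
      IsSeparable K y := by
    intro y hy
    refine ⟨Algebra.IsIntegral.isIntegral y, ?_⟩
    by_cases hy0 : y = 0
    · rw [hy0]
      refine ⟨?_, ?_⟩
      · rw [minpoly.zero, Polynomial.map_X]
        exact Splits.X
      · rw [IsSeparable, minpoly.zero]
        exact separable_X
    obtain ⟨n, f, hn, hyf⟩ := h y hy
    have hn0 : 0 < n := by
      rw [Nat.pos_iff_ne_zero]
      rintro rfl
      exact hn Nat.cast_zero
    haveI : NeZero (n : k) := ⟨hn⟩
    obtain ⟨ζ, hζ⟩ := HasEnoughRootsOfUnity.exists_primitiveRoot k n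
    have hζL := hζ.map_of_injective (algebraMap k L).injective
    have hf0 : f ≠ 0 := by
      rintro rfl
      rw [map_zero] at hyf
      exact hy0 (eq_zero_of_pow_eq_zero hyf)
    have hdvd : minpoly K y ∣ X ^ n - C f := minpoly.dvd K y (by
      rw [map_sub, map_pow, aeval_X, aeval_C, hyf, sub_self])
    have hn' : (n : K) ≠ 0 := by
      rw [← map_natCast (algebraMap k K) n]
      exact (_root_.map_ne_zero _).2 hn
    constructor
    · refine Splits.of_dvd ?_ ?_ (Polynomial.map_dvd (algebraMap K L) hdvd)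
      · rw [Polynomial.map_sub, Polynomial.map_pow, Polynomial.map_X, Polynomial.map_C]
        exact X_pow_sub_C_splits_of_isPrimitiveRoot hζL hyf
      · exact Polynomial.map_ne_zero (X_pow_sub_C_ne_zero hn0 f)
    · exact (separable_X_pow_sub_C f hn' hf0).of_dvd hdvd
  haveI h1 : Algebra.IsSeparable K L := by
    have h2 : Algebra.IsSeparable K (adjoin K S) :=
      (isSeparable_adjoin_iff_isSeparable K L).2 fun y hy => (key y hy).2.2
    rw [hS] at h2
    exact AlgEquiv.Algebra.isSeparable (topEquiv (F := K) (E := L))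
  haveI h2 : Normal K L := ⟨fun x => splits_of_mem_adjoin K L (S := S)
    (fun y hy => ⟨(key y hy).1, (key y hy).2.1⟩) (hS ▸ mem_top)⟩
  exact ⟨⟩

/-- Kummer extensions by functions with divisors divisible by the exponents are unramified. -/
theorem isUnr_radicals {S : Set L} (hS : adjoin K S = ⊤)
    (h : ∀ y ∈ S, ∃ (n : ℕ) (f : K), (n : k) ≠ 0 ∧ y ^ n = algebraMap K L f ∧
      ∀ P : Plk k K, (n : ℤ) ∣ ord P f) : IsUnr k K L := by
  haveI := isGalois_radicals (k := k) hS fun y hy => by
    obtain ⟨n, f, h1, h2, -⟩ := h y hy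
    exact ⟨n, f, h1, h2⟩
  rw [isUnr_iff_inertia]
  intro P
  rw [Subgroup.eq_bot_iff_forall]
  intro σ hσ
  have h1 : ∀ y ∈ S, σ y = y := by
    intro y hy
    by_cases hy0 : y = 0
    · rw [hy0, map_zero]
    obtain ⟨n, f, hn, hyf, hf⟩ := h y hy
    exact inertia_root hn hσ hy0 hyf (hf _)
  have h2 : adjoin K S ≤ fixedField (Subgroup.zpowers σ) := by
    rw [adjoin_le_iff]
    intro y hy
    show y ∈ fixedField (Subgroup.zpowers σ)
    rw [mem_fixedField_iff]
    rintro τ ⟨m, rfl⟩
    have h3 : σ ∈ MulAction.stabilizer (L ≃ₐ[K] L) y := h1 y hy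
    exact (zpow_mem h3 m : σ ^ m ∈ MulAction.stabilizer (L ≃ₐ[K] L) y)
  rw [hS, top_le_iff] at h2
  refine AlgEquiv.ext fun x => ?_
  have h3 : x ∈ fixedField (Subgroup.zpowers σ) := h2 ▸ mem_top
  rw [mem_fixedField_iff] at h3
  exact h3 σ (Subgroup.mem_zpowers σ)

/-- Kummer extensions by functions with divisor divisible by `n` are unramified. -/
theorem isUnr_kummer {n : ℕ} (hn : (n : k) ≠ 0) {y : L} {f : K}
    (hyf : y ^ n = algebraMap K L f) (hL : K⟮y⟯ = ⊤)
    (hf : ∀ P : Plk k K, (n : ℤ) ∣ ord P f) : IsUnr k K L :=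
  isUnr_radicals hL fun z hz => by
    rw [Set.mem_singleton_iff] at hz
    exact ⟨n, f, hn, hz ▸ hyf, hf⟩

end kummer

end P025H492
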