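import Vale.Agent.P025.R2.H492.Ext2

set_option linter.all false

/-!
# Finite extensions of function fields of one variable: divisors, towers, `CFF`
-/

namespace P025H492

open Vale.Agent.P019P IntermediateField Polynomial

section cff

variable {k K L : Type*} [Field k] [Field K] [Field L] [Algebra k K] [Algebra k L]
  [Algebra K L] [IsScalarTower k K L]

/-- a finite extension of a function field is a function field. -/
theorem cff_of_finite [h : CFF k K] [FiniteDimensional K L] : CFF k L := by
  obtain ⟨x, hx, hfin⟩ := h.ex
  refine ⟨h.ac, algebraMap K L x,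
    (transcendental_algebraMap_iff (algebraMap K L).injective).2 hx, ?_⟩
  haveI : FiniteDimensional k⟮x⟯ L := FiniteDimensional.trans k⟮x⟯ K L
  let f : K →ₐ[k] L := IsScalarTower.toAlgHom k K L
  let e : k⟮x⟯ ≃ₐ[k] (k⟮x⟯.map f) := IntermediateField.equivMap k⟮x⟯ f
  have h1 : k⟮x⟯.map f = k⟮algebraMap K L x⟯ := by
    rw [IntermediateField.adjoin_map, Set.image_singleton]
    rfl
  rw [← h1]
  refine Module.Finite.of_equiv_equiv e.toRingEquiv (RingEquiv.refl L) ?_
  ext x
  rfl

/-- a function field is finite over every subfield containing the constants and a transcendental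
element. -/
theorem finite_of_transcendental [h : CFF k L] {x : K} (hx : Transcendental k x) :
    FiniteDimensional K L := by
  have h1 : ∀ a : k, algebraMap K L x ≠ algebraMap k L a := by
    intro a ha
    rw [IsScalarTower.algebraMap_apply k K L] at ha
    exact hx ((algebraMap K L).injective ha ▸ isAlgebraic_algebraMap a)
  have h2 : FiniteDimensional k⟮algebraMap K L x⟯ L := (finite_of_notMem h1).2
  let f : K →ₐ[k] L := IsScalarTower.toAlgHom k K L
  let e : k⟮x⟯ ≃ₐ[k] (k⟮x⟯.map f) := IntermediateField.equivMap k⟮x⟯ f
  have h3 : k⟮x⟯.map f = k⟮algebraMap K L x⟯ := by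
    rw [IntermediateField.adjoin_map, Set.image_singleton]
    rfl
  rw [← h3] at h2
  haveI : Module.Finite k⟮x⟯ L := by
    refine Module.Finite.of_equiv_equiv e.symm.toRingEquiv (RingEquiv.refl L) ?_
    ext y
    obtain ⟨z, rfl⟩ := e.surjective y
    show algebraMap k⟮x⟯ L (e.symm (e z)) = algebraMap _ L (e z)
    rw [e.symm_apply_apply]
    rfl
  exact Module.Finite.of_restrictScalars_finite k⟮x⟯ K L

/-- a subfield of a function field, containing a transcendental element, is a function field. -/
theorem cff_down [h : CFF k L] {x : K} (hx : Transcendental k x) : CFF k K := by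
  refine ⟨h.ac, x, hx, ?_⟩
  haveI : FiniteDimensional k⟮x⟯ L := by
    have h1 : Transcendental k (IntermediateField.AdjoinSimple.gen k x) := by
      rw [← transcendental_algebraMap_iff (A := K) (algebraMap k⟮x⟯ K).injective]
      exact hx
    exact finite_of_transcendental h1
  exact Module.Finite.of_injective (IsScalarTower.toAlgHom k⟮x⟯ K L).toLinearMap
    (algebraMap K L).injective

end cff

section divisors

variable {k K L : Type*} [Field k] [Field K] [Field L] [Algebra k K] [Algebra k L]
  [Algebra K L] [IsScalarTower k K L] [CFF k K] [CFF k L]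

section alg

variable [Algebra.IsAlgebraic K L]

theorem mem_over {P : Plk k K} {P' : Plk k L} :
    P' ∈ (over_finite (L := L) P).toFinset ↔ down K P' = P := by
  rw [Set.Finite.mem_toFinset]
  rfl

variable (K) in
/-- push forward of divisors. -/
noncomputable def push : (Plk k L →₀ ℤ) →+ (Plk k K →₀ ℤ) :=
  Finsupp.mapDomain.addMonoidHom (down K)

@[simp] theorem push_single (P' : Plk k L) (n : ℤ) :
    push K (Finsupp.single P' n) = Finsupp.single (down K P') n :=
  Finsupp.mapDomain_single

theorem push_apply (D : Plk k L →₀ ℤ) (P : Plk k K) :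
    push K D P = ∑ P' ∈ (over_finite (L := L) P).toFinset, D P' := by
  classical
  induction D using Finsupp.induction_linear with
  | zero => rw [map_zero]; simp
  | add f g hf hg =>
    rw [map_add, Finsupp.add_apply, hf, hg, ← Finset.sum_add_distrib]
    rfl
  | single Q n =>
    rw [push_single]
    simp only [Finsupp.single_apply]
    by_cases h : down K Q = P
    · rw [if_pos h, Finset.sum_ite_eq, if_pos (mem_over.2 h)]
    · rw [if_neg h, Finset.sum_ite_eq, if_neg fun h1 => h (mem_over.1 h1)]

theorem dg_push (D : Plk k L →₀ ℤ) : dg (push K D) = dg D := by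
  induction D using Finsupp.induction_linear with
  | zero => rw [map_zero, map_zero, map_zero]
  | add f g hf hg => rw [map_add, map_add, map_add, hf, hg]
  | single Q n => rw [push_single, dg_sgl, dg_sgl]

theorem push_nonneg {D : Plk k L →₀ ℤ} (h : 0 ≤ D) : 0 ≤ push K D := by
  intro P
  rw [push_apply]
  exact Finset.sum_nonneg fun P' _ => h P'

theorem pull_finite (D : Plk k K →₀ ℤ) :
    {P' : Plk k L | (ram K P' : ℤ) * D (down K P') ≠ 0}.Finite := by
  refine (Set.Finite.biUnion D.support.finite_toSet fun P _ => over_finite (L := L) P).subset ?_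
  intro P' hP'
  simp only [Set.mem_iUnion]
  refine ⟨down K P', ?_, rfl⟩
  rw [Finset.mem_coe, Finsupp.mem_support_iff]
  exact right_ne_zero_of_mul hP'

variable (L) in
/-- pull back of divisors. -/
noncomputable def pull : (Plk k K →₀ ℤ) →+ (Plk k L →₀ ℤ) where
  toFun D := Finsupp.ofSupportFinite (fun P' => (ram K P' : ℤ) * D (down K P')) (pull_finite D)
  map_zero' := by
    ext P'
    show (ram K P' : ℤ) * 0 = 0
    rw [mul_zero]
  map_add' D E := by
    ext P'
    show (ram K P' : ℤ) * (D (down K P') + E (down K P')) = _
    rw [mul_add]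
    rfl

theorem pull_apply (D : Plk k K →₀ ℤ) (P' : Plk k L) :
    pull L D P' = ram K P' * D (down K P') := rfl

theorem dv_algebraMap (z : K) : dv k (algebraMap K L z) = pull L (dv k z) := by
  ext P'
  rw [dv_apply, pull_apply, dv_apply, ord_algebraMap]

theorem pull_mono {D E : Plk k K →₀ ℤ} (h : D ≤ E) : pull L D ≤ pull L E := by
  intro P'
  rw [pull_apply, pull_apply]
  exact mul_le_mul_of_nonneg_left (h _) (by positivity)

end alg

section finite

variable [FiniteDimensional K L]

theorem dv_norm (z : L) : dv k (Algebra.norm K z) = push K (dv k z) := by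
  ext P
  rw [dv_apply, ord_norm, push_apply]
  exact Finset.sum_congr rfl fun P' _ => (dv_apply z P').symm

theorem exists_eq_down (P : Plk k K) : ∃ P' : Plk k L, P = down K P' := by
  obtain ⟨P', h⟩ := exists_over (L := L) P
  exact ⟨P', h.symm⟩

theorem push_pull (D : Plk k K →₀ ℤ) : push K (pull L D) = Module.finrank K L • D := by
  ext P
  rw [push_apply, Finsupp.smul_apply, nsmul_eq_mul, ← sum_ram (L := L) P]
  push_cast
  rw [Finset.sum_mul]
  refine Finset.sum_congr rfl fun P' hP' => ?_
  rw [pull_apply, mem_over.1 hP']

theorem dg_pull (D : Plk k K →₀ ℤ) : dg (pull L D) = Module.finrank K L * dg D := by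
  rw [← dg_push (K := K), push_pull, map_nsmul, nsmul_eq_mul]

theorem pull_injective : Function.Injective (pull (k := k) (K := K) L) := by
  rw [injective_iff_map_eq_zero]
  intro D hD
  have h := push_pull (L := L) D
  rw [hD, map_zero] at h
  rcases smul_eq_zero.1 h.symm with h1 | h1
  · exact absurd h1 (Module.finrank_pos (R := K) (M := L)).ne'
  · exact h1

/-- principal divisors are pushed to principal divisors. -/
theorem push_prn {D : Plk k L →₀ ℤ} (h : D ∈ prn k L) : push K D ∈ prn k K := by
  obtain ⟨z, hz, rfl⟩ := h
  exact ⟨Algebra.norm K z, norm_ne_zero' hz, (dv_norm z).symm⟩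

theorem pull_prn {D : Plk k K →₀ ℤ} (h : D ∈ prn k K) : pull L D ∈ prn k L := by
  obtain ⟨z, hz, rfl⟩ := h
  exact ⟨algebraMap K L z, (_root_.map_ne_zero _).2 hz, (dv_algebraMap z).symm⟩

end finite

end divisors

section tower

variable {k K L M : Type*} [Field k] [Field K] [Field L] [Field M]
  [Algebra k K] [Algebra k L] [Algebra k M] [Algebra K L] [Algebra K M] [Algebra L M]
  [IsScalarTower k K L] [IsScalarTower k K M] [IsScalarTower k L M] [IsScalarTower K L M]
  [CFF k K] [CFF k L] [CFF k M]
  [Algebra.IsAlgebraic K L] [Algebra.IsAlgebraic K M] [Algebra.IsAlgebraic L M]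

omit [CFF k K] [CFF k L] [CFF k M] in
theorem down_down (P : Plk k M) : down K (down L P) = down K P := by
  refine Subtype.ext (ValuationSubring.ext _ _ fun z => ?_)
  rw [mem_down, mem_down, mem_down, ← IsScalarTower.algebraMap_apply]

theorem ram_mul (P : Plk k M) : ram K P = ram L P * ram K (down L P) := by
  obtain ⟨π, hπ0, hπ⟩ := exists_unif (down K P)
  refine ram_eq (z := π) (by omega) ?_
  rw [IsScalarTower.algebraMap_apply K L M, ord_algebraMap, ord_algebraMap, down_down]
  push_cast
  ring

theorem push_push (D : Plk k M →₀ ℤ) : push K (push L D) = push K D := by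
  induction D using Finsupp.induction_linear with
  | zero => simp
  | add f g hf hg => rw [map_add, map_add, map_add, hf, hg]
  | single Q n => rw [push_single, push_single, push_single, down_down]

theorem pull_pull (D : Plk k K →₀ ℤ) : pull M (pull L D) = pull M D := by
  ext P
  rw [pull_apply, pull_apply, pull_apply, down_down, ram_mul (K := K) (L := L) P]
  push_cast
  ring

end tower

end P025H492
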