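import Vale.Agent.P025.R2.H492.Ext5
import Vale.Agent.P025.H16.BaseChange

set_option linter.all false

/-!
# Comparison with the notions of the section conjecture files; composita
-/

namespace P025H492

open Vale.Agent.P019P IntermediateField Polynomial

section places

variable {k K : Type*} [Field k] [Field K] [Algebra k K] [CFF k K]

/-- the places of a function field are discrete valuation rings. -/
theorem isPlace (P : Plk k K) : P025H641.IsPlace k K P.1 := by
  refine ⟨P.2.1, IsDiscreteValuationRing.ofHasUnitMulPowIrreducibleFactorization ?_⟩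
  obtain ⟨π, hπ0, hπ⟩ := exists_unif P
  have hmem : π ∈ P.1 := (mem_iff_ord P π).2 (Or.inr (by omega))
  have hunit : ∀ u : P.1, (u : K) ≠ 0 → ord P (u : K) = 0 → IsUnit u := by
    intro u hu0 hu
    refine IsUnit.of_mul_eq_one (⟨(u : K)⁻¹, (mem_iff_ord P _).2 (Or.inr (by
      rw [ord_inv, hu, neg_zero]))⟩ : P.1) ?_
    exact Subtype.ext (mul_inv_cancel₀ hu0)
  have hunit' : ∀ u : P.1, IsUnit u → ord P (u : K) = 0 := by
    rintro u hu
    obtain ⟨v, hv⟩ := hu.exists_right_inv
    have h1 : (u : K) * (v : K) = 1 := congrArg Subtype.val hv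
    have hu0 : (u : K) ≠ 0 := left_ne_zero_of_mul (h1 ▸ one_ne_zero)
    have hv0 : (v : K) ≠ 0 := right_ne_zero_of_mul (h1 ▸ one_ne_zero)
    have h2 := congrArg (ord P) h1
    rw [ord_mul _ hu0 hv0, ord_one] at h2
    have h3 := ord_nonneg_of_mem P u.2
    have h4 := ord_nonneg_of_mem P v.2
    omega
  refine ⟨⟨π, hmem⟩, ?_, ?_⟩
  · rw [irreducible_iff]
    refine ⟨fun h => ?_, fun a b hab => ?_⟩
    · have := hunit' _ h
      simp only at this
      omega
    · have h1 : π = (a : K) * (b : K) := congrArg Subtype.val hab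
      have ha0 : (a : K) ≠ 0 := left_ne_zero_of_mul (h1 ▸ hπ0)
      have hb0 : (b : K) ≠ 0 := right_ne_zero_of_mul (h1 ▸ hπ0)
      have h2 := congrArg (ord P) h1
      rw [ord_mul _ ha0 hb0, hπ] at h2
      have h3 := ord_nonneg_of_mem P a.2
      have h4 := ord_nonneg_of_mem P b.2
      rcases (by omega : ord P (a : K) = 0 ∨ ord P (b : K) = 0) with h5 | h5
      · exact Or.inl (hunit a ha0 h5)
      · exact Or.inr (hunit b hb0 h5)
  · intro x hx
    have hx0 : (x : K) ≠ 0 := fun h => hx (Subtype.ext h)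
    have h3 := ord_nonneg_of_mem P x.2
    refine ⟨(ord P (x : K)).toNat, ?_⟩
    have hπn : π ^ (ord P (x : K)).toNat ≠ 0 := pow_ne_zero _ hπ0
    set u : K := (x : K) * (π ^ (ord P (x : K)).toNat)⁻¹ with hu
    have hu0 : u ≠ 0 := mul_ne_zero hx0 (inv_ne_zero hπn)
    have hordu : ord P u = 0 := by
      rw [hu, ord_mul _ hx0 (inv_ne_zero hπn), ord_inv, ord_pow, hπ]
      omega
    have huP : u ∈ P.1 := (mem_iff_ord P u).2 (Or.inr hordu.ge)
    obtain ⟨v, hv⟩ := hunit ⟨u, huP⟩ hu0 hordu
    refine ⟨v, ?_⟩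
    rw [hv]
    apply Subtype.ext
    show π ^ (ord P (x : K)).toNat * u = x
    rw [hu]
    field_simp

theorem ne_top_of_isPlace {V : ValuationSubring K} (hV : P025H641.IsPlace k K V) : V ≠ ⊤ := by
  rintro rfl
  haveI := hV.discrete
  obtain ⟨p, hp⟩ := IsDiscreteValuationRing.exists_irreducible (⊤ : ValuationSubring K)
  apply hp.not_isUnit
  have hp0 : (p : K) ≠ 0 := fun h => hp.ne_zero (Subtype.ext h)
  refine IsUnit.of_mul_eq_one (⟨(p : K)⁻¹, ValuationSubring.mem_top _⟩ : (⊤ : ValuationSubring K)) ?_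
  exact Subtype.ext (mul_inv_cancel₀ hp0)

/-- a place in the sense of the section conjecture files as a place of the library. -/
def ofPlace {V : ValuationSubring K} (hV : P025H641.IsPlace k K V) : Plk k K :=
  ⟨V, hV.const_mem, ne_top_of_isPlace hV⟩

theorem forall_isPlace {p : ValuationSubring K → Prop} :
    (∀ V, P025H641.IsPlace k K V → p V) ↔ ∀ P : Plk k K, p P.1 :=
  ⟨fun h P => h P.1 (isPlace P), fun h V hV => h (ofPlace hV)⟩

/-- divisibility by `n` at all places. -/
theorem isDivisible_iff {n : ℕ} {f : K} (hf : f ≠ 0) :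
    P025H641.IsDivisible n k f ↔ ∀ P : Plk k K, (n : ℤ) ∣ ord P f := by
  rw [P025H641.IsDivisible, forall_isPlace]
  refine forall_congr' fun P => ⟨?_, ?_⟩
  · rintro ⟨y, hy⟩
    rw [← map_pow] at hy
    have hy0 : y ^ n ≠ 0 := by
      rw [← Valuation.ne_zero_iff P.1.valuation, ← hy]
      exact (Valuation.ne_zero_iff _).2 hf
    rw [val_eq_iff P hf hy0, ord_pow] at hy
    exact ⟨_, hy⟩
  · rintro ⟨m, hm⟩
    obtain ⟨π, hπ0, hπ⟩ := exists_unif P
    refine ⟨π ^ m, ?_⟩
    rw [← map_pow, val_eq_iff P hf (pow_ne_zero _ (zpow_ne_zero _ hπ0)), ord_pow, ord_zpow, hπ, hm,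
      mul_one]

end places

section unr

variable {k K L : Type*} [Field k] [Field K] [Field L] [Algebra k K] [Algebra k L]
  [Algebra K L] [IsScalarTower k K L] [CFF k K] [CFF k L] [Algebra.IsAlgebraic K L]

/-- the two definitions of unramified extensions agree. -/
theorem isUnr_iff : IsUnr k K L ↔ P025H641.IsUnramified k K L := by
  rw [isUnr_iff_val, P025H641.IsUnramified, forall_isPlace]

end unr

section base

variable {k K L₁ L₂ M : Type*} [Field k] [Field K] [Field L₁] [Field L₂] [Field M]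
  [Algebra k K] [Algebra k L₁] [Algebra k L₂] [Algebra k M] [Algebra K L₁] [Algebra K L₂]
  [Algebra K M] [Algebra L₁ M] [Algebra L₂ M]
  [IsScalarTower k K L₁] [IsScalarTower k K L₂] [IsScalarTower k K M] [IsScalarTower k L₁ M]
  [IsScalarTower k L₂ M] [IsScalarTower K L₁ M] [IsScalarTower K L₂ M]
  [CFF k K] [CFF k L₁] [CFF k L₂] [CFF k M]

/-- base change of unramified extensions. -/
theorem IsUnr.base_change [CharZero k] [FiniteDimensional K L₁] [FiniteDimensional K L₂]
    [FiniteDimensional K M] [FiniteDimensional L₂ M]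
    (hgen : Algebra.adjoin L₂ (Set.range (algebraMap L₁ M)) = ⊤) (h : IsUnr k K L₁) :
    IsUnr k L₂ M := by
  rw [isUnr_iff] at h ⊢
  refine P025H16.unram_base_change (E := K) (E' := L₁) (K := L₂) (F := M) ?_ h
  intro x
  have hx : x ∈ Algebra.adjoin L₂ (Set.range (algebraMap L₁ M)) := hgen ▸ Algebra.mem_top
  have hcl : (Submonoid.closure (Set.range (algebraMap L₁ M)) : Set M) =
      Set.range (algebraMap L₁ M) := by
    have h1 : Set.range (algebraMap L₁ M) = ((algebraMap L₁ M).range.toSubmonoid : Set M) := rfl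
    rw [h1, Submonoid.closure_eq]
  rw [← Subalgebra.mem_toSubmodule, Algebra.adjoin_eq_span, hcl,
    Submodule.mem_span_set'] at hx
  obtain ⟨n, a, g, hxg⟩ := hx
  choose b hb using fun i => (g i).2
  refine ⟨n, a, b, ?_⟩
  rw [← hxg]
  refine Finset.sum_congr rfl fun i _ => ?_
  rw [hb, Algebra.smul_def]

/-- composita of unramified extensions. -/
theorem IsUnr.sup [CharZero k] [FiniteDimensional K L₁] [FiniteDimensional K L₂]
    [FiniteDimensional K M] [FiniteDimensional L₂ M]
    (hgen : Algebra.adjoin L₂ (Set.range (algebraMap L₁ M)) = ⊤) (h : IsUnr k K L₁)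
    (h' : IsUnr k K L₂) : IsUnr k K M :=
  h'.trans (h.base_change (L₂ := L₂) hgen)

end base

section equiv

variable {k K L M : Type*} [Field k] [Field K] [Field L] [Field M]
  [Algebra k K] [Algebra k L] [Algebra k M] [Algebra K L] [Algebra K M]
  [IsScalarTower k K L] [IsScalarTower k K M] [CFF k K] [CFF k L] [CFF k M]
  [Algebra.IsAlgebraic K L] [Algebra.IsAlgebraic K M]

/-- transport along an isomorphism over `K`. -/
theorem ram_tr (e : L ≃ₐ[K] M) (P : Plk k L) : ram K (tr (e.restrictScalars k) P) = ram K P := by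
  have hd : down K (tr (e.restrictScalars k) P) = down K P := by
    refine Subtype.ext (ValuationSubring.ext _ _ fun z => ?_)
    rw [mem_down, mem_down, mem_tr]
    show e.symm (algebraMap K M z) ∈ P.1 ↔ _
    rw [AlgEquiv.commutes]
  obtain ⟨π, hπ0, hπ⟩ := exists_unif (down K P)
  have h1 : ord (down K (tr (e.restrictScalars k) P)) π = 1 := by rw [hd, hπ]
  refine ram_eq (z := π) (by omega) ?_
  have h2 := ord_tr (e.restrictScalars k) P (algebraMap K L π)
  have h3 : (e.restrictScalars k) (algebraMap K L π) = algebraMap K M π := e.commutes π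
  rw [h3] at h2
  rw [h2, ord_algebraMap, h1, hπ]

theorem IsUnr.equiv (e : L ≃ₐ[K] M) (h : IsUnr k K L) : IsUnr k K M := by
  intro P
  have h1 := ram_tr e (tr (e.restrictScalars k).symm P)
  rw [tr_tr_symm] at h1
  rw [h1, h]

end equiv

end P025H492
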