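import Vale.Agent.P025.R2.H492.Der

set_option linter.all false

/-!
# The divisor of `dx`: lower bound for the degree
-/

namespace P025H492

open Vale.Agent.P019P IntermediateField Polynomial

section poly

variable {k K : Type*} [Field k] [Field K] [Algebra k K] [CFF k K]

/-- the order of a polynomial at a pole. -/
theorem ord_aeval_pole {P : Plk k K} {z : K} (hz : ord P z < 0) {u : k[X]} (hu : u ≠ 0) :
    aeval z u ≠ 0 ∧ ord P (aeval z u) = u.natDegree * ord P z := by
  have hz0 : z ≠ 0 := by
    rintro rfl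
    rw [ord_zero] at hz
    exact lt_irrefl _ hz
  letI : Invertible z := invertibleOfNonzero hz0
  have h1 := eval₂_reverse_mul_pow (algebraMap k K) z u
  rw [invOf_eq_inv] at h1
  have h2 : aeval z⁻¹ u.reverse ≠ 0 ∧ ord P (aeval z⁻¹ u.reverse) = 0 := by
    refine ord_aeval_of_coeff_ne (by rw [ord_inv]; omega) ?_
    rw [coeff_zero_reverse]
    exact leadingCoeff_ne_zero.2 hu
  have h3 : aeval z u = aeval z⁻¹ u.reverse * z ^ u.natDegree := h1.symm
  rw [h3]
  refine ⟨mul_ne_zero h2.1 (pow_ne_zero _ hz0), ?_⟩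
  rw [ord_mul _ h2.1 (pow_ne_zero _ hz0), h2.2, ord_pow, zero_add]

theorem ord_aeval_nonneg {P : Plk k K} {z : K} (hz : 0 ≤ ord P z) (u : k[X]) :
    0 ≤ ord P (aeval z u) := by
  rcases mem_Mge.1 (aeval_mem_zero hz u) with h | h
  · rw [h, ord_zero]
  · exact h

/-- the order of a polynomial which does not vanish at the value. -/
theorem ord_aeval_of_eval_ne {P : Plk k K} {z : K} {c : k} (hz : 0 < ord P (z - algebraMap k K c))
    {u : k[X]} (hu : u.eval c ≠ 0) : aeval z u ≠ 0 ∧ ord P (aeval z u) = 0 := by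
  have h1 : aeval z u = aeval (z - algebraMap k K c) (u.comp (X + C c)) := by
    rw [aeval_comp, map_add, aeval_X, aeval_C, sub_add_cancel]
  rw [h1]
  refine ord_aeval_of_coeff_ne hz ?_
  rw [coeff_zero_eq_eval_zero, eval_comp, eval_add, eval_X, eval_C, zero_add]
  exact hu

open Classical in
/-- clearing the finite poles of a function by a polynomial. -/
theorem exists_clear {x : K} (hx : ∀ a : k, x ≠ algebraMap k K a) {b : K} (hb : b ≠ 0) :
    ∃ u : k[X], u ≠ 0 ∧ (∀ P : Plk k K, 0 ≤ ord P x → 0 ≤ ord P (aeval x u * b)) ∧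
      ∀ c : k, (∀ P : Plk k K, 0 < ord P (x - algebraMap k K c) → 0 ≤ ord P b) →
        u.eval c ≠ 0 := by
  set S := (dv k b).support.filter (fun P => 0 ≤ ord P x) with hS
  set u : k[X] := ∏ P ∈ S, (X - C (vl P x)) ^ (-ord P b).toNat with hu
  have hau : aeval x u = ∏ P ∈ S, (x - algebraMap k K (vl P x)) ^ (-ord P b).toNat := by
    rw [hu, map_prod]
    refine Finset.prod_congr rfl fun P _ => ?_
    rw [map_pow, map_sub, aeval_X, aeval_C]
  have hne : ∀ P ∈ S, (x - algebraMap k K (vl P x)) ^ (-ord P b).toNat ≠ 0 := fun P _ =>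
    pow_ne_zero _ (sub_ne_zero.2 (hx _))
  have hau0 : aeval x u ≠ 0 := by
    rw [hau]
    exact Finset.prod_ne_zero_iff.2 hne
  refine ⟨u, ?_, ?_, ?_⟩
  · rintro h
    rw [h, map_zero] at hau0
    exact hau0 rfl
  · intro P hP
    rw [ord_mul _ hau0 hb, hau, ord_prod _ _ _ hne]
    have hnn : ∀ Q ∈ S, 0 ≤ ord P ((x - algebraMap k K (vl Q x)) ^ (-ord Q b).toNat) := by
      intro Q _
      rw [ord_pow]
      have h1 : 0 ≤ ord P (x - algebraMap k K (vl Q x)) := by
        have h2 : x - algebraMap k K (vl Q x) = aeval x (X - C (vl Q x)) := by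
          rw [map_sub, aeval_X, aeval_C]
        rw [h2]
        exact ord_aeval_nonneg hP _
      positivity
    by_cases hPS : P ∈ S
    · have h1 := Finset.single_le_sum hnn hPS
      have h2 : ord P ((x - algebraMap k K (vl P x)) ^ (-ord P b).toNat) ≥ -ord P b := by
        rw [ord_pow]
        have h3 := ord_sub_vl_pos hx hP
        have h4 := Int.self_le_toNat (-ord P b)
        nlinarith
      omega
    · have h1 : ord P b = 0 := by
        by_contra h2
        apply hPS
        rw [hS, Finset.mem_filter, Finsupp.mem_support_iff, dv_apply]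
        exact ⟨h2, hP⟩
      have h2 := Finset.sum_nonneg hnn
      omega
  · intro c hc h0
    rw [hu, eval_prod, Finset.prod_eq_zero_iff] at h0
    obtain ⟨P, hPS, hP⟩ := h0
    rw [eval_pow, eval_sub, eval_X, eval_C] at hP
    have h1 : c = vl P x := by
      have := eq_zero_of_pow_eq_zero hP
      exact sub_eq_zero.1 this
    have h2 : (-ord P b).toNat ≠ 0 := by
      intro h3
      rw [h3, pow_zero] at hP
      exact one_ne_zero hP
    have h3 : 0 ≤ ord P x := (Finset.mem_filter.1 hPS).2
    have h4 := hc P (by rw [h1]; exact ord_sub_vl_pos hx h3)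
    omega

theorem exists_Mr_bound {x z : K} (hz : z ≠ 0) (h : ∀ P : Plk k K, 0 ≤ ord P x → 0 ≤ ord P z) :
    ∃ m : ℕ, z ∈ Mr k x m := by
  refine ⟨∑ P ∈ (dv k z).support, (ord P z).natAbs, ?_⟩
  rw [mem_Mr]
  intro P
  refine mem_Mge.2 (Or.inr ?_)
  rw [pol_apply]
  by_cases hP : 0 ≤ ord P x
  · rw [max_eq_left (by omega), mul_zero, neg_zero]
    exact h P hP
  · push Not at hP
    have h1 : (ord P z).natAbs ≤ ∑ P ∈ (dv k z).support, (ord P z).natAbs := by
      by_cases h2 : ord P z = 0
      · rw [h2]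
        exact Nat.zero_le _
      · exact Finset.single_le_sum (f := fun P => (ord P z).natAbs) (fun _ _ => Nat.zero_le _)
          (by rw [Finsupp.mem_support_iff, dv_apply]; exact h2)
    have h3 : (1 : ℤ) ≤ max 0 (-ord P x) := le_max_of_le_right (by omega)
    have h4 : (((ord P z).natAbs : ℕ) : ℤ) ≤ ((∑ P ∈ (dv k z).support, (ord P z).natAbs : ℕ) : ℤ) :=
      by exact_mod_cast h1
    have h5 : -ord P z ≤ ((ord P z).natAbs : ℤ) := by omega
    nlinarith

end poly

section lower

variable {k K : Type*} [Field k] [Field K] [Algebra k K] [CFF k K] [CharZero k]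

/-- the functions with polynomial traces against a graded basis are sections of the sheaf of
differentials. -/
theorem dual_mem {x : K} (hx : ∀ a : k, x ≠ algebraMap k K a) [CFF k k⟮x⟯]
    [FiniteDimensional k⟮x⟯ K] {n : ℕ} {e : Fin n → K} {a : Fin n → ℕ}
    (he : GrB x (Mr k x) e a) {r : ℕ} (hr : 1 ≤ r) {θ : K} (hθ : θ ≠ 0)
    (q : Fin n → k[X]) (hq : ∀ i, q i ≠ 0 → (q i).natDegree + 2 ≤ a i + r)
    (htr : ∀ i, Algebra.trace k⟮x⟯ K (θ * e i) = aeval (AdjoinSimple.gen k x) (q i))
    (P : Plk k K) : -((ram k⟮x⟯ P : ℤ) - 1 - 2 * pol k x P + r * pol k x P) ≤ ord P θ := by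
  set t := AdjoinSimple.gen k x with ht
  have htx : algebraMap k⟮x⟯ K t = x := AdjoinSimple.algebraMap_gen k x
  have hx0 : x ≠ 0 := by
    intro h
    exact hx 0 (by rw [h, map_zero])
  have haev : ∀ f : k[X], algebraMap k⟮x⟯ K (aeval t f) = aeval x f := by
    intro f
    have h1 := aeval_algebraMap_apply K t f
    rw [htx] at h1
    exact h1.symm
  -- traces of cleared functions
  have hclear : ∀ (u : k[X]) (b : K) (m : ℤ), aeval x u * b ∈ Mr k x m →
      ∃ g : k[X], aeval t u * Algebra.trace k⟮x⟯ K (θ * b) = aeval t g ∧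
        (g ≠ 0 → (g.natDegree : ℤ) ≤ m + r - 2) := by
    intro u b m hub
    obtain ⟨φ, hφ, hφd⟩ := he.span m _ hub
    refine ⟨∑ i, φ i * q i, ?_, ?_⟩
    · have h1 : aeval t u * Algebra.trace k⟮x⟯ K (θ * b) =
          Algebra.trace k⟮x⟯ K (θ * (aeval x u * b)) := by
        have h2 : θ * (aeval x u * b) = (aeval t u) • (θ * b) := by
          rw [Algebra.smul_def, haev]
          ring
        rw [h2, map_smul, smul_eq_mul]
      rw [h1, hφ, Finset.mul_sum, map_sum, map_sum]
      refine Finset.sum_congr rfl fun i _ => ?_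
      have h3 : θ * (aeval x (φ i) * e i) = (aeval t (φ i)) • (θ * e i) := by
        rw [Algebra.smul_def, haev]
        ring
      rw [h3, map_smul, smul_eq_mul, htr, map_mul]
    · intro _
      have hterm : ∀ i, φ i * q i ≠ 0 → ((φ i * q i).natDegree : ℤ) ≤ m + r - 2 := by
        intro i hi
        have h4 := left_ne_zero_of_mul hi
        have h5 := right_ne_zero_of_mul hi
        have h6 := hφd i h4
        have h7 := hq i h5
        rw [natDegree_mul h4 h5]
        push_cast
        omega
      by_cases hm : 0 ≤ m + r - 2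
      · have h8 : (∑ i, φ i * q i).natDegree ≤ (m + r - 2).toNat := by
          refine natDegree_sum_le_of_forall_le _ _ fun i _ => ?_
          by_cases h9 : φ i * q i = 0
          · rw [h9, natDegree_zero]
            exact Nat.zero_le _
          · have := hterm i h9
            omega
        omega
      · exfalso
        apply ‹∑ i, φ i * q i ≠ 0›
        refine Finset.sum_eq_zero fun i _ => ?_
        by_contra h9
        have := hterm i h9
        omega
  by_cases hP : 0 ≤ ord P x
  · -- finite places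
    have hpol : pol k x P = 0 := by
      rw [pol_apply]
      omega
    rw [hpol]
    have hc := ord_sub_vl_pos hx hP
    set c := vl P x
    have hxc : x - algebraMap k K c = algebraMap k⟮x⟯ K (t - algebraMap k k⟮x⟯ c) := by
      rw [map_sub, htx, ← IsScalarTower.algebraMap_apply]
    have hQ : 0 < ord (down k⟮x⟯ P) (t - algebraMap k k⟮x⟯ c) := by
      rw [← ord_up_pos_iff, ← hxc]
      exact hc
    have key := (codifferent (down k⟮x⟯ P) hθ).1 (by
      intro b hb
      by_cases hb0 : b = 0
      · rw [hb0, mul_zero, map_zero, ord_zero]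
      obtain ⟨u, hu0, hu1, hu2⟩ := exists_clear hx hb0
      have huc : u.eval c ≠ 0 := hu2 c fun P' hP' => hb P' (by
        obtain ⟨Q, hQ1, hQ2⟩ := line_fib hx c
        rw [hQ2 _ hQ]
        apply hQ2
        rw [← ord_up_pos_iff, ← hxc]
        exact hP')
      have hub0 : aeval x u * b ≠ 0 := by
        refine mul_ne_zero ?_ hb0
        exact (ord_aeval_of_eval_ne hc huc).1
      obtain ⟨m, hm⟩ := exists_Mr_bound hub0 hu1
      obtain ⟨g, hg, -⟩ := hclear u b m hm
      obtain ⟨h1, h2⟩ := ord_aeval_of_eval_ne hQ huc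
      by_cases htr0 : Algebra.trace k⟮x⟯ K (θ * b) = 0
      · rw [htr0, ord_zero]
      have h3 : 0 ≤ ord (down k⟮x⟯ P) (aeval t g) := ord_aeval_nonneg (by
        refine ord_nonneg_of_sub (c := c) (mem_Mge_one_of_pos hQ)) g
      rw [← hg, ord_mul _ h1 htr0, h2, zero_add] at h3
      exact h3) P rfl
    omega
  · -- infinite places
    push Not at hP
    have hpol : pol k x P = ram k⟮x⟯ P := by
      have := ord_eq_neg_ram hx hP
      rw [pol_apply, this]
      omega
    rw [hpol]
    have hQx : ord (down k⟮x⟯ P) t < 0 := by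
      by_contra hcon
      push Not at hcon
      have h1 : ord P x = ram k⟮x⟯ P * ord (down k⟮x⟯ P) t := by
        conv_lhs => rw [← htx]
        rw [ord_algebraMap]
      have : 0 ≤ (ram k⟮x⟯ P : ℤ) * ord (down k⟮x⟯ P) t := by positivity
      omega
    obtain ⟨Q, hQ1, hQ2⟩ := line_inf hx
    have hQP : down k⟮x⟯ P = Q := hQ2 _ hQx
    have ht0 : t ≠ 0 := by
      intro h
      rw [h, ord_zero] at hQx
      exact lt_irrefl _ hQx
    have hxr : x ^ (2 - r : ℤ) ≠ 0 := zpow_ne_zero _ hx0
    have key := (codifferent (down k⟮x⟯ P) (mul_ne_zero hxr hθ)).1 (by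
      intro b hb
      by_cases hb0 : b = 0
      · rw [hb0, mul_zero, map_zero, ord_zero]
      obtain ⟨u, hu0, hu1, -⟩ := exists_clear hx hb0
      have hub : aeval x u * b ∈ Mr k x (u.natDegree : ℤ) := by
        rw [mem_Mr]
        intro P'
        by_cases hP' : 0 ≤ ord P' x
        · rw [pol_apply, max_eq_left (by omega), mul_zero, neg_zero]
          exact mem_Mge.2 (Or.inr (hu1 P' hP'))
        · push Not at hP'
          obtain ⟨h1, h2⟩ := ord_aeval_pole hP' hu0
          refine mem_Mge.2 (Or.inr ?_)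
          rw [pol_apply, max_eq_right (by omega), ord_mul _ h1 hb0, h2]
          have h3 : 0 ≤ ord P' b := by
            apply hb P'
            rw [hQP]
            apply hQ2
            by_contra hcon
            push Not at hcon
            have h4 : ord P' x = ram k⟮x⟯ P' * ord (down k⟮x⟯ P') t := by
              conv_lhs => rw [← htx]
              rw [ord_algebraMap]
            have : 0 ≤ (ram k⟮x⟯ P' : ℤ) * ord (down k⟮x⟯ P') t := by positivity
            omega
          linarith
      obtain ⟨g, hg, hgd⟩ := hclear u b _ hub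
      have hmulz : Algebra.trace k⟮x⟯ K (x ^ (2 - r : ℤ) * θ * b) =
          t ^ (2 - r : ℤ) * Algebra.trace k⟮x⟯ K (θ * b) := by
        have h5 : x ^ (2 - r : ℤ) * θ * b = (t ^ (2 - r : ℤ)) • (θ * b) := by
          rw [Algebra.smul_def, map_zpow₀, htx]
          ring
        rw [h5, map_smul, smul_eq_mul]
      rw [hmulz]
      by_cases htr0 : Algebra.trace k⟮x⟯ K (θ * b) = 0
      · rw [htr0, mul_zero, ord_zero]
      obtain ⟨h1, h2⟩ := ord_aeval_pole hQx hu0
      have hg0 : g ≠ 0 := by
        rintro rfl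
        rw [map_zero] at hg
        exact mul_ne_zero h1 htr0 hg
      obtain ⟨h3, h4⟩ := ord_aeval_pole hQx hg0
      have h5 := congrArg (ord (down k⟮x⟯ P)) hg
      rw [ord_mul _ h1 htr0, h2, h4, hQP, hQ1] at h5
      rw [ord_mul _ (zpow_ne_zero _ ht0) htr0, ord_zpow, hQP, hQ1]
      have h6 := hgd hg0
      linarith) P rfl
    rw [ord_mul _ hxr hθ, ord_zpow, ord_eq_neg_ram hx hP] at key
    linarith

end lower

end P025H492
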