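import Vale.Agent.P025.R2.H492.Canon1

set_option linter.all false

/-!
# The degree of the divisor of a differential
-/

namespace P025H492

open Vale.Agent.P019P IntermediateField Polynomial

section wd

variable {k K : Type*} [Field k] [Field K] [Algebra k K] [CFF k K] [CharZero k]

/-- the order of `dx` at a place: `e - 1` at finite places, `-(e+1)` at poles. -/
noncomputable def wd (x : K) (P : Plk k K) : ℤ :=
  if 0 ≤ ord P x then ord P (x - algebraMap k K (vl P x)) - 1 else ord P x - 1

theorem wd_eq {x : K} (hx : ∀ a : k, x ≠ algebraMap k K a) [CFF k k⟮x⟯]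
    [FiniteDimensional k⟮x⟯ K] (P : Plk k K) :
    wd x P = (ram k⟮x⟯ P : ℤ) - 1 - 2 * pol k x P := by
  rw [wd, pol_apply]
  split_ifs with h
  · rw [ord_sub_eq_ram hx (ord_sub_vl_pos hx h)]
    omega
  · push Not at h
    rw [ord_eq_neg_ram hx h]
    omega

theorem isSep (x : K) (hx : ∀ a : k, x ≠ algebraMap k K a) : Algebra.IsSeparable k⟮x⟯ K := by
  haveI : FiniteDimensional k⟮x⟯ K := (finite_of_notMem hx).2
  haveI : CharZero k⟮x⟯ := charZero_of_injective_algebraMap (algebraMap k k⟮x⟯).injective
  infer_instance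

/-- the set of critical values is finite. -/
theorem crit_finite {x : K} (hx : ∀ a : k, x ≠ algebraMap k K a) :
    {c : k | (fib_finite hx c).toFinset.card ≠ Module.finrank k⟮x⟯ K}.Finite := by
  by_contra hinf
  haveI := isSep x hx
  set N := (2 * (gen k K : ℤ) - 2 + 2 * Module.finrank k⟮x⟯ K).toNat + 1 with hN
  obtain ⟨s, hs, hcard⟩ := Set.Infinite.exists_subset_card_eq hinf N
  have h1 := RH hx s
  have h2 : ∀ c ∈ s, (1 : ℤ) ≤
      (Module.finrank k⟮x⟯ K : ℤ) - (fib_finite hx c).toFinset.card := by
    intro c hc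
    have h3 : (fib_finite hx c).toFinset.card ≠ Module.finrank k⟮x⟯ K := hs hc
    have h4 : (fib_finite hx c).toFinset.card ≤ Module.finrank k⟮x⟯ K := by
      have h5 := fib_sum hx c
      have h6 : ((fib_finite hx c).toFinset.card : ℤ) ≤
          ∑ P ∈ (fib_finite hx c).toFinset, ord P (x - algebraMap k K c) := by
        rw [Finset.card_eq_sum_ones, Nat.cast_sum]
        refine Finset.sum_le_sum fun P hP => ?_
        rw [Set.Finite.mem_toFinset] at hP
        have : 0 < ord P (x - algebraMap k K c) := hP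
        push_cast
        omega
      omega
    omega
  have h3 := Finset.sum_le_sum h2
  rw [Finset.sum_const, hcard, nsmul_eq_mul, mul_one] at h3
  omega

theorem wd_finite {x : K} (hx : ∀ a : k, x ≠ algebraMap k K a) :
    {P : Plk k K | wd x P ≠ 0}.Finite := by
  have h1 : (⋃ c ∈ {c : k | (fib_finite hx c).toFinset.card ≠ Module.finrank k⟮x⟯ K},
      {P : Plk k K | 0 < ord P (x - algebraMap k K c)}).Finite :=
    Set.Finite.biUnion (crit_finite hx) fun c _ => fib_finite hx c
  refine (h1.union (zeros_finite (nc_inv hx))).subset fun P hP => ?_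
  by_cases h : 0 ≤ ord P x
  · left
    have hpos := ord_sub_vl_pos hx h
    simp only [Set.mem_iUnion]
    refine ⟨vl P x, ?_, hpos⟩
    intro hcard
    apply hP
    rw [wd, if_pos h]
    have h5 := fib_sum hx (vl P x)
    have h6 : ∑ Q ∈ (fib_finite hx (vl P x)).toFinset,
        (ord Q (x - algebraMap k K (vl P x)) - 1) = 0 := by
      rw [Finset.sum_sub_distrib, h5, Finset.sum_const, hcard, nsmul_eq_mul, mul_one, sub_self]
    refine (Finset.sum_eq_zero_iff_of_nonneg fun Q hQ => ?_).1 h6 P ?_
    · rw [Set.Finite.mem_toFinset] at hQ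
      have : 0 < ord Q (x - algebraMap k K (vl P x)) := hQ
      omega
    · rw [Set.Finite.mem_toFinset]
      exact hpos
  · right
    show 0 < ord P x⁻¹
    rw [ord_inv]
    omega

variable (k) in
open Classical in
/-- the divisor of `dx`. -/
noncomputable def wdv (x : K) : Plk k K →₀ ℤ :=
  if hx : ∀ a : k, x ≠ algebraMap k K a then Finsupp.ofSupportFinite (wd x) (wd_finite hx) else 0

theorem wdv_apply {x : K} (hx : ∀ a : k, x ≠ algebraMap k K a) (P : Plk k K) :
    wdv k x P = wd x P := by
  rw [wdv, dif_pos hx]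
  rfl

/-- the lower bound for the degree of `dx`. -/
theorem le_dg_wdv {x : K} (hx : ∀ a : k, x ≠ algebraMap k K a) :
    2 * (gen k K : ℤ) - 2 ≤ dg (wdv k x) := by
  classical
  haveI : FiniteDimensional k⟮x⟯ K := (finite_of_notMem hx).2
  haveI : CFF k k⟮x⟯ := cff_adjoin hx
  haveI := isSep x hx
  obtain ⟨n, hn⟩ : ∃ n, n = Module.finrank k⟮x⟯ K := ⟨_, rfl⟩
  obtain ⟨e, a, he, hsum⟩ : ∃ (e : Fin n → K) (a : Fin n → ℕ), GrB x (Mr k x) e a ∧
      ∑ i, (a i : ℤ) = n + gen k K - 1 := by
    subst hn
    exact exists_GrB hx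
  have hnpos : 0 < n := by
    rw [hn]
    exact Module.finrank_pos
  let b : Module.Basis (Fin n) k⟮x⟯ K :=
    haveI : Nonempty (Fin n) := ⟨⟨0, hnpos⟩⟩
    basisOfLinearIndependentOfCardEqFinrank he.ind (by rw [Fintype.card_fin, hn])
  have hb : ∀ i, b i = e i := fun i => by
    simp [b]
  let b' := b.traceDual
  obtain ⟨r, hr⟩ : ∃ r : ℕ, r = (2 * (gen k K : ℤ) - 2 - dg (wdv k x)).toNat + 1 := ⟨_, rfl⟩
  have hr1 : 1 ≤ r := by omega
  let V := (i : Fin n) → degreeLT k (a i + r - 1)
  let t := AdjoinSimple.gen k x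
  have htx : algebraMap k⟮x⟯ K t = x := AdjoinSimple.algebraMap_gen k x
  have htr : Transcendental k t := by
    rw [← transcendental_algebraMap_iff (A := K) (algebraMap k⟮x⟯ K).injective, htx]
    exact (finite_of_notMem hx).1
  let Φ : V →ₗ[k] K :=
    { toFun := fun q => ∑ i, (aeval t (q i : k[X])) • b' i
      map_add' := fun p q => by
        rw [← Finset.sum_add_distrib]
        refine Finset.sum_congr rfl fun i _ => ?_
        show (aeval t ((p i : k[X]) + (q i : k[X]))) • b' i = _
        rw [map_add, add_smul]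
      map_smul' := fun c q => by
        rw [RingHom.id_apply, Finset.smul_sum]
        refine Finset.sum_congr rfl fun i _ => ?_
        show (aeval t (c • (q i : k[X]))) • b' i = _
        rw [map_smul, smul_assoc] }
  have hΦ : ∀ q : V, Φ q = ∑ i, (aeval t (q i : k[X])) • b' i := fun q => rfl
  have hinj : Function.Injective Φ := by
    rw [injective_iff_map_eq_zero]
    intro q hq
    rw [hΦ] at hq
    have h1 := Fintype.linearIndependent_iff.1 b'.linearIndependent _ hq
    funext i
    apply Subtype.ext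
    have h2 := h1 i
    by_contra h3
    exact htr ⟨q i, h3, h2⟩
  have hmem : ∀ q : V, Φ q ∈ LL k (wdv k x + r • pol k x) := by
    intro q
    by_cases h0 : Φ q = 0
    · rw [h0]
      exact zero_mem _
    refine mem_LL.2 (Or.inr fun P => ?_)
    have h1 := dual_mem hx he hr1 h0 (fun i => (q i : k[X])) (by
      intro i hi
      have h2 := mem_degreeLT.1 (q i).2
      rw [degree_eq_natDegree hi] at h2
      have h3 : (q i : k[X]).natDegree < a i + r - 1 := by exact_mod_cast h2
      omega) (by
      intro i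
      rw [hΦ, Finset.sum_mul, map_sum, ← hb]
      rw [Finset.sum_congr rfl fun j _ => by
        rw [smul_mul_assoc, map_smul, b.trace_traceDual_mul, smul_eq_mul]]
      simp [t]) P
    rw [Finsupp.add_apply, wdv_apply hx, wd_eq hx, Finsupp.smul_apply, nsmul_eq_mul]
    exact h1
  have h1 : Module.finrank k V ≤ Module.finrank k (LL k (wdv k x + r • pol k x)) :=
    LinearMap.finrank_le_finrank_of_injective (f := Φ.codRestrict _ hmem) (by
      intro p q hpq
      exact hinj (congrArg Subtype.val hpq))
  have h2 : Module.finrank k V = ∑ i, (a i + r - 1) := by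
    rw [Module.finrank_pi_fintype]
    refine Finset.sum_congr rfl fun i _ => ?_
    rw [LinearEquiv.finrank_eq (degreeLTEquiv k (a i + r - 1)), Module.finrank_fin_fun]
  have h3 : ((∑ i, (a i + r - 1) : ℕ) : ℤ) = n + gen k K - 1 + n * (r - 1) := by
    have h4 : ∀ i, ((a i + r - 1 : ℕ) : ℤ) = a i + (r - 1) := by
      intro i
      omega
    push_cast [h4]
    rw [Finset.sum_add_distrib, hsum]
    simp only [Finset.sum_const, Finset.card_univ, Fintype.card_fin, nsmul_eq_mul]
  have hpolr : dg (r • pol k x : Plk k K →₀ ℤ) = r * n := by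
    rw [map_nsmul, dg_pol hx, nsmul_eq_mul, hn]
  have h4 : dg (wdv k x + r • pol k x) = dg (wdv k x) + r * n := by rw [map_add, hpolr]
  have h5 : (r : ℤ) ≤ r * n := by
    have : (1 : ℤ) ≤ n := by exact_mod_cast hnpos
    nlinarith
  have h6 := RR_large (D := wdv k x + r • pol k x) (by
    rw [h4, dg_can_eq]
    omega)
  rw [h4] at h6
  have h7 : ((∑ i, (a i + r - 1) : ℕ) : ℤ) ≤
      Module.finrank k (LL k (wdv k x + r • pol k x)) := by
    rw [← h2]
    exact_mod_cast h1
  rw [h3, h6] at h7
  linarith

/-- the upper bound for the degree of `dx`, for functions with simple poles. -/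
theorem dg_wdv_le {x : K} (hx : ∀ a : k, x ≠ algebraMap k K a)
    (hpole : ∀ P : Plk k K, ord P x < 0 → ord P x = -1) :
    dg (wdv k x) ≤ 2 * (gen k K : ℤ) - 2 := by
  classical
  haveI := isSep x hx
  set S := (wdv k x).support.filter (fun P => 0 ≤ ord P x) with hS
  set s : Finset k := S.image (fun P => vl P x) with hs
  set I := (pol k x).support with hI
  have hRH := RH hx s
  -- the contribution of the finite places
  have h1 : ∑ P ∈ S, wd x P ≤ ∑ c ∈ s, ((Module.finrank k⟮x⟯ K : ℤ) -
      (fib_finite hx c).toFinset.card) := by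
    rw [← Finset.sum_fiberwise_of_maps_to (g := fun P => vl P x) (t := s)
      (fun P hP => Finset.mem_image_of_mem _ hP)]
    refine Finset.sum_le_sum fun c _ => ?_
    have h2 : (Module.finrank k⟮x⟯ K : ℤ) - (fib_finite hx c).toFinset.card =
        ∑ P ∈ (fib_finite hx c).toFinset, (ord P (x - algebraMap k K c) - 1) := by
      rw [Finset.sum_sub_distrib, fib_sum hx c, Finset.sum_const, nsmul_eq_mul, mul_one]
    rw [h2]
    have hfilt : ∀ P ∈ S.filter (fun P => vl P x = c), wd x P =
        ord P (x - algebraMap k K c) - 1 := by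
      intro P hP
      rw [Finset.mem_filter] at hP
      have h3 : 0 ≤ ord P x := (Finset.mem_filter.1 hP.1).2
      rw [wd, if_pos h3, hP.2]
    rw [Finset.sum_congr rfl hfilt]
    refine Finset.sum_le_sum_of_subset_of_nonneg ?_ ?_
    · intro P hP
      rw [Finset.mem_filter] at hP
      have h3 : 0 ≤ ord P x := (Finset.mem_filter.1 hP.1).2
      rw [Set.Finite.mem_toFinset]
      show 0 < ord P (x - algebraMap k K c)
      rw [← hP.2]
      exact ord_sub_vl_pos hx h3
    · intro P hP _
      rw [Set.Finite.mem_toFinset] at hP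
      have : 0 < ord P (x - algebraMap k K c) := hP
      omega
  -- the contribution of the poles
  have hIord : ∀ P : Plk k K, P ∈ I ↔ ord P x < 0 := by
    intro P
    rw [hI, Finsupp.mem_support_iff, pol_apply]
    omega
  have h2 : ∑ P ∈ I, wd x P = -2 * Module.finrank k⟮x⟯ K := by
    have h3 : ∀ P ∈ I, wd x P = -2 * pol k x P := by
      intro P hP
      have h4 := (hIord P).1 hP
      rw [wd, if_neg (by omega), pol_apply, hpole P h4]
      norm_num
    rw [Finset.sum_congr rfl h3, ← Finset.mul_sum, ← dg_pol hx,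
      dg_eq_sum (S := I) fun P hP => Finsupp.notMem_support_iff.1 hP]
  have h3 : dg (wdv k x) = ∑ P ∈ S ∪ I, wd x P := by
    rw [dg_eq_sum (S := S ∪ I)]
    · exact Finset.sum_congr rfl fun P _ => wdv_apply hx P
    · intro P hP
      rw [Finset.mem_union, not_or] at hP
      by_contra h4
      apply hP.1
      rw [hS, Finset.mem_filter, Finsupp.mem_support_iff]
      refine ⟨h4, ?_⟩
      by_contra h5
      exact hP.2 ((hIord P).2 (by omega))
  have hdisj : Disjoint S I := by
    rw [Finset.disjoint_left]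
    intro P hP hP'
    have h4 := (hIord P).1 hP'
    have h5 : 0 ≤ ord P x := (Finset.mem_filter.1 hP).2
    omega
  rw [h3, Finset.sum_union hdisj, h2]
  linarith

/-- a function all of whose poles are simple. -/
theorem exists_simple_poles (k K : Type*) [Field k] [Field K] [Algebra k K] [CFF k K]
    [CharZero k] : ∃ x : K, (∀ a : k, x ≠ algebraMap k K a) ∧
      ∀ P : Plk k K, ord P x < 0 → ord P x = -1 := by
  obtain ⟨y, hy, _⟩ := CFF.ex (k := k) (F := K)
  have hync : ∀ a : k, y ≠ algebraMap k K a := fun a h => hy (h ▸ isAlgebraic_algebraMap a)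
  obtain ⟨c, hc⟩ := (crit_finite hync).exists_notMem
  refine ⟨(y - algebraMap k K c)⁻¹, nc_inv (nc_sub hync c), fun P hP => ?_⟩
  rw [ord_inv] at hP ⊢
  have h1 : (fib_finite hync c).toFinset.card = Module.finrank k⟮y⟯ K := by
    by_contra h
    exact hc h
  have h2 : ∑ Q ∈ (fib_finite hync c).toFinset, (ord Q (y - algebraMap k K c) - 1) = 0 := by
    rw [Finset.sum_sub_distrib, fib_sum hync c, Finset.sum_const, h1, nsmul_eq_mul, mul_one,
      sub_self]
  have h3 := (Finset.sum_eq_zero_iff_of_nonneg fun Q hQ => by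
    rw [Set.Finite.mem_toFinset] at hQ
    have : 0 < ord Q (y - algebraMap k K c) := hQ
    omega).1 h2 P (by
      rw [Set.Finite.mem_toFinset]
      show 0 < ord P (y - algebraMap k K c)
      omega)
  omega

end wd

end P025H492
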