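import Vale.Agent.P025.R2.H492.Canon2

set_option linter.all false

/-!
# Differentials: the degree of the divisor is `2g - 2`; genera of unramified extensions
-/

namespace P025H492

open Vale.Agent.P019P IntermediateField Polynomial

section forms

variable {k K : Type*} [Field k] [Field K] [Algebra k K] [CFF k K] [CharZero k]

/-- the order of a derivation at a place: the order of the derivative of a uniformizer. -/
noncomputable def ordD (D : Derivation k K K) (P : Plk k K) : ℤ :=
  ord P (D (exists_unif P).choose)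

theorem ordD_eq {D : Derivation k K K} (hD : D ≠ 0) {P : Plk k K} {s : K} (hs : ord P s = 1) :
    ordD D P = ord P (D s) :=
  ord_der_unif hD (exists_unif P).choose_spec.2 hs

/-- the order of the derivative of a function. -/
theorem ord_D {D : Derivation k K K} (hD : D ≠ 0) {P : Plk k K} {z : K} (hz : ord P z ≠ 0) :
    ord P (D z) = ord P z - 1 + ordD D P := by
  have hs := (exists_unif P).choose_spec.2
  exact (ord_der hs (der_ne_zero hD (nc_of_ord (P := P) (by omega))) hz).2

theorem D_ne_zero {D : Derivation k K K} (hD : D ≠ 0) {P : Plk k K} {z : K} (hz : ord P z ≠ 0) :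
    D z ≠ 0 := der_ne_zero hD (nc_of_ord hz)

/-- derivatives of regular functions. -/
theorem D_mem {D : Derivation k K K} (hD : D ≠ 0) {P : Plk k K} {z : K} (hz : 0 ≤ ord P z) :
    D z ∈ Mge P (ordD D P) := by
  have hs := (exists_unif P).choose_spec.2
  exact der_mem hs (der_ne_zero hD (nc_of_ord (P := P) (by omega))) (mem_Mge.2 (Or.inr hz))

/-- the order of `D x` in terms of the order of `dx`. -/
theorem ord_D_eq_wd {D : Derivation k K K} (hD : D ≠ 0) {x : K}
    (hx : ∀ a : k, x ≠ algebraMap k K a) (P : Plk k K) :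
    ord P (D x) = wd x P + ordD D P := by
  rw [wd]
  split_ifs with h
  · have h1 := ord_D hD (P := P) (z := x - algebraMap k K (vl P x))
      (ord_sub_vl_pos hx h).ne'
    rw [map_sub, D.map_algebraMap, sub_zero] at h1
    exact h1
  · push Not at h
    exact ord_D hD h.ne

theorem ordD_finite {D : Derivation k K K} (hD : D ≠ 0) :
    {P : Plk k K | ordD D P ≠ 0}.Finite := by
  obtain ⟨x, hx, hDx⟩ := exists_der_ne_zero hD
  refine ((dv_finite hDx).union (wd_finite hx)).subset fun P hP => ?_
  by_contra h
  rw [Set.mem_union, not_or] at h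
  have h1 := ord_D_eq_wd hD hx P
  have h2 : ord P (D x) = 0 := by
    by_contra h3
    exact h.1 h3
  have h3 : wd x P = 0 := by
    by_contra h3
    exact h.2 h3
  apply hP
  omega

open Classical in
/-- the divisor of a derivation. -/
noncomputable def dvD (D : Derivation k K K) : Plk k K →₀ ℤ :=
  if hD : D ≠ 0 then Finsupp.ofSupportFinite (ordD D) (ordD_finite hD) else 0

theorem dvD_apply {D : Derivation k K K} (hD : D ≠ 0) (P : Plk k K) : dvD D P = ordD D P := by
  rw [dvD, dif_pos hD]
  rfl

theorem dv_D_eq {D : Derivation k K K} (hD : D ≠ 0) {x : K}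
    (hx : ∀ a : k, x ≠ algebraMap k K a) : dv k (D x) = wdv k x + dvD D := by
  ext P
  rw [dv_apply, Finsupp.add_apply, wdv_apply hx, dvD_apply hD, ord_D_eq_wd hD hx]

/-- the degree of a derivation is `2 - 2g`. -/
theorem dg_dvD {D : Derivation k K K} (hD : D ≠ 0) : dg (dvD D) = 2 - 2 * (gen k K : ℤ) := by
  obtain ⟨x, hx, hpole⟩ := exists_simple_poles k K
  have h1 := congrArg dg (dv_D_eq hD hx)
  rw [dg_dv, map_add] at h1
  have h2 := dg_wdv_le hx hpole
  have h3 := le_dg_wdv hx
  omega

/-- the degree of `dx` is `2g - 2` for every non-constant function (in the presence of a non-zero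
derivation). -/
theorem dg_wdv_of_D {D : Derivation k K K} (hD : D ≠ 0) {x : K}
    (hx : ∀ a : k, x ≠ algebraMap k K a) : dg (wdv k x) = 2 * (gen k K : ℤ) - 2 := by
  have h1 := congrArg dg (dv_D_eq hD hx)
  rw [dg_dv, map_add, dg_dvD hD] at h1
  omega

/-- the divisor of the differential `θ dt`, `D t = 1`. -/
noncomputable def dvf (D : Derivation k K K) (θ : K) : Plk k K →₀ ℤ := dv k θ - dvD D

theorem dvf_apply {D : Derivation k K K} (hD : D ≠ 0) (θ : K) {P : Plk k K} {s : K}
    (hs : ord P s = 1) : dvf D θ P = ord P θ - ord P (D s) := by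
  rw [dvf, Finsupp.sub_apply, dv_apply, dvD_apply hD, ordD_eq hD hs]

theorem dg_dvf {D : Derivation k K K} (hD : D ≠ 0) (θ : K) :
    dg (dvf D θ) = 2 * (gen k K : ℤ) - 2 := by
  rw [dvf, map_sub, dg_dv, dg_dvD hD]
  omega

/-- a differential on a curve of genus at least `2` has a zero. -/
theorem exists_zero_form {D : Derivation k K K} (hD : D ≠ 0) (θ : K) (hg : 2 ≤ gen k K) :
    ∃ P : Plk k K, ∀ s : K, ord P s = 1 → 0 < ord P θ - ord P (D s) := by
  by_contra hcon
  push Not at hcon
  have h1 : dvf D θ ≤ 0 := by
    intro P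
    obtain ⟨s, hs, hle⟩ := hcon P
    rw [dvf_apply hD θ hs]
    exact hle
  have h2 := dg_mono h1
  rw [dg_dvf hD, map_zero] at h2
  omega

end forms

section genus

variable {k K L : Type*} [Field k] [Field K] [Field L] [Algebra k K] [Algebra k L]
  [Algebra K L] [IsScalarTower k K L] [CFF k K] [CFF k L] [FiniteDimensional K L]

/-- `dx` on an extension. -/
theorem wd_up {x : K} (hx : ∀ a : k, x ≠ algebraMap k K a) (P' : Plk k L) :
    wd (algebraMap K L x) P' = ram K P' * (wd x (down K P') + 1) - 1 := by
  have hpos := ram_pos (K := K) P'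
  by_cases h : 0 ≤ ord (down K P') x
  · have h1 : 0 ≤ ord P' (algebraMap K L x) := by
      rw [ord_algebraMap]
      positivity
    have h2 : algebraMap K L x - algebraMap k L (vl (down K P') x) =
        algebraMap K L (x - algebraMap k K (vl (down K P') x)) := by
      rw [map_sub, ← IsScalarTower.algebraMap_apply]
    have h3 : vl P' (algebraMap K L x) = vl (down K P') x := by
      apply vl_eq_of_pos
      rw [h2, ord_up_pos_iff]
      exact ord_sub_vl_pos hx h
    rw [wd, if_pos h1, wd, if_pos h, h3, h2, ord_algebraMap]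
    ring
  · have h1 : ¬ 0 ≤ ord P' (algebraMap K L x) := by
      rw [ord_algebraMap]
      push Not at h ⊢
      have : (0 : ℤ) < ram K P' := by exact_mod_cast hpos
      nlinarith
    rw [wd, if_neg h1, wd, if_neg h, ord_algebraMap]
    ring

/-- the ramification divisor of an extension. -/
theorem wdv_up [CharZero k] {x : K} (hx : ∀ a : k, x ≠ algebraMap k K a) (P' : Plk k L) :
    wdv k (algebraMap K L x) P' = pull L (wdv k x) P' + (ram K P' - 1) := by
  rw [wdv_apply (nc_up hx), pull_apply, wdv_apply hx, wd_up hx]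
  ring

end genus

end P025H492
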