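import Vale.Agent.P025.R2.H492.Line

set_option linter.all false

/-!
# Derivations of function fields at a place
-/

namespace P025H492

open Vale.Agent.P019P IntermediateField Polynomial

section vanish

variable {k K : Type*} [Field k] [Field K] [Algebra k K] [CFF k K] [CharZero k]

/-- a non-zero derivation does not vanish on non-constant functions. -/
theorem der_ne_zero {D : Derivation k K K} (hD : D ≠ 0) {x : K}
    (hx : ∀ a : k, x ≠ algebraMap k K a) : D x ≠ 0 := by
  intro h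
  apply hD
  haveI hK0 : CharZero K := charZero_of_injective_algebraMap (algebraMap k K).injective
  haveI : FiniteDimensional k⟮x⟯ K := (finite_of_notMem hx).2
  haveI : Algebra.FormallyUnramified k⟮x⟯ K := Algebra.FormallyUnramified.of_isSeparable _ _
  have h0 : ∀ y ∈ k⟮x⟯, D y = 0 := by
    intro y hy
    obtain ⟨p, q, rfl⟩ := (mem_adjoin_simple_iff k y).1 hy
    rw [div_eq_mul_inv, D.leibniz, D.leibniz_inv, D.map_aeval, D.map_aeval, h]
    simp
  let D' : Derivation k⟮x⟯ K K :=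
    { toFun := D
      map_add' := D.map_add
      map_smul' := fun a b => by
        rw [Algebra.smul_def, D.leibniz]
        have h1 : D (algebraMap k⟮x⟯ K a) = 0 := h0 _ a.2
        rw [h1, smul_zero, add_zero]
        rfl
      map_one_eq_zero' := D.map_one_eq_zero
      leibniz' := D.leibniz }
  have h1 : D' = 0 := by
    have h2 : ∀ y, D' y = 0 := by
      intro y
      have h3 := D'.liftKaehlerDifferential_comp_D y
      rw [← h3, Subsingleton.elim (KaehlerDifferential.D k⟮x⟯ K y) 0, map_zero]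
    exact Derivation.ext h2
  exact Derivation.ext fun y => DFunLike.congr_fun h1 y

theorem exists_der_ne_zero {D : Derivation k K K} (hD : D ≠ 0) :
    ∃ x : K, (∀ a : k, x ≠ algebraMap k K a) ∧ D x ≠ 0 := by
  obtain ⟨x, hx, _⟩ := CFF.ex (k := k) (F := K)
  have h : ∀ a : k, x ≠ algebraMap k K a := fun a h => hx (h ▸ isAlgebraic_algebraMap a)
  exact ⟨x, h, der_ne_zero hD h⟩

end vanish

section place

variable {k K : Type*} [Field k] [Field K] [Algebra k K] [CFF k K]

theorem mul_mem_of_mem {P : Plk k K} {n : ℤ} {z w : K} (hz : z ∈ Mge P 0) (hw : w ∈ Mge P n) :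
    z * w ∈ Mge P n := by
  have := mul_mem_Mge hz hw
  rwa [zero_add] at this

theorem mem_of_unit_mul {P : Plk k K} {n : ℤ} {u w : K} (hu0 : u ≠ 0) (hu : ord P u = 0)
    (h : u * w ∈ Mge P n) : w ∈ Mge P n := by
  have h1 : u⁻¹ ∈ Mge P 0 := mem_Mge.2 (Or.inr (by rw [ord_inv, hu, neg_zero]))
  have h2 := mul_mem_of_mem h1 h
  rwa [← mul_assoc, inv_mul_cancel₀ hu0, one_mul] at h2

/-- the regular functions whose derivative has order at least `δ`. -/
def GoodD (D : Derivation k K K) (P : Plk k K) (δ : ℤ) (z : K) : Prop :=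
  z ∈ Mge P 0 ∧ D z ∈ Mge P δ

theorem GoodD.mul {D : Derivation k K K} {P : Plk k K} {δ : ℤ} {z w : K} (hz : GoodD D P δ z)
    (hw : GoodD D P δ w) : GoodD D P δ (z * w) := by
  refine ⟨mul_mem_of_mem hz.1 hw.1, ?_⟩
  rw [D.leibniz, smul_eq_mul, smul_eq_mul]
  exact add_mem (mul_mem_of_mem hz.1 hw.2) (mul_mem_of_mem hw.1 hz.2)

theorem GoodD.add {D : Derivation k K K} {P : Plk k K} {δ : ℤ} {z w : K} (hz : GoodD D P δ z)
    (hw : GoodD D P δ w) : GoodD D P δ (z + w) :=
  ⟨add_mem hz.1 hw.1, by rw [D.map_add]; exact add_mem hz.2 hw.2⟩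

theorem GoodD.const (D : Derivation k K K) (P : Plk k K) (δ : ℤ) (c : k) :
    GoodD D P δ (algebraMap k K c) :=
  ⟨mem_Mge.2 (Or.inr (ord_const P c).ge), by rw [D.map_algebraMap]; exact zero_mem _⟩

theorem GoodD.pow {D : Derivation k K K} {P : Plk k K} {δ : ℤ} {z : K} (hz : GoodD D P δ z)
    (n : ℕ) : GoodD D P δ (z ^ n) := by
  induction n with
  | zero =>
    rw [pow_zero, ← map_one (algebraMap k K)]
    exact GoodD.const D P δ 1
  | succ n ih =>
    rw [pow_succ]
    exact ih.mul hz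

theorem GoodD.inv {D : Derivation k K K} {P : Plk k K} {δ : ℤ} {z : K} (hz : GoodD D P δ z)
    (h : ord P z = 0) : GoodD D P δ z⁻¹ := by
  have h1 : z⁻¹ ∈ Mge P 0 := mem_Mge.2 (Or.inr (by rw [ord_inv, h, neg_zero]))
  refine ⟨h1, ?_⟩
  rw [D.leibniz_inv, neg_smul, smul_eq_mul]
  refine neg_mem (mul_mem_of_mem ?_ hz.2)
  rw [pow_two]
  exact mul_mem_of_mem h1 h1

theorem GoodD.aev {D : Derivation k K K} {P : Plk k K} {δ : ℤ} {z : K} (hz : GoodD D P δ z)
    (f : k[X]) : GoodD D P δ (aeval z f) := by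
  induction f using Polynomial.induction_on' with
  | add p q hp hq => rw [map_add]; exact hp.add hq
  | monomial n a =>
    rw [aeval_monomial]
    exact (GoodD.const D P δ a).mul (hz.pow n)

/-- good functions on the line. -/
theorem GoodD.line {D : Derivation k K K} {P : Plk k K} {δ : ℤ} {s : K} (hs : GoodD D P δ s)
    (hs1 : ord P s = 1) {g : K} (hg : g ∈ k⟮s⟯) (hg0 : 0 ≤ ord P g) : GoodD D P δ g := by
  have hs0 : s ≠ 0 := by
    rintro rfl
    rw [ord_zero] at hs1
    exact zero_ne_one hs1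
  -- polynomials are powers of `s` times units
  have hpoly : ∀ p : k[X], aeval s p ≠ 0 → ∃ (m : ℕ) (u : K), u ≠ 0 ∧ ord P u = 0 ∧
      GoodD D P δ u ∧ aeval s p = s ^ m * u := by
    intro p hp
    have hp0 : p ≠ 0 := by
      rintro rfl
      exact hp (map_zero _)
    obtain ⟨q, hq⟩ := Polynomial.exists_eq_pow_rootMultiplicity_mul_and_not_dvd p hp0 0
    set m := p.rootMultiplicity 0
    rw [map_zero, sub_zero] at hq
    refine ⟨m, aeval s q, ?_, ?_, hs.aev q, ?_⟩
    · intro h0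
      apply hp
      rw [hq.1, map_mul, h0, mul_zero]
    · have h2 : q.coeff 0 ≠ 0 := by
        rw [Ne, ← X_dvd_iff]
        exact hq.2
      exact (ord_aeval_of_coeff_ne (by omega) h2).2
    · conv_lhs => rw [hq.1]
      rw [map_mul, map_pow, aeval_X]
  obtain ⟨p, q, rfl⟩ := (mem_adjoin_simple_iff k g).1 hg
  by_cases hp : aeval s p = 0
  · rw [hp, zero_div, ← map_zero (algebraMap k K)]
    exact GoodD.const D P δ 0
  by_cases hq : aeval s q = 0
  · rw [hq, div_zero, ← map_zero (algebraMap k K)]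
    exact GoodD.const D P δ 0
  obtain ⟨m, u, hu0, hu, hug, hpu⟩ := hpoly p hp
  obtain ⟨l, v, hv0, hv, hvg, hqv⟩ := hpoly q hq
  have hord : ord P (aeval s p / aeval s q) = (m : ℤ) - l := by
    rw [div_eq_mul_inv, ord_mul _ hp (inv_ne_zero hq), ord_inv, hpu, hqv,
      ord_mul _ (pow_ne_zero _ hs0) hu0, ord_mul _ (pow_ne_zero _ hs0) hv0, ord_pow, ord_pow,
      hs1, hu, hv]
    ring
  rw [hord] at hg0
  have hlm : l ≤ m := by omega
  have heq : aeval s p / aeval s q = s ^ (m - l) * (u * v⁻¹) := by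
    rw [hpu, hqv]
    obtain ⟨d, rfl⟩ := Nat.exists_eq_add_of_le hlm
    rw [Nat.add_sub_cancel_left, pow_add]
    field_simp
  rw [heq]
  exact (hs.pow _).mul (hug.mul (hvg.inv hv))

theorem exists_mem_Mge (P : Plk k K) (z : K) : ∃ n : ℤ, ∀ m ≤ n, z ∈ Mge P m :=
  ⟨ord P z, fun _ hm => mem_Mge.2 (Or.inr hm)⟩

theorem exists_mem_Mge_fin (P : Plk k K) {ι : Type*} [Finite ι] (f : ι → K) :
    ∃ n : ℤ, ∀ i, f i ∈ Mge P n := by
  classical
  haveI := Fintype.ofFinite ι
  refine ⟨-∑ i, |ord P (f i)|, fun i => mem_Mge.2 (Or.inr ?_)⟩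
  have h1 : |ord P (f i)| ≤ ∑ i, |ord P (f i)| :=
    Finset.single_le_sum (f := fun i => |ord P (f i)|) (fun _ _ => abs_nonneg _)
      (Finset.mem_univ i)
  have h2 := neg_abs_le (ord P (f i))
  omega

/-- derivations are bounded at a place. -/
theorem exists_der_bound [CharZero k] (D : Derivation k K K) (P : Plk k K) :
    ∃ m : ℤ, ∀ z ∈ Mge P 0, D z ∈ Mge P m := by
  classical
  obtain ⟨s, hs0, hs⟩ := exists_unif P
  have hK0 : CharZero K := charZero_of_injective_algebraMap (algebraMap k K).injective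
  have hnc : ∀ a : k, s ≠ algebraMap k K a := nc_of_ord (P := P) (by omega)
  haveI : FiniteDimensional k⟮s⟯ K := (finite_of_notMem hnc).2
  haveI : CFF k k⟮s⟯ := cff_adjoin hnc
  haveI : CharZero k⟮s⟯ := charZero_of_injective_algebraMap (algebraMap k k⟮s⟯).injective
  set Q := down k⟮s⟯ P with hQ
  let b := Module.finBasis k⟮s⟯ K
  let b' := b.traceDual
  -- `s ^ N * b' i` is regular over `Q`
  obtain ⟨N, hN⟩ : ∃ N : ℕ, ∀ i, ∀ P' : Plk k K, down k⟮s⟯ P' = Q → 0 ≤ ord P' (s ^ N * b' i) := by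
    refine ⟨(∑ i, ∑ P' ∈ (over_finite (K := k⟮s⟯) (L := K) Q).toFinset,
      |ord P' (b' i)|).toNat, fun i P' hP' => ?_⟩
    have h1 : |ord P' (b' i)| ≤ ∑ P' ∈ (over_finite (K := k⟮s⟯) (L := K) Q).toFinset,
        |ord P' (b' i)| :=
      Finset.single_le_sum (f := fun P' => |ord P' (b' i)|) (fun _ _ => abs_nonneg _)
        (mem_over.2 hP')
    have h2 : ∑ P' ∈ (over_finite (K := k⟮s⟯) (L := K) Q).toFinset, |ord P' (b' i)| ≤
        ∑ i, ∑ P' ∈ (over_finite (K := k⟮s⟯) (L := K) Q).toFinset, |ord P' (b' i)| :=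
      Finset.single_le_sum (f := fun i => ∑ P' ∈ (over_finite (K := k⟮s⟯) (L := K) Q).toFinset,
        |ord P' (b' i)|) (fun _ _ => Finset.sum_nonneg fun _ _ => abs_nonneg _)
        (Finset.mem_univ i)
    have hs1 : 0 < ord P' s := by
      have h3 : s = algebraMap k⟮s⟯ K (AdjoinSimple.gen k s) :=
        (AdjoinSimple.algebraMap_gen k s).symm
      rw [h3, ord_up_pos_iff, hP', hQ, ← ord_up_pos_iff, ← h3]
      omega
    by_cases hb : b' i = 0
    · rw [hb, mul_zero, ord_zero]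
    rw [ord_mul _ (pow_ne_zero _ hs0) hb, ord_pow]
    have h4 := neg_abs_le (ord P' (b' i))
    set T := ∑ i, ∑ P' ∈ (over_finite (K := k⟮s⟯) (L := K) Q).toFinset, |ord P' (b' i)|
    have h5 : 0 ≤ T := (abs_nonneg _).trans (h1.trans h2)
    rw [Int.toNat_of_nonneg h5]
    nlinarith
  obtain ⟨δ, hδ⟩ := exists_mem_Mge P (D s)
  obtain ⟨m₁, hm₁⟩ := exists_mem_Mge_fin P fun i => (s ^ N)⁻¹ * b i
  obtain ⟨m₂, hm₂⟩ := exists_mem_Mge_fin P fun i => D ((s ^ N)⁻¹ * b i)
  have hsg : GoodD D P δ s := ⟨mem_Mge.2 (Or.inr (by omega)), hδ δ le_rfl⟩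
  -- functions regular over `Q`
  have hB : ∀ z : K, (∀ P' : Plk k K, down k⟮s⟯ P' = Q → 0 ≤ ord P' z) →
      D z ∈ Mge P (min (m₁ + δ) m₂) := by
    intro z hz
    have hz0 : ∀ i, 0 ≤ ord Q (Algebra.trace k⟮s⟯ K (z * (s ^ N * b' i))) := by
      intro i
      refine ord_nonneg_trace Q _ fun P' hP' => ?_
      by_cases hz1 : z = 0
      · rw [hz1, zero_mul, ord_zero]
      by_cases hb : s ^ N * b' i = 0
      · rw [hb, mul_zero, ord_zero]
      rw [ord_mul _ hz1 hb]
      have := hz P' hP'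
      have := hN i P' hP'
      omega
    have hrep : z = ∑ i, (algebraMap k⟮s⟯ K (Algebra.trace k⟮s⟯ K (z * (s ^ N * b' i)))) *
        ((s ^ N)⁻¹ * b i) := by
      have h1 : ∀ i, Algebra.trace k⟮s⟯ K (z * (s ^ N * b' i)) =
          (AdjoinSimple.gen k s) ^ N * b.repr z i := by
        intro i
        have h2 : z * (s ^ N * b' i) = ((AdjoinSimple.gen k s) ^ N) • (z * b' i) := by
          rw [Algebra.smul_def, map_pow, AdjoinSimple.algebraMap_gen]
          ring
        rw [h2, map_smul, smul_eq_mul]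
        congr 1
        conv_lhs => rw [← b.sum_repr z]
        rw [Finset.sum_mul, map_sum]
        rw [Finset.sum_congr rfl fun j _ => by
          rw [smul_mul_assoc, map_smul, b.trace_mul_traceDual, smul_eq_mul]]
        simp
      conv_lhs => rw [← b.sum_repr z]
      refine Finset.sum_congr rfl fun i _ => ?_
      rw [h1, map_mul, map_pow, AdjoinSimple.algebraMap_gen, Algebra.smul_def]
      field_simp
    rw [hrep, map_sum]
    refine sum_mem fun i _ => ?_
    have hg : GoodD D P δ (algebraMap k⟮s⟯ K (Algebra.trace k⟮s⟯ K (z * (s ^ N * b' i)))) := by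
      refine hsg.line hs (Subtype.mem _) ?_
      rw [ord_algebraMap]
      have := hz0 i
      positivity
    rw [D.leibniz, smul_eq_mul, smul_eq_mul]
    refine add_mem (Mge_mono P (min_le_right _ _) (mul_mem_of_mem hg.1 (hm₂ i)))
      (Mge_mono P (min_le_left _ _) (mul_mem_Mge (hm₁ i) hg.2))
  refine ⟨min (m₁ + δ) m₂, fun z hz => ?_⟩
  by_cases hz0 : z = 0
  · rw [hz0, map_zero]
    exact zero_mem _
  have hex : ∃ u : K, u ≠ 0 ∧ ∀ P' ∈ (over_finite (K := k⟮s⟯) (L := K) Q).toFinset,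
      ord P' u = if P' = P then 0 else max 0 (-ord P' z) :=
    exists_ord_eq _ fun P' => if P' = P then 0 else max 0 (-ord P' z)
  obtain ⟨u, hu0, hu⟩ := hex
  have huP : ord P u = 0 := by rw [hu P (mem_over.2 rfl), if_pos rfl]
  have hzP : 0 ≤ ord P z := (mem_Mge.1 hz).resolve_left hz0
  have h1 := hB (u * z) (fun P' hP' => by
    rw [ord_mul _ hu0 hz0, hu P' (mem_over.2 hP')]
    split_ifs with h
    · rw [h]; omega
    · omega)
  have h2 := hB u (fun P' hP' => by
    rw [hu P' (mem_over.2 hP')]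
    split_ifs
    · exact le_rfl
    · exact le_max_left _ _)
  rw [D.leibniz, smul_eq_mul, smul_eq_mul] at h1
  have h3 := sub_mem h1 (mul_mem_of_mem hz h2)
  rw [add_sub_cancel_right] at h3
  exact mem_of_unit_mul hu0 huP h3

/-- expansion to a given order. -/
theorem exists_expand {D : Derivation k K K} {P : Plk k K} {δ : ℤ} {s : K} (hs : GoodD D P δ s)
    (hs1 : ord P s = 1) {z : K} (hz : z ∈ Mge P 0) (n : ℕ) :
    ∃ g w : K, GoodD D P δ g ∧ w ∈ Mge P 0 ∧ z = g + s ^ n * w := by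
  have hs0 : s ≠ 0 := by
    rintro rfl
    rw [ord_zero] at hs1
    exact zero_ne_one hs1
  induction n with
  | zero =>
    refine ⟨0, z, ?_, hz, by rw [pow_zero, one_mul, zero_add]⟩
    rw [← map_zero (algebraMap k K)]
    exact GoodD.const D P δ 0
  | succ n ih =>
    obtain ⟨g, w, hg, hw, hzg⟩ := ih
    have hw' : w - algebraMap k K (vl P w) ∈ Mge P 1 := by
      refine sub_vl_mem ?_
      rcases mem_Mge.1 hw with h | h
      · rw [h, ord_zero]
      · exact h
    refine ⟨g + s ^ n * algebraMap k K (vl P w), s⁻¹ * (w - algebraMap k K (vl P w)),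
      hg.add ((hs.pow n).mul (GoodD.const D P δ _)), ?_, ?_⟩
    · have h1 : s⁻¹ ∈ Mge P (-1) := mem_Mge.2 (Or.inr (by rw [ord_inv, hs1]))
      have h2 := mul_mem_Mge h1 hw'
      simpa using h2
    · rw [hzg, pow_succ]
      field_simp
      ring

/-- the derivative of a regular function has at least the order of the derivative of a
uniformizer. -/
theorem der_mem [CharZero k] {D : Derivation k K K} {P : Plk k K} {s : K} (hs : ord P s = 1)
    (hDs : D s ≠ 0) {z : K} (hz : z ∈ Mge P 0) : D z ∈ Mge P (ord P (D s)) := by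
  obtain ⟨m, hm⟩ := exists_der_bound D P
  have hs0 : s ≠ 0 := by
    rintro rfl
    rw [ord_zero] at hs
    exact zero_ne_one hs
  have hsg : GoodD D P (ord P (D s)) s := ⟨mem_Mge.2 (Or.inr (by omega)),
    mem_Mge.2 (Or.inr le_rfl)⟩
  obtain ⟨g, w, hg, hw, rfl⟩ := exists_expand hsg hs hz (ord P (D s) - m).toNat
  rw [D.map_add]
  refine add_mem hg.2 ?_
  rw [D.leibniz, smul_eq_mul, smul_eq_mul]
  refine add_mem ?_ (mul_mem_of_mem hw (hsg.pow _).2)
  have h1 : s ^ (ord P (D s) - m).toNat ∈ Mge P ((ord P (D s) - m).toNat : ℤ) :=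
    mem_Mge.2 (Or.inr (by rw [ord_pow, hs, mul_one]))
  exact Mge_mono P (by omega) (mul_mem_Mge h1 (hm w hw))

theorem ord_der_ge [CharZero k] {D : Derivation k K K} {P : Plk k K} {s : K} (hs : ord P s = 1)
    (hDs : D s ≠ 0) {z : K} (hz : 0 ≤ ord P z) (hDz : D z ≠ 0) : ord P (D s) ≤ ord P (D z) :=
  (mem_Mge.1 (der_mem hs hDs (mem_Mge.2 (Or.inr hz)))).resolve_left hDz

/-- the order of the derivative of a function with a zero or a pole. -/
theorem ord_der [CharZero k] {D : Derivation k K K} {P : Plk k K} {s : K} (hs : ord P s = 1)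
    (hDs : D s ≠ 0) {z : K} (hz : ord P z ≠ 0) :
    D z ≠ 0 ∧ ord P (D z) = ord P z - 1 + ord P (D s) := by
  have hs0 : s ≠ 0 := by
    rintro rfl
    rw [ord_zero] at hs
    exact zero_ne_one hs
  have hz0 : z ≠ 0 := by
    rintro rfl
    exact hz (ord_zero P)
  have hK0 : CharZero K := charZero_of_injective_algebraMap (algebraMap k K).injective
  obtain ⟨m, hm⟩ : ∃ m, m = ord P z := ⟨_, rfl⟩
  set u := z * (s ^ m)⁻¹ with hu
  have hsm : s ^ m ≠ 0 := zpow_ne_zero _ hs0
  have hu0 : u ≠ 0 := mul_ne_zero hz0 (inv_ne_zero hsm)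
  have hordu : ord P u = 0 := by
    rw [hu, ord_mul _ hz0 (inv_ne_zero hsm), ord_inv, ord_zpow, hs, ← hm]
    ring
  have hzu : z = s ^ m * u := by
    rw [hu]
    field_simp
  have hm0 : (algebraMap k K (m : k)) ≠ 0 := by
    refine (_root_.map_ne_zero _).2 ?_
    rw [← hm] at hz
    exact_mod_cast hz
  have h1 : D z = algebraMap k K (m : k) * (s ^ (m - 1) * D s * u) + s ^ m * D u := by
    rw [hzu, D.leibniz, D.leibniz_zpow]
    simp only [smul_eq_mul, zsmul_eq_mul, map_intCast]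
    ring
  have h2 : algebraMap k K (m : k) * (s ^ (m - 1) * D s * u) ≠ 0 :=
    mul_ne_zero hm0 (mul_ne_zero (mul_ne_zero (zpow_ne_zero _ hs0) hDs) hu0)
  have h3 : ord P (algebraMap k K (m : k) * (s ^ (m - 1) * D s * u)) =
      m - 1 + ord P (D s) := by
    rw [ord_mul _ hm0 (mul_ne_zero (mul_ne_zero (zpow_ne_zero _ hs0) hDs) hu0), ord_const,
      ord_mul _ (mul_ne_zero (zpow_ne_zero _ hs0) hDs) hu0, ord_mul _ (zpow_ne_zero _ hs0) hDs,
      ord_zpow, hs, hordu]
    ring
  have h4 : s ^ m * D u ∈ Mge P (ord P (algebraMap k K (m : k) * (s ^ (m - 1) * D s * u)) + 1) := by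
    rw [h3]
    have h5 : s ^ m ∈ Mge P m := mem_Mge.2 (Or.inr (by rw [ord_zpow, hs, mul_one]))
    have h6 := mul_mem_Mge h5 (der_mem hs hDs (z := u) (mem_Mge.2 (Or.inr hordu.ge)))
    exact Mge_mono P (by omega) h6
  have h5 := ord_add_of_lt h2 h4
  rw [← h1] at h5
  refine ⟨h5.1, ?_⟩
  rw [h5.2, h3, ← hm]

/-- the order of the derivative of a uniformizer does not depend on the uniformizer. -/
theorem ord_der_unif [CharZero k] {D : Derivation k K K} (hD : D ≠ 0) {P : Plk k K} {s s' : K}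
    (hs : ord P s = 1) (hs' : ord P s' = 1) : ord P (D s) = ord P (D s') := by
  have h1 := ord_der hs' (der_ne_zero hD (nc_of_ord (P := P) (z := s') (by omega)))
    (z := s) (by omega)
  omega

end place

end P025H492
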