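import Vale.Agent.P025.R2.H816.J03

set_option linter.all false

/-!
# Finite extensions of function fields of one variable: places, ramification indices
-/

namespace P025H492

open Vale.Agent.P019P IntermediateField Polynomial

section alg

variable {K L : Type*} [Field K] [Field L] [Algebra K L]

/-- an element integral over the image of a subring of `K` contained in the valuation subring `O`
belongs to `O`. -/
theorem mem_of_integral (O : ValuationSubring L) {R : Type*} [CommRing R] (f : R →+* L)
    (h : ∀ z, f z ∈ O) {x : L} (hx : f.IsIntegralElem x) : x ∈ O := by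
  let φ : R →+* O := f.codRestrict O.toSubring h
  have hx' : IsIntegral O x := by
    obtain ⟨p, hp, hpx⟩ := hx
    refine ⟨p.map φ, hp.map φ, ?_⟩
    rw [eval₂_map]
    exact hpx
  obtain ⟨y, hy⟩ := IsIntegrallyClosed.isIntegral_iff.1 hx'
  rw [← hy]
  exact y.2

/-- a valuation subring containing `K` is everything if `L / K` is algebraic. -/
theorem eq_top_of_alg [Algebra.IsAlgebraic K L] (O : ValuationSubring L)
    (h : ∀ z : K, algebraMap K L z ∈ O) : O = ⊤ := by
  rw [eq_top_iff]
  intro x _
  exact mem_of_integral O (algebraMap K L) h (Algebra.IsIntegral.isIntegral (R := K) x)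

end alg

section exact

variable {k F : Type*} [Field k] [Field F] [Algebra k F] [CFF k F]

variable (k F) in
theorem dg_can_eq : dg (can k F) = 2 * (gen k F : ℤ) - 2 := by
  have h1 := RR (0 : Plk k F →₀ ℤ)
  have h2 := RR (can k F)
  rw [l_zero, sub_zero, map_zero] at h1
  rw [sub_self, l_zero] at h2
  push_cast at h1 h2
  linarith

/-- functions with given order at a place. -/
theorem exists_exact {D : Plk k F →₀ ℤ} (P : Plk k F) (h : 2 * (gen k F : ℤ) ≤ dg D) :
    ∃ z : F, z ≠ 0 ∧ (∀ Q, -D Q ≤ ord Q z) ∧ ord P z = -D P := by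
  classical
  by_contra hcon
  push Not at hcon
  have hle : LL k D ≤ LL k (D - Finsupp.single P 1) := by
    intro z hz
    rcases mem_LL.1 hz with h0 | h1
    · exact mem_LL.2 (Or.inl h0)
    · by_cases hz0 : z = 0
      · exact mem_LL.2 (Or.inl hz0)
      refine mem_LL.2 (Or.inr fun Q => ?_)
      have h2 := hcon z hz0 h1
      have h3 := h1 Q
      by_cases hQ : Q = P
      · subst hQ
        rw [Finsupp.sub_apply, Finsupp.single_eq_same]
        omega
      · rw [Finsupp.sub_apply, Finsupp.single_eq_of_ne hQ]
        omega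
  have h0 := dg_can_eq k F
  have h1 := RR_large (D := D) (by omega)
  have hdg : dg (D - Finsupp.single P 1) = dg D - 1 := by
    rw [map_sub, dg_sgl]
  have h2 := RR_large (D := D - Finsupp.single P 1) (by rw [hdg]; omega)
  have h3 : Module.finrank k (LL k D) ≤ Module.finrank k (LL k (D - Finsupp.single P 1)) :=
    Submodule.finrank_mono hle
  rw [hdg] at h2
  omega

end exact

section places

variable {k K L : Type*} [Field k] [Field K] [Field L] [Algebra k K] [Algebra k L]
  [Algebra K L] [IsScalarTower k K L]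

section down

variable [Algebra.IsAlgebraic K L]

variable (K) in
/-- the restriction of a place. -/
def down (P' : Plk k L) : Plk k K :=
  ⟨P'.1.comap (algebraMap K L), fun a => by
    rw [ValuationSubring.mem_comap, ← IsScalarTower.algebraMap_apply]
    exact P'.2.1 a,
   fun h => P'.2.2 (eq_top_of_alg P'.1 fun z => by
    have h1 : z ∈ P'.1.comap (algebraMap K L) := by
      rw [h]
      exact ValuationSubring.mem_top z
    exact h1)⟩

theorem mem_down (P' : Plk k L) (z : K) : z ∈ (down K P').1 ↔ algebraMap K L z ∈ P'.1 := Iff.rfl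

variable [CFF k K] [CFF k L]

variable (K) in
/-- the ramification index of a place. -/
noncomputable def ram (P' : Plk k L) : ℕ :=
  (ord P' (algebraMap K L (exists_unif (down K P')).choose)).toNat

theorem ord_nonneg_of_mem (P : Plk k K) {z : K} (h : z ∈ P.1) : 0 ≤ ord P z := by
  rcases (mem_iff_ord P z).1 h with h | h
  · rw [h, ord_zero]
  · exact h

theorem ord_unit_up (P' : Plk k L) {z : K} (hz : z ≠ 0) (h : ord (down K P') z = 0) :
    ord P' (algebraMap K L z) = 0 := by
  have h1 : algebraMap K L z ∈ P'.1 :=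
    (mem_down P' z).1 ((mem_iff_ord _ _).2 (Or.inr h.ge))
  have h2 : algebraMap K L z⁻¹ ∈ P'.1 :=
    (mem_down P' z⁻¹).1 ((mem_iff_ord _ _).2 (Or.inr (by rw [ord_inv]; omega)))
  have h3 := ord_nonneg_of_mem P' h1
  have h4 := ord_nonneg_of_mem P' h2
  rw [map_inv₀, ord_inv] at h4
  omega

theorem ord_algebraMap (P' : Plk k L) (z : K) :
    ord P' (algebraMap K L z) = ram K P' * ord (down K P') z := by
  by_cases hz : z = 0
  · rw [hz, map_zero, ord_zero, ord_zero, mul_zero]
  have hs := (exists_unif (down K P')).choose_spec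
  set π := (exists_unif (down K P')).choose with hπ
  have h0 : 0 ≤ ord P' (algebraMap K L π) :=
    ord_nonneg_of_mem P' ((mem_down P' π).1 ((mem_iff_ord _ _).2 (Or.inr (by omega))))
  have hr : (ram K P' : ℤ) = ord P' (algebraMap K L π) := by
    rw [ram, Int.toNat_of_nonneg h0]
  set n := ord (down K P') z with hn
  have hπn : π ^ n ≠ 0 := zpow_ne_zero _ hs.1
  have h1 : ord (down K P') (z * (π ^ n)⁻¹) = 0 := by
    rw [ord_mul _ hz (inv_ne_zero hπn), ord_inv, ord_zpow, hs.2]
    omega
  have h2 := ord_unit_up P' (mul_ne_zero hz (inv_ne_zero hπn)) h1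
  rw [map_mul, map_inv₀, map_zpow₀, ord_mul _ ((_root_.map_ne_zero _).2 hz) (inv_ne_zero
    (zpow_ne_zero _ ((_root_.map_ne_zero _).2 hs.1))), ord_inv, ord_zpow] at h2
  rw [hr]
  linarith

theorem ram_pos (P' : Plk k L) : 0 < ram K P' := by
  rw [Nat.pos_iff_ne_zero]
  intro h
  refine P'.2.2 (eq_top_of_alg P'.1 (K := K) fun z => (mem_iff_ord _ _).2 (Or.inr ?_))
  rw [ord_algebraMap, h, Nat.cast_zero, zero_mul]

theorem ram_ne_zero (P' : Plk k L) : (ram K P' : ℤ) ≠ 0 := by
  have := ram_pos (K := K) P'
  omega

/-- the ramification index is characterised by `ord_algebraMap` for one function of non-zero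
order. -/
theorem ram_eq {P' : Plk k L} {z : K} {n : ℕ} (hz : ord (down K P') z ≠ 0)
    (h : ord P' (algebraMap K L z) = n * ord (down K P') z) : ram K P' = n := by
  rw [ord_algebraMap] at h
  exact_mod_cast mul_right_cancel₀ hz h

theorem ord_up_pos_iff (P' : Plk k L) (z : K) :
    0 < ord P' (algebraMap K L z) ↔ 0 < ord (down K P') z := by
  rw [ord_algebraMap]
  have := ram_pos (K := K) P'
  exact mul_pos_iff_of_pos_left (by omega)

theorem nc_up {z : K} (hz : ∀ a : k, z ≠ algebraMap k K a) (a : k) :
    algebraMap K L z ≠ algebraMap k L a := by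
  intro h
  rw [IsScalarTower.algebraMap_apply k K L] at h
  exact hz a ((algebraMap K L).injective h)

theorem nc_of_ord {P : Plk k K} {z : K} (h : ord P z ≠ 0) (a : k) : z ≠ algebraMap k K a := by
  rintro rfl
  exact h (ord_const P a)

theorem over_finite (P : Plk k K) : {P' : Plk k L | down K P' = P}.Finite := by
  obtain ⟨π, -, h⟩ := exists_unif P
  refine (zeros_finite (nc_up (L := L) (nc_of_ord (P := P) (z := π) (by omega)))).subset ?_
  intro P' hP'
  show 0 < ord P' (algebraMap K L π)
  rw [ord_up_pos_iff, show down K P' = P from hP']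
  omega

end down

section finite

variable [FiniteDimensional K L] [CFF k K] [CFF k L]

theorem finrank_up {z : K} :
    Module.finrank k⟮algebraMap K L z⟯ L = Module.finrank k⟮z⟯ K * Module.finrank K L := by
  let f : K →ₐ[k] L := IsScalarTower.toAlgHom k K L
  let e : k⟮z⟯ ≃ₐ[k] (k⟮z⟯.map f) := IntermediateField.equivMap k⟮z⟯ f
  have h1 : k⟮z⟯.map f = k⟮algebraMap K L z⟯ := by
    rw [IntermediateField.adjoin_map, Set.image_singleton]
    rfl
  rw [Module.finrank_mul_finrank k⟮z⟯ K L]
  rw [← h1]
  refine (Algebra.finrank_eq_of_equiv_equiv e.toRingEquiv (RingEquiv.refl L) ?_).symm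
  ext x
  rfl

theorem sum_ram (P : Plk k K) :
    ∑ P' ∈ (over_finite (L := L) P).toFinset, ram K P' = Module.finrank K L := by
  obtain ⟨z, hz0, hz, hzP⟩ := exists_exact (D := Finsupp.single P (2 * (gen k K : ℤ) + 1)) P
    (by rw [dg_sgl]; omega)
  rw [Finsupp.single_eq_same] at hzP
  have hnc : ∀ a : k, z ≠ algebraMap k K a := nc_of_ord (P := P) (by omega)
  have h1 := dg_pol hnc
  have h2 := dg_pol (nc_up (L := L) hnc)
  have hpole : ∀ Q : Plk k K, Q ≠ P → 0 ≤ ord Q z := by
    intro Q hQ
    have := hz Q
    rwa [Finsupp.single_eq_of_ne hQ, neg_zero] at this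
  have h3 : dg (pol k z) = 2 * (gen k K : ℤ) + 1 := by
    rw [dg_eq_sum (S := {P})]
    · rw [Finset.sum_singleton, pol_apply, hzP, neg_neg]
      omega
    · intro Q hQ
      rw [Finset.mem_singleton] at hQ
      rw [pol_apply]
      have := hpole Q hQ
      omega
  have h4 : dg (pol k (algebraMap K L z)) =
      ∑ P' ∈ (over_finite (L := L) P).toFinset, (ram K P' : ℤ) * (2 * (gen k K : ℤ) + 1) := by
    rw [dg_eq_sum (S := (over_finite (L := L) P).toFinset)]
    · refine Finset.sum_congr rfl fun P' hP' => ?_
      rw [Set.Finite.mem_toFinset] at hP'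
      have hP'' : down K P' = P := hP'
      rw [pol_apply, ord_algebraMap, hP'', hzP, mul_neg, neg_neg]
      have := ram_pos (K := K) P'
      exact max_eq_right (by positivity)
    · intro P' hP'
      rw [Set.Finite.mem_toFinset] at hP'
      have := hpole (down K P') hP'
      rw [pol_apply, ord_algebraMap]
      have h5 : (0 : ℤ) ≤ ram K P' * ord (down K P') z := by positivity
      omega
  rw [h3] at h1
  rw [h4, finrank_up, ← Finset.sum_mul] at h2
  push_cast at h2
  rw [← h1, mul_comm] at h2
  have h6 := mul_left_cancel₀ (by positivity : (2 * (gen k K : ℤ) + 1) ≠ 0) h2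
  exact_mod_cast h6

theorem exists_over (P : Plk k K) : ∃ P' : Plk k L, down K P' = P := by
  by_contra h
  push Not at h
  have h1 : (over_finite (L := L) P).toFinset = ∅ := by
    ext P'
    rw [Set.Finite.mem_toFinset]
    simp [h P']
  have h2 := sum_ram (L := L) P
  rw [h1, Finset.sum_empty] at h2
  exact absurd h2.symm (Module.finrank_pos (R := K) (M := L)).ne'

end finite

end places

end P025H492
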