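import Vale.Agent.P025.R2.H492.Ext1

set_option linter.all false

/-!
# Finite extensions of function fields of one variable: integrality and norms
-/

namespace P025H492

open Vale.Agent.P019P IntermediateField Polynomial

section

variable {k K L : Type*} [Field k] [Field K] [Field L] [Algebra k K] [Algebra k L]
  [Algebra K L] [IsScalarTower k K L] [CFF k K] [CFF k L]

section alg

variable [Algebra.IsAlgebraic K L]

/-- elements integral over the ring of `P` are in all the rings above `P`. -/
theorem mem_of_isIntegral {P' : Plk k L} {z : L} (h : IsIntegral (down K P').1 z) : z ∈ P'.1 :=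
  mem_of_integral P'.1 (algebraMap (down K P').1 L) (fun z => z.2) h

/-- the integral closure of the ring of a place is the intersection of the rings above. -/
theorem isIntegral_of_forall {P : Plk k K} {z : L} (h : ∀ P' : Plk k L, down K P' = P → z ∈ P'.1) :
    IsIntegral P.1 z := by
  by_contra hz
  let A : Subring L := (algebraMap P.1 L).range
  let B : Subring L := (integralClosure A L).toSubring
  have hzB : z ∉ B := by
    intro h1
    apply hz
    have h2 : IsIntegral A z := h1
    obtain ⟨p, hp, hpz⟩ := h2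
    obtain ⟨q, hq, hq2, hq3⟩ := (Polynomial.lifts_and_degree_eq_and_monic (f := (algebraMap P.1 L).rangeRestrict)
      (p := p) (by
        rw [Polynomial.lifts_iff_coeff_lifts]
        intro n
        exact (algebraMap P.1 L).rangeRestrict_surjective _) hp)
    refine ⟨q, hq3, ?_⟩
    rw [← hq, eval₂_map] at hpz
    exact hpz
  haveI : IsIntegrallyClosedIn B L := inferInstanceAs (IsIntegrallyClosedIn (integralClosure A L) L)
  obtain ⟨V, hV, hzV⟩ := Subring.exists_le_valuationSubring_of_isIntegrallyClosedIn hzB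
  have hPV : ∀ w : K, w ∈ P.1 → algebraMap K L w ∈ V := by
    intro w hw
    apply hV
    have : IsIntegral A (algebraMap K L w) :=
      isIntegral_algebraMap (x := (⟨algebraMap K L w, ⟨⟨w, hw⟩, rfl⟩⟩ : A))
    exact this
  let P' : Plk k L := ⟨V, fun a => by
    rw [IsScalarTower.algebraMap_apply k K L]
    exact hPV _ (P.2.1 a), fun h1 => hzV (h1 ▸ ValuationSubring.mem_top z)⟩
  exact hzV (h P' (Plk.eq_of_le (P := P) (Q := down K P') fun w hw => hPV w hw).symm)

theorem isIntegral_iff {P : Plk k K} {z : L} :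
    IsIntegral P.1 z ↔ ∀ P' : Plk k L, down K P' = P → z ∈ P'.1 := by
  refine ⟨?_, isIntegral_of_forall⟩
  rintro h P' rfl
  exact mem_of_isIntegral h

theorem isIntegral_iff_ord {P : Plk k K} {z : L} :
    IsIntegral P.1 z ↔ ∀ P' : Plk k L, down K P' = P → 0 ≤ ord P' z := by
  rw [isIntegral_iff]
  refine forall₂_congr fun P' _ => ⟨ord_nonneg_of_mem P', fun h => (mem_iff_ord _ _).2 (Or.inr h)⟩

/-- the minimal polynomial of an element integral at `P` has coefficients in the ring of `P`. -/
theorem coeff_minpoly_mem {P : Plk k K} {z : L} (h : IsIntegral P.1 z) (n : ℕ) :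
    (minpoly K z).coeff n ∈ P.1 := by
  rw [minpoly.isIntegrallyClosed_eq_field_fractions' K h, coeff_map]
  exact ((minpoly P.1 z).coeff n).2

end alg

section finite

variable [FiniteDimensional K L]

theorem norm_eq (z : L) : Algebra.norm K z =
    ((-1) ^ (minpoly K z).natDegree * (minpoly K z).coeff 0) ^ Module.finrank K⟮z⟯ L := by
  have hx : IsIntegral K z := Algebra.IsIntegral.isIntegral z
  rw [Algebra.norm_eq_norm_adjoin K z, ← adjoin.powerBasis_gen hx,
    Algebra.PowerBasis.norm_gen_eq_coeff_zero_minpoly, adjoin.powerBasis_gen hx, minpoly_gen,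
    adjoin.powerBasis_dim]

theorem ord_norm_eq (P : Plk k K) (z : L) : ord P (Algebra.norm K z) =
    Module.finrank K⟮z⟯ L * ord P ((minpoly K z).coeff 0) := by
  rw [norm_eq, ord_pow]
  congr 1
  rcases neg_one_pow_eq_or K (minpoly K z).natDegree with h | h
  · rw [h, one_mul]
  · rw [h, neg_one_mul, ord_neg]

theorem ord_norm_nonneg {P : Plk k K} {z : L} (h : ∀ P' : Plk k L, down K P' = P → 0 ≤ ord P' z) :
    0 ≤ ord P (Algebra.norm K z) := by
  rw [ord_norm_eq]
  have := ord_nonneg_of_mem P (coeff_minpoly_mem (isIntegral_iff_ord.2 h) 0)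
  positivity

theorem ord_norm_pos {P' : Plk k L} {z : L} (hz : 0 < ord P' z)
    (h : ∀ Q' : Plk k L, down K Q' = down K P' → 0 ≤ ord Q' z) :
    0 < ord (down K P') (Algebra.norm K z) := by
  have hx : IsIntegral K z := Algebra.IsIntegral.isIntegral z
  have hz0 : z ≠ 0 := by
    rintro rfl
    rw [ord_zero] at hz
    exact lt_irrefl _ hz
  have hi : IsIntegral (down K P').1 z := isIntegral_iff_ord.2 h
  rw [ord_norm_eq]
  refine mul_pos (by exact_mod_cast Module.finrank_pos) ?_
  rw [← ord_up_pos_iff]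
  have hc0 : (minpoly K z).coeff 0 ≠ 0 := minpoly.coeff_zero_ne_zero hx hz0
  have hc : algebraMap K L ((minpoly K z).coeff 0) ≠ 0 := (_root_.map_ne_zero _).2 hc0
  -- `c₀ = - z * g(z)`
  have h1 : algebraMap K L ((minpoly K z).coeff 0) = -(aeval z (minpoly K z).divX * z) := by
    have h2 := minpoly.aeval K z
    conv_lhs at h2 => rw [← (minpoly K z).divX_mul_X_add]
    rw [map_add, map_mul, aeval_X, aeval_C] at h2
    exact eq_neg_of_add_eq_zero_right h2
  have h3 : aeval z (minpoly K z).divX ∈ P'.1 := by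
    rw [aeval_eq_sum_range]
    refine sum_mem fun i _ => ?_
    rw [Algebra.smul_def]
    refine mul_mem ?_ (pow_mem ((mem_iff_ord _ _).2 (Or.inr hz.le)) i)
    rw [coeff_divX]
    exact (mem_down P' _).1 (coeff_minpoly_mem hi _)
  have h4 : aeval z (minpoly K z).divX ≠ 0 := by
    intro h5
    rw [h5, zero_mul, neg_zero] at h1
    exact hc h1
  rw [h1, ord_neg, ord_mul _ h4 hz0]
  have := ord_nonneg_of_mem P' h3
  omega

theorem norm_ne_zero' {z : L} (hz : z ≠ 0) : Algebra.norm K z ≠ 0 := Algebra.norm_ne_zero_iff.2 hz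

theorem norm_zero' : Algebra.norm K (0 : L) = 0 := Algebra.norm_zero

theorem norm_inv' (z : L) : Algebra.norm K z⁻¹ = (Algebra.norm K z)⁻¹ := by
  by_cases hz : z = 0
  · rw [hz, inv_zero, norm_zero', inv_zero]
  · refine eq_inv_of_mul_eq_one_left ?_
    rw [← map_mul, inv_mul_cancel₀ hz, map_one]

theorem norm_zpow' (z : L) (n : ℤ) : Algebra.norm K (z ^ n) = (Algebra.norm K z) ^ n := by
  cases n with
  | ofNat n => rw [Int.ofNat_eq_natCast, zpow_natCast, zpow_natCast, map_pow]
  | negSucc n => rw [zpow_negSucc, zpow_negSucc, norm_inv', map_pow]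

theorem ord_prod {F : Type*} [Field F] [Algebra k F] [CFF k F] (P : Plk k F) {ι : Type*} (s : Finset ι)
    (f : ι → F) (h : ∀ i ∈ s, f i ≠ 0) : ord P (∏ i ∈ s, f i) = ∑ i ∈ s, ord P (f i) := by
  classical
  induction s using Finset.induction_on with
  | empty => rw [Finset.prod_empty, Finset.sum_empty, ord_one]
  | insert i s hi ih =>
    rw [Finset.prod_insert hi, Finset.sum_insert hi, ord_mul P (h i (Finset.mem_insert_self _ _))
      (Finset.prod_ne_zero_iff.2 fun j hj => h j (Finset.mem_insert_of_mem hj)),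
      ih fun j hj => h j (Finset.mem_insert_of_mem hj)]

open Classical in
/-- the order of a norm. -/
theorem ord_norm (P : Plk k K) (z : L) :
    ord P (Algebra.norm K z) = ∑ P' ∈ (over_finite (L := L) P).toFinset, ord P' z := by
  by_cases hz : z = 0
  · rw [hz, norm_zero', ord_zero]
    exact (Finset.sum_eq_zero fun P' _ => ord_zero P').symm
  have hsum := sum_ram (L := L) P
  revert hsum
  generalize hS : (over_finite (L := L) P).toFinset = S
  intro hsum
  have hmem : ∀ P' : Plk k L, P' ∈ S ↔ down K P' = P := fun P' => by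
    rw [← hS, Set.Finite.mem_toFinset]
    rfl
  -- functions with trivial orders have trivial norms
  have key0 : ∀ w : L, w ≠ 0 → (∀ P' ∈ S, ord P' w = 0) → ord P (Algebra.norm K w) = 0 := by
    intro w hw h
    have h1 := ord_norm_nonneg (P := P) (z := w) fun P' hP' => (h P' ((hmem P').2 hP')).ge
    have h2 := ord_norm_nonneg (P := P) (z := w⁻¹) fun P' hP' => by
      rw [ord_inv, h P' ((hmem P').2 hP'), neg_zero]
    rw [norm_inv', ord_inv] at h2
    omega
  -- the functions which are uniformizers at one place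
  have hu : ∀ P' : Plk k L, ∃ u : L, u ≠ 0 ∧ ∀ Q' ∈ S, ord Q' u = if Q' = P' then 1 else 0 := by
    intro P'
    exact exists_ord_eq S fun Q' => if Q' = P' then 1 else 0
  choose u hu0 hu1 using hu
  have key : ∀ w : L, w ≠ 0 → ord P (Algebra.norm K w) =
      ∑ P' ∈ S, ord P (Algebra.norm K (u P')) * ord P' w := by
    intro w hw
    have hz0 : ∀ P' ∈ S, u P' ^ ord P' w ≠ 0 := fun P' _ => zpow_ne_zero _ (hu0 P')
    have hp : ∏ P' ∈ S, u P' ^ ord P' w ≠ 0 := Finset.prod_ne_zero_iff.2 hz0
    have h1 := key0 (w * (∏ P' ∈ S, u P' ^ ord P' w)⁻¹) (mul_ne_zero hw (inv_ne_zero hp)) (by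
      intro Q' hQ'
      rw [ord_mul _ hw (inv_ne_zero hp), ord_inv, ord_prod _ _ _ hz0, Finset.sum_eq_single Q']
      · rw [ord_zpow, hu1 Q' Q' hQ', if_pos rfl, mul_one, add_neg_cancel]
      · intro P' _ hne
        rw [ord_zpow, hu1 P' Q' hQ', if_neg (Ne.symm hne), mul_zero]
      · intro h3
        exact absurd hQ' h3)
    rw [map_mul, norm_inv', map_prod, ord_mul _ (norm_ne_zero' hw) (inv_ne_zero
      (Finset.prod_ne_zero_iff.2 fun P' hP' => norm_ne_zero' (hz0 P' hP'))), ord_inv,
      ord_prod _ _ _ fun P' hP' => norm_ne_zero' (hz0 P' hP')] at h1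
    have h2 : ∑ P' ∈ S, ord P (Algebra.norm K (u P' ^ ord P' w)) =
        ∑ P' ∈ S, ord P (Algebra.norm K (u P')) * ord P' w := by
      refine Finset.sum_congr rfl fun P' _ => ?_
      rw [norm_zpow', ord_zpow, mul_comm]
    rw [← h2]
    omega
  have hapos : ∀ P' ∈ S, 1 ≤ ord P (Algebra.norm K (u P')) := by
    intro P' hP'
    have h1 := ord_norm_pos (K := K) (P' := P') (z := u P') (by rw [hu1 P' P' hP', if_pos rfl]; omega)
      (fun Q' hQ' => by
        rw [hu1 P' Q' ((hmem Q').2 (hQ'.trans ((hmem P').1 hP')))]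
        split_ifs <;> omega)
    rw [(hmem P').1 hP'] at h1
    omega
  -- the norm of a uniformizer of `K`
  obtain ⟨π, hπ0, hπ⟩ := exists_unif P
  have h1 := key (algebraMap K L π) ((_root_.map_ne_zero _).2 hπ0)
  rw [Algebra.norm_algebraMap, ord_pow, hπ, mul_one, ← hsum] at h1
  have h2 : ∀ P' ∈ S, ord P' (algebraMap K L π) = ram K P' := by
    intro P' hP'
    rw [ord_algebraMap, (hmem P').1 hP', hπ, mul_one]
  have h3 : ∑ P' ∈ S, (ord P (Algebra.norm K (u P')) - 1) * (ram K P' : ℤ) = 0 := by
    have h1' : ∑ P' ∈ S, ord P (Algebra.norm K (u P')) * ord P' (algebraMap K L π) =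
        ∑ P' ∈ S, ord P (Algebra.norm K (u P')) * (ram K P' : ℤ) :=
      Finset.sum_congr rfl fun P' hP' => by rw [h2 P' hP']
    rw [h1'] at h1
    simp only [sub_mul, one_mul, Finset.sum_sub_distrib]
    rw [← h1]
    push_cast
    ring
  have h4 := (Finset.sum_eq_zero_iff_of_nonneg fun P' hP' => by
    have := hapos P' hP'
    have := ram_pos (K := K) P'
    exact mul_nonneg (by omega) (by omega)).1 h3
  rw [key z hz]
  refine Finset.sum_congr rfl fun P' hP' => ?_
  have h5 := h4 P' hP'
  have h6 := ram_ne_zero (K := K) P'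
  have h7 : ord P (Algebra.norm K (u P')) = 1 := by
    rcases mul_eq_zero.1 h5 with h | h
    · omega
    · exact absurd h h6
  rw [h7, one_mul]

end finite

end

end P025H492
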