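import Vale.Agent.P025.R2.H492.Canon3

set_option linter.all false

/-!
# The Riemann-Hurwitz formula for finite extensions in characteristic zero
-/

namespace P025H492

open Vale.Agent.P019P IntermediateField Polynomial

variable {k K L : Type*} [Field k] [Field K] [Field L] [Algebra k K] [Algebra k L]
  [Algebra K L] [IsScalarTower k K L] [CFF k K] [CFF k L] [FiniteDimensional K L] [CharZero k]

theorem simple_poles_of_not_crit {y : L} (hy : ∀ a : k, y ≠ algebraMap k L a) {c : k}
    (hc : (fib_finite hy c).toFinset.card = Module.finrank k⟮y⟯ L) {P : Plk k L}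
    (hP : 0 < ord P (y - algebraMap k L c)) : ord P (y - algebraMap k L c) = 1 := by
  have h2 : ∑ Q ∈ (fib_finite hy c).toFinset, (ord Q (y - algebraMap k L c) - 1) = 0 := by
    rw [Finset.sum_sub_distrib, fib_sum hy c, Finset.sum_const, hc, nsmul_eq_mul, mul_one,
      sub_self]
  have h3 := (Finset.sum_eq_zero_iff_of_nonneg fun Q hQ => by
    rw [Set.Finite.mem_toFinset] at hQ
    have : 0 < ord Q (y - algebraMap k L c) := hQ
    omega).1 h2 P (by
      rw [Set.Finite.mem_toFinset]
      exact hP)
  omega

variable (k K L) in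
/-- a function on the base all of whose poles on the cover are simple. -/
theorem exists_simple_poles_up : ∃ x : K, (∀ a : k, x ≠ algebraMap k K a) ∧
    (∀ P : Plk k L, ord P (algebraMap K L x) < 0 → ord P (algebraMap K L x) = -1) ∧
    ∀ P : Plk k K, ord P x < 0 → ord P x = -1 := by
  obtain ⟨y, hy, _⟩ := CFF.ex (k := k) (F := K)
  have hync : ∀ a : k, y ≠ algebraMap k K a := fun a h => hy (h ▸ isAlgebraic_algebraMap a)
  have hyL := nc_up (L := L) hync
  obtain ⟨c, hc⟩ := (crit_finite hyL).exists_notMem
  have hc' : (fib_finite hyL c).toFinset.card = Module.finrank k⟮algebraMap K L y⟯ L := by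
    by_contra h
    exact hc h
  have hup : ∀ P : Plk k L, ord P (algebraMap K L (y - algebraMap k K c)⁻¹) < 0 →
      ord P (algebraMap K L (y - algebraMap k K c)⁻¹) = -1 := by
    intro P hP
    rw [map_inv₀, map_sub, ← IsScalarTower.algebraMap_apply, ord_inv] at hP ⊢
    have := simple_poles_of_not_crit hyL hc' (P := P) (by omega)
    omega
  refine ⟨(y - algebraMap k K c)⁻¹, nc_inv (nc_sub hync c), hup, fun P hP => ?_⟩
  obtain ⟨P', rfl⟩ := exists_over (L := L) P
  have h1 := ord_algebraMap (K := K) P' (y - algebraMap k K c)⁻¹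
  have h2 : (0 : ℤ) < ram K P' := by exact_mod_cast ram_pos P'
  have h3 : ord P' (algebraMap K L (y - algebraMap k K c)⁻¹) < 0 := by
    rw [h1]
    nlinarith
  rw [hup P' h3] at h1
  nlinarith

theorem dg_wdv_of_simple {x : K} (hx : ∀ a : k, x ≠ algebraMap k K a)
    (hpole : ∀ P : Plk k K, ord P x < 0 → ord P x = -1) :
    dg (wdv k x) = 2 * (gen k K : ℤ) - 2 :=
  le_antisymm (dg_wdv_le hx hpole) (le_dg_wdv hx)

variable (k K L) in
/-- the ramified places of a finite extension are finite in number. -/
theorem ram_finite : {P : Plk k L | ram K P ≠ 1}.Finite := by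
  obtain ⟨x, hx, -, -⟩ := exists_simple_poles_up k K L
  refine ((wdv k (algebraMap K L x)).support.finite_toSet.union
    (pull L (wdv k x)).support.finite_toSet).subset fun P hP => ?_
  by_contra h
  rw [Set.mem_union, not_or] at h
  simp only [Finset.mem_coe, Finsupp.mem_support_iff, not_not] at h
  have h1 := wdv_up (L := L) hx P
  rw [h.1, h.2] at h1
  apply hP
  omega

variable (k K L) in
/-- the ramification divisor. -/
noncomputable def ramDiv : Plk k L →₀ ℤ :=
  Finsupp.ofSupportFinite (fun P => (ram K P : ℤ) - 1) ((ram_finite k K L).subset fun P hP => by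
    intro h
    apply hP
    show (ram K P : ℤ) - 1 = 0
    omega)

theorem ramDiv_apply (P : Plk k L) : ramDiv k K L P = (ram K P : ℤ) - 1 := rfl

theorem ramDiv_nonneg : 0 ≤ ramDiv k K L := by
  intro P
  have := ram_pos (K := K) P
  rw [ramDiv_apply, Finsupp.zero_apply]
  omega

variable (k K L) in
/-- **Riemann-Hurwitz**. -/
theorem riemann_hurwitz : 2 * (gen k L : ℤ) - 2 =
    Module.finrank K L * (2 * (gen k K : ℤ) - 2) + dg (ramDiv k K L) := by
  obtain ⟨x, hx, hL, hK⟩ := exists_simple_poles_up k K L
  have h1 : wdv k (algebraMap K L x) = pull L (wdv k x) + ramDiv k K L := by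
    ext P
    rw [wdv_up hx, Finsupp.add_apply, ramDiv_apply]
  rw [← dg_wdv_of_simple hx hK, ← dg_pull (L := L), ← map_add, ← h1,
    dg_wdv_of_simple (nc_up hx) hL]

/-- the genus of an unramified extension. -/
theorem IsUnr.genus (h : IsUnr k K L) :
    2 * (gen k L : ℤ) - 2 = Module.finrank K L * (2 * (gen k K : ℤ) - 2) := by
  have h1 : ramDiv k K L = 0 := by
    ext P
    rw [ramDiv_apply, h P]
    simp
  rw [riemann_hurwitz k K L, h1, map_zero, add_zero]

variable (k K L) in
theorem gen_le : gen k K ≤ gen k L := by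
  have h1 := riemann_hurwitz k K L
  have h2 := dg_mono (ramDiv_nonneg (k := k) (K := K) (L := L))
  rw [map_zero] at h2
  have h3 : (1 : ℤ) ≤ Module.finrank K L := by exact_mod_cast Module.finrank_pos (R := K) (M := L)
  rcases Nat.eq_zero_or_pos (gen k K) with h4 | h4
  · rw [h4]
    exact Nat.zero_le _
  · have h5 : (0 : ℤ) ≤ 2 * (gen k K : ℤ) - 2 := by omega
    have h6 : 2 * (gen k K : ℤ) - 2 ≤ Module.finrank K L * (2 * (gen k K : ℤ) - 2) := by
      nlinarith
    omega

end P025H492
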