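import Vale.Agent.P025.R2.H492.Der
import Vale.Agent.P025.R2.H731.Rat

set_option linter.all false

/-!
# The trace formula for logarithmic derivatives (blueprint (6.1), algebraic half)
-/

namespace P025H492

open Vale.Agent.P019P IntermediateField Polynomial P025H731

section dlog

variable {k K : Type*} [Field k] [Field K] [Algebra k K]

theorem dlog_mul (D : Derivation k K K) {f g : K} (hf : f ≠ 0) (hg : g ≠ 0) :
    D (f * g) / (f * g) = D f / f + D g / g := by
  rw [D.leibniz, smul_eq_mul, smul_eq_mul]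
  field_simp
  ring

theorem dlog_one (D : Derivation k K K) : D 1 / (1 : K) = 0 := by
  rw [Derivation.map_one_eq_zero, zero_div]

theorem dlog_inv (D : Derivation k K K) {f : K} (hf : f ≠ 0) :
    D f⁻¹ / f⁻¹ = -(D f / f) := by
  have h1 := dlog_mul D hf (inv_ne_zero hf)
  rw [mul_inv_cancel₀ hf, dlog_one] at h1
  linear_combination -h1

theorem dlog_pow (D : Derivation k K K) {f : K} (hf : f ≠ 0) (n : ℕ) :
    D (f ^ n) / f ^ n = n * (D f / f) := by
  induction n with
  | zero => rw [pow_zero, dlog_one, Nat.cast_zero, zero_mul]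
  | succ n ih =>
    rw [pow_succ, dlog_mul D (pow_ne_zero n hf) hf, ih]
    push_cast
    ring

theorem dlog_zpow (D : Derivation k K K) {f : K} (hf : f ≠ 0) (n : ℤ) :
    D (f ^ n) / f ^ n = n * (D f / f) := by
  cases n with
  | ofNat n =>
    rw [Int.ofNat_eq_natCast, zpow_natCast, dlog_pow D hf]
    push_cast
    rfl
  | negSucc n =>
    rw [zpow_negSucc, dlog_inv D (pow_ne_zero _ hf), dlog_pow D hf, Int.cast_negSucc]
    push_cast
    ring

end dlog

section place

variable {k K : Type*} [Field k] [Field K] [Algebra k K] [CFF k K] [CharZero k]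

theorem exists_unif_der {D : Derivation k K K} (hD : D ≠ 0) (P : Plk k K) :
    ∃ s : K, ord P s = 1 ∧ D s ≠ 0 := by
  obtain ⟨s, -, hs⟩ := exists_unif P
  exact ⟨s, hs, der_ne_zero hD (nc_of_ord (P := P) (z := s) (by omega))⟩

/-- the order of a logarithmic derivative -/
theorem dlog_mem {D : Derivation k K K} {P : Plk k K} {s : K} (hs : ord P s = 1) (hDs : D s ≠ 0)
    {f : K} (hf : f ≠ 0) : D f / f ∈ Mge P (ord P (D s) - 1) := by
  by_cases h : ord P f = 0
  · rw [div_eq_inv_mul]
    have h1 := mul_mem_Mge (P := P) (m := 0) (n := ord P (D s)) (z := f⁻¹) (w := D f)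
      (mem_Mge.2 (Or.inr (by rw [ord_inv, h, neg_zero])))
      (der_mem hs hDs (mem_Mge.2 (Or.inr h.ge)))
    exact Mge_mono P (by omega) h1
  · obtain ⟨h1, h2⟩ := ord_der hs hDs h
    refine mem_Mge.2 (Or.inr ?_)
    rw [div_eq_mul_inv, ord_mul P h1 (inv_ne_zero hf), ord_inv, h2]
    omega

/-- the logarithmic derivative of a unit -/
theorem dlog_mem_unit {D : Derivation k K K} {P : Plk k K} {s : K} (hs : ord P s = 1)
    (hDs : D s ≠ 0) {f : K} (h : ord P f = 0) : D f / f ∈ Mge P (ord P (D s)) := by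
  rw [div_eq_inv_mul]
  have h1 := mul_mem_Mge (P := P) (m := 0) (n := ord P (D s)) (z := f⁻¹) (w := D f)
    (mem_Mge.2 (Or.inr (by rw [ord_inv, h, neg_zero])))
    (der_mem hs hDs (mem_Mge.2 (Or.inr h.ge)))
  exact Mge_mono P (by omega) h1

theorem ord_Ds_of_zero {D : Derivation k K K} {x : K} (hD : D x = 1) {P : Plk k K} {c : k}
    (h : 0 < ord P (x - algebraMap k K c)) {s : K} (hs : ord P s = 1) (hDs : D s ≠ 0) :
    ord P (D s) = 1 - ord P (x - algebraMap k K c) := by
  have h1 := (ord_der hs hDs (z := x - algebraMap k K c) (by omega)).2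
  rw [map_sub, Derivation.map_algebraMap, sub_zero, hD, ord_one] at h1
  omega

/-- the residue of a logarithmic derivative -/
theorem dlog_res {D : Derivation k K K} {x : K} (hD : D x = 1) {P : Plk k K} {c : k}
    (h : 0 < ord P (x - algebraMap k K c)) {f : K} (hf : f ≠ 0) :
    (x - algebraMap k K c) * (D f / f) -
      algebraMap k K ((ord P f : k) / (ord P (x - algebraMap k K c) : k)) ∈ Mge P 1 := by
  have hD0 : D ≠ 0 := by
    rintro rfl
    simp at hD
  obtain ⟨s, hs, hDs⟩ := exists_unif_der hD0 P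
  have hord := ord_Ds_of_zero hD h hs hDs
  set y := x - algebraMap k K c with hy
  have hy0 : y ≠ 0 := by
    rintro h0
    rw [h0, ord_zero] at h
    exact lt_irrefl _ h
  have hDy : D y = 1 := by
    rw [hy, map_sub, Derivation.map_algebraMap, sub_zero, hD]
  obtain ⟨e, he⟩ : ∃ e : ℤ, ord P y = e := ⟨_, rfl⟩
  obtain ⟨n, hn⟩ : ∃ n : ℤ, ord P f = n := ⟨_, rfl⟩
  have hek : (e : k) ≠ 0 := by
    rw [he] at h
    exact_mod_cast h.ne'
  have hu : ord P (f ^ e * y ^ (-n)) = 0 := by
    rw [ord_mul P (zpow_ne_zero _ hf) (zpow_ne_zero _ hy0), ord_zpow, ord_zpow, he, hn]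
    ring
  have h1 := dlog_mem_unit hs hDs hu
  rw [dlog_mul D (zpow_ne_zero _ hf) (zpow_ne_zero _ hy0), dlog_zpow D hf, dlog_zpow D hy0, hDy,
    hord, he] at h1
  have h2 := mul_mem_Mge (P := P) (m := e) (z := y) (mem_Mge.2 (Or.inr he.ge)) h1
  have h3 : algebraMap k K (e : k)⁻¹ ∈ Mge P 0 := mem_Mge.2 (Or.inr (ord_const P _).ge)
  have h4 := mul_mem_Mge h3 h2
  have h5 : (0 : ℤ) + (e + (1 - e)) = 1 := by ring
  rw [h5] at h4
  rw [he, hn]
  convert h4 using 1
  have hek' : (e : K) ≠ 0 := by
    have := (_root_.map_ne_zero (algebraMap k K)).2 hek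
    rwa [map_intCast] at this
  rw [map_div₀, map_inv₀, map_intCast, map_intCast]
  push_cast
  field_simp
  ring

end place

section values2

variable {k K : Type*} [Field k] [Field K] [Algebra k K] [CFF k K]

theorem cg_nonneg {P : Plk k K} {z : K} {c : k} (h : z - algebraMap k K c ∈ Mge P 1) :
    z ∈ Mge P 0 := by
  have h2 : z = (z - algebraMap k K c) + algebraMap k K c := by ring
  rw [h2]
  exact add_mem (Mge_mono P (by omega) h) (mem_Mge.2 (Or.inr (ord_const P c).ge))

theorem cg_mul {P : Plk k K} {z w : K} {c d : k} (h : z - algebraMap k K c ∈ Mge P 1)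
    (h' : w - algebraMap k K d ∈ Mge P 1) : z * w - algebraMap k K (c * d) ∈ Mge P 1 := by
  have h1 : z * w - algebraMap k K (c * d) = z * (w - algebraMap k K d) +
      algebraMap k K d * (z - algebraMap k K c) := by
    rw [map_mul]
    ring
  rw [h1]
  have h2 := mul_mem_Mge (cg_nonneg h) h'
  have h3 := mul_mem_Mge (P := P) (m := 0) (z := algebraMap k K d)
    (mem_Mge.2 (Or.inr (ord_const P d).ge)) h
  rw [zero_add] at h2 h3
  exact add_mem h2 h3

theorem cg_add {P : Plk k K} {z w : K} {c d : k} (h : z - algebraMap k K c ∈ Mge P 1)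
    (h' : w - algebraMap k K d ∈ Mge P 1) : z + w - algebraMap k K (c + d) ∈ Mge P 1 := by
  have h1 : z + w - algebraMap k K (c + d) = (z - algebraMap k K c) + (w - algebraMap k K d) := by
    rw [map_add]
    ring
  rw [h1]
  exact add_mem h h'

theorem cg_const (P : Plk k K) (c : k) : algebraMap k K c - algebraMap k K c ∈ Mge P 1 := by
  rw [sub_self]
  exact zero_mem _

theorem cg_aeval {P : Plk k K} {z : K} {c : k} (h : z - algebraMap k K c ∈ Mge P 1) (q : k[X]) :
    aeval z q - algebraMap k K (q.eval c) ∈ Mge P 1 := by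
  induction q using Polynomial.induction_on' with
  | add p q hp hq =>
    rw [map_add, eval_add]
    exact cg_add hp hq
  | monomial n a =>
    rw [aeval_monomial, eval_monomial]
    refine cg_mul (cg_const P a) ?_
    induction n with
    | zero =>
      rw [pow_zero, pow_zero, map_one, sub_self]
      exact zero_mem _
    | succ n ih =>
      rw [pow_succ, pow_succ]
      exact cg_mul ih h

theorem cg_eval₂ {P : Plk k K} {z b : K} {c β : k} (h : z - algebraMap k K c ∈ Mge P 1)
    (hb : b - algebraMap k K β ∈ Mge P 1) {φ : k[X] →+* K} (hφ : ∀ q : k[X], φ q = aeval z q)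
    (g : k[X][X]) :
    eval₂ φ b g - algebraMap k K (eval₂ (evalRingHom c) β g) ∈ Mge P 1 := by
  induction g using Polynomial.induction_on' with
  | add p q hp hq =>
    rw [eval₂_add, eval₂_add]
    exact cg_add hp hq
  | monomial n a =>
    rw [eval₂_monomial, eval₂_monomial]
    refine cg_mul ?_ ?_
    · rw [hφ]
      exact cg_aeval h a
    induction n with
    | zero =>
      rw [pow_zero, pow_zero, map_one, sub_self]
      exact zero_mem _
    | succ n ih =>
      rw [pow_succ, pow_succ]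
      exact cg_mul ih hb

/-- integral elements are regular -/
theorem ord_nonneg_of_integral {P : Plk k K} {z b : K} (hz : z ∈ Mge P 0) {φ : k[X] →+* K}
    (hφ : ∀ q : k[X], φ q = aeval z q) (hb : φ.IsIntegralElem b) : 0 ≤ ord P b := by
  have h1 : IsIntegral P.1 b := by
    have hz' : z ∈ P.1 := by
      rcases mem_Mge.1 hz with h | h
      · rw [h]; exact zero_mem _
      · exact (mem_iff_ord P z).2 (Or.inr h)
    have hq : ∀ q : k[X], φ q ∈ P.1 := by
      intro q
      rw [hφ]
      induction q using Polynomial.induction_on' with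
      | add p q hp hq =>
        rw [map_add]
        exact add_mem hp hq
      | monomial n a =>
        rw [aeval_monomial]
        exact mul_mem (P.2.1 a) (pow_mem hz' n)
    obtain ⟨g, hg, hgb⟩ := hb
    refine ⟨g.map (φ.codRestrict P.1.toSubring hq), hg.map _, ?_⟩
    rw [eval₂_map]
    exact hgb
  obtain ⟨y, hy⟩ := IsIntegrallyClosed.isIntegral_iff.1 h1
  refine ord_nonneg_of_mem P ?_
  rw [← hy]
  exact y.2

end values2

section bound

theorem norm_eval_le {C : Type*} [NormedField C] {q : C[X]} {N : ℕ} (hN : q.natDegree ≤ N) (a : C) :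
    ‖q.eval a‖ ≤ (∑ i ∈ Finset.range (N + 1), ‖q.coeff i‖) * max 1 ‖a‖ ^ N := by
  rw [eval_eq_sum_range' (Nat.lt_succ_of_le hN), Finset.sum_mul]
  refine (norm_sum_le _ _).trans (Finset.sum_le_sum fun i hi => ?_)
  rw [norm_mul, norm_pow]
  refine mul_le_mul_of_nonneg_left ?_ (norm_nonneg _)
  calc ‖a‖ ^ i ≤ max 1 ‖a‖ ^ i := pow_le_pow_left₀ (norm_nonneg _) (le_max_right _ _) i
    _ ≤ max 1 ‖a‖ ^ N := pow_le_pow_right₀ (le_max_left _ _)
        (Nat.lt_succ_iff.1 (Finset.mem_range.1 hi))

theorem exists_root_bound {C : Type*} [NormedField C] {g : C[X][X]} (hg : g.Monic) :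
    ∃ (M : ℝ) (d : ℕ), 0 ≤ M ∧ ∀ a β : C, eval₂ (evalRingHom a) β g = 0 →
      ‖β‖ ≤ M * max 1 ‖a‖ ^ d := by
  classical
  let d := (Finset.range (g.natDegree + 1)).sup fun i => (g.coeff i).natDegree
  let M := ∑ i ∈ Finset.range (g.natDegree + 1), ∑ j ∈ Finset.range (d + 1), ‖(g.coeff i).coeff j‖
  have hM : 0 ≤ M := Finset.sum_nonneg fun i _ => Finset.sum_nonneg fun j _ => norm_nonneg _
  refine ⟨M + 1, d, by linarith, fun a β h => ?_⟩
  let p : C[X] := g.map (evalRingHom a)
  have hp : p.Monic := hg.map _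
  have hroot : p.IsRoot β := by
    show eval β p = 0
    rw [eval_map]
    exact h
  have h1 := (hroot.norm_lt_cauchyBound hp.ne_zero).le
  have hmax : (1 : ℝ) ≤ max 1 ‖a‖ ^ d := one_le_pow₀ (le_max_left _ _)
  have h2 : (cauchyBound p : ℝ) ≤ M * max 1 ‖a‖ ^ d + 1 := by
    rw [cauchyBound, hp.leadingCoeff, nnnorm_one, div_one]
    push_cast
    gcongr
    have h3 : ((Finset.range p.natDegree).sup fun i => ‖p.coeff i‖₊) ≤
        (M * max 1 ‖a‖ ^ d).toNNReal := by
      refine Finset.sup_le fun i hi => ?_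
      refine NNReal.le_toNNReal_of_coe_le ?_
      rw [coe_nnnorm]
      have hi' : i ∈ Finset.range (g.natDegree + 1) := by
        rw [Finset.mem_range] at hi ⊢
        have := natDegree_map_le (f := evalRingHom a) (p := g)
        exact lt_of_lt_of_le hi (this.trans (Nat.le_succ _))
      rw [coeff_map, coe_evalRingHom]
      refine (norm_eval_le (N := d) (Finset.le_sup (f := fun i => (g.coeff i).natDegree) hi') a).trans ?_
      refine mul_le_mul_of_nonneg_right ?_ (by positivity)
      exact Finset.single_le_sum (f := fun i => ∑ j ∈ Finset.range (d + 1), ‖(g.coeff i).coeff j‖)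
        (fun i _ => Finset.sum_nonneg fun j _ => norm_nonneg _) hi'
    rw [← NNReal.coe_le_coe, Real.coe_toNNReal _ (by positivity)] at h3
    exact h3
  calc ‖β‖ ≤ cauchyBound p := by exact_mod_cast h1
    _ ≤ M * max 1 ‖a‖ ^ d + 1 := h2
    _ ≤ (M + 1) * max 1 ‖a‖ ^ d := by nlinarith

end bound

section main

variable {C K : Type*} [Field C] [IsAlgClosed C] [CharZero C] [Field K] [Algebra C K] [CFF C K]
  [Algebra (RatFunc C) K] [IsScalarTower C (RatFunc C) K] [FiniteDimensional (RatFunc C) K]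

variable (C K) in
/-- the function `t` -/
noncomputable abbrev tt : K := algebraMap (RatFunc C) K RatFunc.X

theorem tt_sub (a : C) : algebraMap (RatFunc C) K (RatFunc.X - RatFunc.C a) =
    tt C K - algebraMap C K a := by
  rw [map_sub, ratFunc_C_eq, ← IsScalarTower.algebraMap_apply]

theorem ord_tt_sub {p : Plk C (RatFunc C)} {a : C} (hp : 0 < ord p (RatFunc.X - RatFunc.C a))
    {P : Plk C K} (hP : down (RatFunc C) P = p) :
    ord P (tt C K - algebraMap C K a) = ram (RatFunc C) P := by
  subst hP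
  rw [← tt_sub, ord_algebraMap, ord_X_sub hp, mul_one]

theorem down_eq_of_pos {p : Plk C (RatFunc C)} {a : C}
    (hp : 0 < ord p (RatFunc.X - RatFunc.C a)) {P : Plk C K}
    (hP : 0 < ord P (tt C K - algebraMap C K a)) : down (RatFunc C) P = p := by
  rw [← tt_sub, ord_up_pos_iff] at hP
  exact place_ext hP hp

/-- the ring map from polynomials -/
noncomputable abbrev phi (C K : Type*) [Field C] [Field K] [Algebra (RatFunc C) K] : C[X] →+* K :=
  (algebraMap (RatFunc C) K).comp (algebraMap C[X] (RatFunc C))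

theorem phi_eq (q : C[X]) : phi C K q = aeval (tt C K) q := by
  show algebraMap (RatFunc C) K (algebraMap C[X] (RatFunc C) q) = _
  rw [aeval_algebraMap_apply, ← RatFunc.algebraMap_X, aeval_algebraMap_apply,
    aeval_X_left_apply]

theorem tt_mem {P : Plk C K} {a : C} (h : 0 < ord P (tt C K - algebraMap C K a)) :
    tt C K ∈ Mge P 0 := cg_nonneg (P := P) (c := a) (mem_Mge.2 (Or.inr h))

/-- the residue of the trace at a finite place -/
theorem trace_res {D : Derivation C K K} (hD : D (tt C K) = 1) {b : K}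
    (hb : (phi C K).IsIntegralElem b) {f : K} (hf : f ≠ 0) {p : Plk C (RatFunc C)} {a : C}
    (hp : 0 < ord p (RatFunc.X - RatFunc.C a)) :
    (RatFunc.X - RatFunc.C a) * Algebra.trace (RatFunc C) K (b * (D f / f)) -
      algebraMap C (RatFunc C)
        (∑ P ∈ (over_finite (L := K) p).toFinset, vl P b * (ord P f : C)) ∈ Mge p 1 := by
  have h1 : (RatFunc.X - RatFunc.C a) * Algebra.trace (RatFunc C) K (b * (D f / f)) =
      Algebra.trace (RatFunc C) K (b * ((tt C K - algebraMap C K a) * (D f / f))) := by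
    rw [← smul_eq_mul, ← map_smul, Algebra.smul_def, tt_sub]
    congr 1
    ring
  have h2 : (∑ P ∈ (over_finite (L := K) p).toFinset, vl P b * (ord P f : C)) =
      ∑ P ∈ (over_finite (L := K) p).toFinset, (ram (RatFunc C) P : C) *
        (vl P b * ((ord P f : C) / (ord P (tt C K - algebraMap C K a) : C))) := by
    refine Finset.sum_congr rfl fun P hP => ?_
    rw [ord_tt_sub hp (mem_over.1 hP)]
    have h3 : (ram (RatFunc C) P : C) ≠ 0 := by
      exact_mod_cast (ram_pos (K := RatFunc C) P).ne'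
    push_cast
    field_simp
  rw [h1, h2]
  refine trace_residue p _ _ fun P hP => ?_
  have hpos : 0 < ord P (tt C K - algebraMap C K a) := by
    rw [ord_tt_sub hp hP]
    exact_mod_cast ram_pos (K := RatFunc C) P
  exact cg_mul (sub_vl_mem (ord_nonneg_of_integral (tt_mem hpos) phi_eq hb)) (dlog_res hD hpos hf)

/-- a rational function regular at the finite places and with bounded pole at infinity is a
polynomial of bounded degree -/
theorem exists_poly (z : RatFunc C) (j : ℕ)
    (hfin : ∀ (p : Plk C (RatFunc C)) (a : C), 0 < ord p (RatFunc.X - RatFunc.C a) → z ∈ Mge p 0)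
    (hinf : ∀ p : Plk C (RatFunc C), ord p RatFunc.X < 0 → z ∈ Mge p (-(j : ℤ))) :
    ∃ Q : C[X], Q.natDegree ≤ j ∧ z = algebraMap C[X] (RatFunc C) Q := by
  have hd : z.denom = 1 := by
    by_contra hne
    have hdeg : z.denom.degree ≠ 0 := by
      intro h0
      exact hne ((RatFunc.monic_denom z).eq_one_of_isUnit (isUnit_iff_degree_eq_zero.2 h0))
    obtain ⟨a, ha⟩ := IsAlgClosed.exists_root z.denom hdeg
    obtain ⟨p, hp⟩ := exists_place a
    have hn : z.num.eval a ≠ 0 := by
      intro hn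
      have hco := RatFunc.isCoprime_num_denom z
      obtain ⟨u, v, huv⟩ := hco
      have := congrArg (eval a) huv
      rw [eval_add, eval_mul, eval_mul, hn, ha.eq_zero, mul_zero, mul_zero, add_zero,
        eval_one] at this
      exact zero_ne_one this
    have hz0 : z ≠ 0 := by
      rintro rfl
      simp at hn
    have hnum : z.num ≠ 0 := RatFunc.num_ne_zero hz0
    have h1 : ord p z = -(z.denom.rootMultiplicity a : ℤ) := by
      conv_lhs => rw [← RatFunc.num_div_denom z, div_eq_mul_inv]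
      rw [ord_mul p (RatFunc.algebraMap_ne_zero hnum)
        (inv_ne_zero (RatFunc.algebraMap_ne_zero z.denom_ne_zero)), ord_inv,
        ord_poly_eq_zero hp hn, ord_poly_eq hp z.denom_ne_zero, ord_X_sub hp]
      ring
    have h2 : 0 < z.denom.rootMultiplicity a :=
      (rootMultiplicity_pos z.denom_ne_zero).2 ha
    rcases mem_Mge.1 (hfin p a hp) with h3 | h3
    · exact hz0 h3
    · omega
  have hz : z = algebraMap C[X] (RatFunc C) z.num := by
    conv_lhs => rw [← RatFunc.num_div_denom z, hd, map_one, div_one]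
  refine ⟨z.num, ?_, hz⟩
  by_cases h0 : z.num = 0
  · rw [h0, natDegree_zero]
    exact Nat.zero_le j
  obtain ⟨p, hp⟩ := exists_place_inf (C := C)
  have h1 := ord_poly_inf' hp h0
  rw [← hz] at h1
  rcases mem_Mge.1 (hinf p hp) with h3 | h3
  · exact absurd h3 fun h => h0 (by rw [h, RatFunc.num_zero])
  · omega

/-- bounded poles at infinity -/
theorem trace_inf {D : Derivation C K K} (hD0 : D ≠ 0) (b : K) :
    ∃ j : ℕ, ∀ (p : Plk C (RatFunc C)), ord p RatFunc.X < 0 → ∀ f : K, f ≠ 0 →
      Algebra.trace (RatFunc C) K (b * (D f / f)) ∈ Mge p (-(j : ℤ)) := by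
  classical
  obtain ⟨p0, hp0⟩ := exists_place_inf (C := C)
  have hm : ∀ P : Plk C K, ∃ m : ℤ, ∀ f : K, f ≠ 0 → b * (D f / f) ∈ Mge P m := by
    intro P
    obtain ⟨s, hs, hDs⟩ := exists_unif_der hD0 P
    obtain ⟨n, hn⟩ := exists_mem_Mge P b
    exact ⟨n + (ord P (D s) - 1), fun f hf => mul_mem_Mge (hn n le_rfl) (dlog_mem hs hDs hf)⟩
  choose m hm using hm
  let F := (over_finite (L := K) p0).toFinset
  refine ⟨∑ P ∈ F, (m P).natAbs, fun p hp f hf => ?_⟩
  set j := ∑ P ∈ F, (m P).natAbs with hj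
  obtain rfl : p = p0 := place_ext_inf hp hp0
  have hX0 : (RatFunc.X : RatFunc C) ≠ 0 := RatFunc.X_ne_zero
  have hX : ord p RatFunc.X = -1 := ord_X_inf hp
  have hXj : ord p ((RatFunc.X : RatFunc C)⁻¹ ^ j) = j := by
    rw [ord_pow, ord_inv, hX]
    ring
  have hXj0 : ((RatFunc.X : RatFunc C)⁻¹ ^ j) ≠ 0 := pow_ne_zero _ (inv_ne_zero hX0)
  have h1 : 0 ≤ ord p (Algebra.trace (RatFunc C) K
      (algebraMap (RatFunc C) K ((RatFunc.X : RatFunc C)⁻¹ ^ j) * (b * (D f / f)))) := by
    refine ord_nonneg_trace p _ fun P hP => ?_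
    have h2 : algebraMap (RatFunc C) K ((RatFunc.X : RatFunc C)⁻¹ ^ j) ∈ Mge P (j : ℤ) := by
      refine mem_Mge.2 (Or.inr ?_)
      rw [ord_algebraMap, hP, hXj]
      have := ram_pos (K := RatFunc C) P
      nlinarith [Int.natCast_nonneg j]
    have h3 := mul_mem_Mge h2 (hm P f hf)
    have h4 : (m P).natAbs ≤ j := by
      rw [hj]
      exact Finset.single_le_sum (f := fun P => (m P).natAbs) (fun _ _ => Nat.zero_le _)
        (mem_over.2 hP)
    have h5 : (0 : ℤ) ≤ (j : ℤ) + m P := by omega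
    rcases mem_Mge.1 (Mge_mono P h5 h3) with h6 | h6
    · rw [h6, ord_zero]
    · exact h6
  rw [← Algebra.smul_def, map_smul, smul_eq_mul] at h1
  have h2 : (RatFunc.X : RatFunc C)⁻¹ ^ j * Algebra.trace (RatFunc C) K (b * (D f / f)) ∈
      Mge p 0 := mem_Mge.2 (Or.inr h1)
  rw [mul_mem_Mge_iff hXj0, hXj, zero_sub] at h2
  exact h2

end main

section formula

variable {C K : Type*} [NormedField C] [IsUltrametricDist C] [IsAlgClosed C] [CharZero C]
  [Field K] [Algebra C K] [CFF C K]
  [Algebra (RatFunc C) K] [IsScalarTower C (RatFunc C) K] [FiniteDimensional (RatFunc C) K]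

/-- **the trace formula** (T1 of (6.1)) -/
theorem trace_formula {D : Derivation C K K}
    (hD : D (algebraMap (RatFunc C) K RatFunc.X) = 1) {b : K}
    (hb : ((algebraMap (RatFunc C) K).comp (algebraMap C[X] (RatFunc C))).IsIntegralElem b) :
    ∃ (M : ℝ) (d : ℕ), ∀ (n : ℕ) (f : K), f ≠ 0 → (∀ P : Plk C K, (n : ℤ) ∣ ord P f) →
      ∃ (Q : C[X]) (S : Finset C) (r : C → C), Q.natDegree ≤ d ∧
        (∀ a ∈ S, ‖r a‖ ≤ M * max 1 ‖a‖ ^ d) ∧
        Algebra.trace (RatFunc C) K (b * (D f / f)) = algebraMap C[X] (RatFunc C) Q +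
          ∑ a ∈ S, (n : RatFunc C) * RatFunc.C (r a) / (RatFunc.X - RatFunc.C a) := by
  classical
  have hD0 : D ≠ 0 := by
    rintro rfl
    simp at hD
  obtain ⟨g, hg, hgb⟩ := id hb
  obtain ⟨M, d, hM, hbd⟩ := exists_root_bound (C := C) hg
  obtain ⟨j, hj⟩ := trace_inf hD0 b
  refine ⟨M, max d j, fun n f hf hdiv => ?_⟩
  let pl : C → Plk C (RatFunc C) := fun a => (exists_place a).choose
  have hpl : ∀ a, 0 < ord (pl a) (RatFunc.X - RatFunc.C a) := fun a => (exists_place a).choose_spec
  let r : C → C := fun a => ∑ P ∈ (over_finite (L := K) (pl a)).toFinset,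
    vl P b * ((ord P f / n : ℤ) : C)
  have hr : ∀ a, ∑ P ∈ (over_finite (L := K) (pl a)).toFinset, vl P b * (ord P f : C) =
      n * r a := by
    intro a
    rw [Finset.mul_sum]
    refine Finset.sum_congr rfl fun P _ => ?_
    have h1 : (ord P f : C) = (n : C) * ((ord P f / n : ℤ) : C) := by
      have h2 := Int.mul_ediv_cancel' (hdiv P)
      conv_lhs => rw [← h2]
      push_cast
      ring
    rw [h1]
    ring
  let S : Finset C := (dv C f).support.image fun P => vl P (tt C K)
  have hvl : ∀ (a : C) (P : Plk C K), 0 < ord P (tt C K - algebraMap C K a) →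
      ‖vl P b‖ ≤ M * max 1 ‖a‖ ^ d := by
    intro a P hP
    refine hbd a (vl P b) ?_
    have h1 := cg_eval₂ (P := P) (c := a) (mem_Mge.2 (Or.inr hP))
      (sub_vl_mem (ord_nonneg_of_integral (tt_mem hP) phi_eq hb)) (φ := phi C K) phi_eq g
    rw [hgb, zero_sub, ← map_neg] at h1
    exact neg_eq_zero.1 (const_notMem h1)
  have hrb : ∀ a : C, ‖r a‖ ≤ M * max 1 ‖a‖ ^ max d j := by
    intro a
    refine IsUltrametricDist.norm_sum_le_of_forall_le_of_nonneg (by positivity) fun P hP => ?_
    have hpos : 0 < ord P (tt C K - algebraMap C K a) := by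
      rw [ord_tt_sub (hpl a) (mem_over.1 hP)]
      exact_mod_cast ram_pos (K := RatFunc C) P
    rw [norm_mul]
    calc ‖vl P b‖ * ‖((ord P f / n : ℤ) : C)‖ ≤ (M * max 1 ‖a‖ ^ d) * 1 :=
          mul_le_mul (hvl a P hpos) (IsUltrametricDist.norm_intCast_le_one C _) (norm_nonneg _)
            (by positivity)
      _ ≤ M * max 1 ‖a‖ ^ max d j := by
          rw [mul_one]
          exact mul_le_mul_of_nonneg_left
            (pow_le_pow_right₀ (le_max_left _ _) (le_max_left _ _)) hM
  set τ := Algebra.trace (RatFunc C) K (b * (D f / f)) with hτ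
  have hordC : ∀ {p : Plk C (RatFunc C)} {a c : C}, 0 < ord p (RatFunc.X - RatFunc.C a) → c ≠ a →
      ord p (RatFunc.X - RatFunc.C c) = 0 := by
    intro p a c hp hc
    have h2 := ord_poly_eq_zero hp (P := X - Polynomial.C c) (by
      rw [eval_sub, eval_X, eval_C, sub_ne_zero]
      exact hc.symm)
    rwa [map_sub, RatFunc.algebraMap_X, RatFunc.algebraMap_C] at h2
  have hterm : ∀ {p : Plk C (RatFunc C)} {c : C} {m : ℤ}, m ≤ -ord p (RatFunc.X - RatFunc.C c) →
      (n : RatFunc C) * RatFunc.C (r c) / (RatFunc.X - RatFunc.C c) ∈ Mge p m := by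
    intro p c m hm
    rw [div_eq_mul_inv, ← map_natCast (RatFunc.C : C →+* RatFunc C), ← map_mul, ratFunc_C_eq]
    have h1 : algebraMap C (RatFunc C) ((n : C) * r c) ∈ Mge p 0 :=
      mem_Mge.2 (Or.inr (ord_const p _).ge)
    have h2 : (RatFunc.X - RatFunc.C c)⁻¹ ∈ Mge p m := mem_Mge.2 (Or.inr (by rwa [ord_inv]))
    have h3 := mul_mem_Mge h1 h2
    rwa [zero_add] at h3
  obtain ⟨Q, hQ, hQ'⟩ := exists_poly
    (τ - ∑ a ∈ S, (n : RatFunc C) * RatFunc.C (r a) / (RatFunc.X - RatFunc.C a)) j (by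
      intro p a hp
      obtain rfl : p = pl a := place_ext hp (hpl a)
      have hres := trace_res hD hb hf hp
      rw [hr a, ← hτ] at hres
      have hrS : a ∉ S → r a = 0 := by
        intro ha
        refine Finset.sum_eq_zero fun P hP => ?_
        have hpos : 0 < ord P (tt C K - algebraMap C K a) := by
          rw [ord_tt_sub (hpl a) (mem_over.1 hP)]
          exact_mod_cast ram_pos (K := RatFunc C) P
        have h0 : ord P f = 0 := by
          by_contra hne
          refine ha (Finset.mem_image.2 ⟨P, ?_, vl_eq_of_pos hpos⟩)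
          rw [Finsupp.mem_support_iff, dv_apply]
          exact hne
        rw [h0, Int.zero_ediv, Int.cast_zero, mul_zero]
      have h1 : (RatFunc.X - RatFunc.C a) *
          ∑ c ∈ S, (n : RatFunc C) * RatFunc.C (r c) / (RatFunc.X - RatFunc.C c) =
          algebraMap C (RatFunc C) (n * r a) + (RatFunc.X - RatFunc.C a) *
          ∑ c ∈ S.erase a, (n : RatFunc C) * RatFunc.C (r c) / (RatFunc.X - RatFunc.C c) := by
        by_cases ha : a ∈ S
        · rw [← Finset.add_sum_erase S _ ha, mul_add]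
          congr 1
          rw [mul_div_cancel₀ _ (X_sub_ne a), ← ratFunc_C_eq, map_mul, map_natCast]
        · rw [hrS ha, mul_zero, map_zero, zero_add, Finset.erase_eq_of_notMem ha]
      have h2 : (RatFunc.X - RatFunc.C a) *
          (τ - ∑ c ∈ S, (n : RatFunc C) * RatFunc.C (r c) / (RatFunc.X - RatFunc.C c)) ∈
          Mge (pl a) 1 := by
        rw [mul_sub, h1, ← sub_sub]
        refine sub_mem hres ?_
        rw [mul_mem_Mge_iff (X_sub_ne a), ord_X_sub hp, sub_self]
        refine Submodule.sum_mem _ fun c hc => hterm ?_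
        rw [hordC hp (Finset.ne_of_mem_erase hc), neg_zero]
      rw [mul_mem_Mge_iff (X_sub_ne a), ord_X_sub hp, sub_self] at h2
      exact h2) (by
      intro p hp
      refine sub_mem (hj p hp f hf) (Submodule.sum_mem _ fun c hc => hterm ?_)
      have h2 := ord_poly_inf' hp (X_sub_C_ne_zero c)
      rw [map_sub, RatFunc.algebraMap_X, RatFunc.algebraMap_C, natDegree_X_sub_C] at h2
      rw [h2]
      omega)
  refine ⟨Q, S, r, hQ.trans (le_max_right _ _), fun a _ => hrb a, ?_⟩
  rw [← hQ', sub_add_cancel]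

/-- variant for an algebra structure over `C[X]` -/
theorem trace_formula' [Algebra C[X] K] [IsScalarTower C[X] (RatFunc C) K] {D : Derivation C K K}
    (hD : D (algebraMap (RatFunc C) K RatFunc.X) = 1) {b : K} (hb : IsIntegral C[X] b) :
    ∃ (M : ℝ) (d : ℕ), ∀ (n : ℕ) (f : K), f ≠ 0 → (∀ P : Plk C K, (n : ℤ) ∣ ord P f) →
      ∃ (Q : C[X]) (S : Finset C) (r : C → C), Q.natDegree ≤ d ∧
        (∀ a ∈ S, ‖r a‖ ≤ M * max 1 ‖a‖ ^ d) ∧
        Algebra.trace (RatFunc C) K (b * (D f / f)) = algebraMap C[X] (RatFunc C) Q +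
          ∑ a ∈ S, (n : RatFunc C) * RatFunc.C (r a) / (RatFunc.X - RatFunc.C a) := by
  refine trace_formula hD ?_
  rw [← IsScalarTower.algebraMap_eq]
  exact hb

end formula

end P025H492
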