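import Vale.Agent.P025.R2.H492.Tr
import Vale.Agent.P025.R2.H816.J04

set_option linter.all false

/-!
# Values of functions, the places of `k(x)`
-/

namespace P025H492

open Vale.Agent.P019P IntermediateField Polynomial

section values

variable {k K : Type*} [Field k] [Field K] [Algebra k K] [CFF k K]

theorem exists_vl (P : Plk k K) (z : K) : ∃ c : k, 0 ≤ ord P z → z - algebraMap k K c ∈ Mge P 1 := by
  by_cases h : 0 ≤ ord P z
  · obtain ⟨c, hc⟩ := exists_cst P ((mem_iff_ord P z).2 (Or.inr h))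
    refine ⟨c, fun _ => ?_⟩
    rcases hc with h1 | h1
    · rw [← h1, sub_self]
      exact zero_mem _
    · exact mem_Mge.2 (Or.inr (by omega))
  · exact ⟨0, fun h1 => absurd h1 h⟩

/-- the value of a function at a place. -/
noncomputable def vl (P : Plk k K) (z : K) : k := (exists_vl P z).choose

theorem sub_vl_mem {P : Plk k K} {z : K} (h : 0 ≤ ord P z) :
    z - algebraMap k K (vl P z) ∈ Mge P 1 := (exists_vl P z).choose_spec h

theorem const_notMem {P : Plk k K} {c : k} (h : algebraMap k K c ∈ Mge P 1) : c = 0 := by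
  by_contra hc
  rcases mem_Mge.1 h with h1 | h1
  · exact hc ((_root_.map_eq_zero _).1 h1)
  · rw [ord_const] at h1
    omega

theorem ord_nonneg_of_sub {P : Plk k K} {z : K} {c : k} (h : z - algebraMap k K c ∈ Mge P 1) :
    0 ≤ ord P z := by
  have h1 : z ∈ Mge P 0 := by
    have h2 : z = (z - algebraMap k K c) + algebraMap k K c := by ring
    rw [h2]
    exact add_mem (Mge_mono P (by omega) h) (mem_Mge.2 (Or.inr (ord_const P c).ge))
  rcases mem_Mge.1 h1 with h2 | h2
  · rw [h2, ord_zero]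
  · exact h2

theorem vl_eq {P : Plk k K} {z : K} {c : k} (h : z - algebraMap k K c ∈ Mge P 1) : vl P z = c := by
  have h1 := sub_mem h (sub_vl_mem (ord_nonneg_of_sub h))
  have h2 : z - algebraMap k K c - (z - algebraMap k K (vl P z)) =
      algebraMap k K (vl P z - c) := by
    rw [map_sub]
    ring
  rw [h2] at h1
  exact sub_eq_zero.1 (const_notMem h1)

theorem vl_const (P : Plk k K) (c : k) : vl P (algebraMap k K c) = c :=
  vl_eq (by rw [sub_self]; exact zero_mem _)

theorem ord_sub_vl_pos {P : Plk k K} {z : K} (hz : ∀ a : k, z ≠ algebraMap k K a)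
    (h : 0 ≤ ord P z) : 0 < ord P (z - algebraMap k K (vl P z)) := by
  rcases mem_Mge.1 (sub_vl_mem h) with h1 | h1
  · exact absurd (sub_eq_zero.1 h1) (hz _)
  · omega

theorem mem_Mge_one_of_pos {P : Plk k K} {z : K} (h : 0 < ord P z) : z ∈ Mge P 1 :=
  mem_Mge.2 (Or.inr (by omega))

theorem vl_eq_of_pos {P : Plk k K} {z : K} {c : k} (h : 0 < ord P (z - algebraMap k K c)) :
    vl P z = c := vl_eq (mem_Mge_one_of_pos h)

end values

section line

variable {k K : Type*} [Field k] [Field K] [Algebra k K] [CFF k K]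

theorem cff_adjoin {x : K} (hx : ∀ a : k, x ≠ algebraMap k K a) : CFF k k⟮x⟯ := by
  have h1 : Transcendental k (AdjoinSimple.gen k x) := by
    rw [← transcendental_algebraMap_iff (A := K) (algebraMap k⟮x⟯ K).injective]
    exact (finite_of_notMem hx).1
  exact cff_down (L := K) h1

theorem gen_nc {x : K} (hx : ∀ a : k, x ≠ algebraMap k K a) (a : k) :
    AdjoinSimple.gen k x ≠ algebraMap k k⟮x⟯ a := by
  intro h
  apply hx a
  have h1 := congrArg (algebraMap k⟮x⟯ K) h
  rwa [AdjoinSimple.algebraMap_gen, ← IsScalarTower.algebraMap_apply] at h1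

theorem adjoin_gen_eq_top (x : K) : k⟮AdjoinSimple.gen k x⟯ = (⊤ : IntermediateField k k⟮x⟯) := by
  apply IntermediateField.lift_injective
  rw [IntermediateField.lift_top]
  rw [IntermediateField.lift, IntermediateField.adjoin_map, Set.image_singleton]
  rfl

theorem finrank_gen (x : K) : Module.finrank k⟮AdjoinSimple.gen k x⟯ k⟮x⟯ = 1 := by
  rw [adjoin_gen_eq_top]
  exact IntermediateField.finrank_top

variable {x : K}

/-- the zero of `x - c` on the line. -/
theorem line_fib (hx : ∀ a : k, x ≠ algebraMap k K a) [CFF k k⟮x⟯] (c : k) :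
    ∃ Q : Plk k k⟮x⟯, ord Q (AdjoinSimple.gen k x - algebraMap k k⟮x⟯ c) = 1 ∧
      ∀ Q' : Plk k k⟮x⟯, 0 < ord Q' (AdjoinSimple.gen k x - algebraMap k k⟮x⟯ c) → Q' = Q := by
  have h1 := fib_sum (gen_nc hx) c
  rw [finrank_gen, Nat.cast_one] at h1
  have hpos : ∀ Q ∈ (fib_finite (gen_nc hx) c).toFinset,
      0 < ord Q (AdjoinSimple.gen k x - algebraMap k k⟮x⟯ c) := by
    intro Q hQ
    rw [Set.Finite.mem_toFinset] at hQ
    exact hQ
  have h2 : (fib_finite (gen_nc hx) c).toFinset.card ≤ 1 := by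
    by_contra hcon
    have h3 : ((fib_finite (gen_nc hx) c).toFinset.card : ℤ) ≤
        ∑ Q ∈ (fib_finite (gen_nc hx) c).toFinset,
          ord Q (AdjoinSimple.gen k x - algebraMap k k⟮x⟯ c) := by
      rw [Finset.card_eq_sum_ones, Nat.cast_sum]
      refine Finset.sum_le_sum fun Q hQ => ?_
      have := hpos Q hQ
      push_cast
      omega
    rw [h1] at h3
    omega
  rcases Nat.eq_zero_or_pos (fib_finite (gen_nc hx) c).toFinset.card with h3 | h3
  · rw [Finset.card_eq_zero] at h3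
    rw [h3, Finset.sum_empty] at h1
    exact absurd h1 zero_ne_one
  · obtain ⟨Q, hQ⟩ := Finset.card_eq_one.1 (by omega : (fib_finite (gen_nc hx) c).toFinset.card = 1)
    rw [hQ, Finset.sum_singleton] at h1
    refine ⟨Q, h1, fun Q' hQ' => ?_⟩
    have h4 : Q' ∈ (fib_finite (gen_nc hx) c).toFinset := by
      rw [Set.Finite.mem_toFinset]
      exact hQ'
    rw [hQ, Finset.mem_singleton] at h4
    exact h4

theorem line_inf (hx : ∀ a : k, x ≠ algebraMap k K a) [CFF k k⟮x⟯] :
    ∃ Q : Plk k k⟮x⟯, ord Q (AdjoinSimple.gen k x) = -1 ∧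
      ∀ Q' : Plk k k⟮x⟯, ord Q' (AdjoinSimple.gen k x) < 0 → Q' = Q := by
  have h1 := dg_pol (gen_nc hx)
  rw [finrank_gen, Nat.cast_one] at h1
  obtain ⟨Q, hQ⟩ := exists_pole (gen_nc hx)
  have h2 : Finsupp.single Q 1 ≤ pol k (AdjoinSimple.gen k x) := by
    classical
    intro R
    rw [Finsupp.single_apply, pol_apply]
    split_ifs with h
    · rw [← h]
      omega
    · exact le_max_left _ _
  have h3 := eq_of_le_of_dg_le h2 (by rw [h1, dg_sgl])
  refine ⟨Q, ?_, fun Q' hQ' => ?_⟩
  · have h4 := DFunLike.congr_fun h3 Q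
    rw [Finsupp.single_eq_same, pol_apply] at h4
    omega
  · by_contra hne
    have h4 := DFunLike.congr_fun h3 Q'
    rw [Finsupp.single_eq_of_ne hne, pol_apply] at h4
    omega

/-- the ramification index over `k(x)` at finite places. -/
theorem ord_sub_eq_ram (hx : ∀ a : k, x ≠ algebraMap k K a) [CFF k k⟮x⟯]
    [FiniteDimensional k⟮x⟯ K] {P : Plk k K} {c : k} (h : 0 < ord P (x - algebraMap k K c)) :
    ord P (x - algebraMap k K c) = ram k⟮x⟯ P := by
  have h1 : x - algebraMap k K c =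
      algebraMap k⟮x⟯ K (AdjoinSimple.gen k x - algebraMap k k⟮x⟯ c) := by
    rw [map_sub, AdjoinSimple.algebraMap_gen, ← IsScalarTower.algebraMap_apply]
  rw [h1] at h ⊢
  rw [ord_up_pos_iff] at h
  obtain ⟨Q, hQ, hQ'⟩ := line_fib hx c
  rw [ord_algebraMap, hQ' _ h, hQ, mul_one]

/-- the ramification index over `k(x)` at infinite places. -/
theorem ord_eq_neg_ram (hx : ∀ a : k, x ≠ algebraMap k K a) [CFF k k⟮x⟯]
    [FiniteDimensional k⟮x⟯ K] {P : Plk k K} (h : ord P x < 0) :
    ord P x = -(ram k⟮x⟯ P : ℤ) := by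
  have h1 : x = algebraMap k⟮x⟯ K (AdjoinSimple.gen k x) := (AdjoinSimple.algebraMap_gen k x).symm
  have h2 : ord P x = ram k⟮x⟯ P * ord (down k⟮x⟯ P) (AdjoinSimple.gen k x) := by
    conv_lhs => rw [h1]
    rw [ord_algebraMap]
  have h3 : ord (down k⟮x⟯ P) (AdjoinSimple.gen k x) < 0 := by
    by_contra hcon
    push Not at hcon
    have : 0 ≤ (ram k⟮x⟯ P : ℤ) * ord (down k⟮x⟯ P) (AdjoinSimple.gen k x) := by positivity
    omega
  obtain ⟨Q, hQ, hQ'⟩ := line_inf hx
  rw [h2, hQ' _ h3, hQ]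
  ring

end line

end P025H492
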