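import Vale.Agent.P025.R2.H492.Ext5

set_option linter.all false

/-!
# Residues of traces, the inverse different
-/

namespace P025H492

open Vale.Agent.P019P IntermediateField Polynomial

section aux

variable {k K L M : Type*} [Field k] [Field K] [Field L] [Field M]
  [Algebra k K] [Algebra k L] [Algebra k M] [Algebra K L] [Algebra K M] [Algebra L M]
  [IsScalarTower k K L] [IsScalarTower k K M] [IsScalarTower k L M] [IsScalarTower K L M]
  [CFF k K] [CFF k L] [CFF k M]

open Classical in
theorem card_conj_eq [FiniteDimensional K M] [IsGalois K M] {P Q : Plk k M}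
    (h : down K Q = down K P) :
    ((Finset.univ : Finset (M ≃ₐ[K] M)).filter fun σ => conj k σ P = Q).card = ram K Q := by
  obtain ⟨σ₀, hσ₀⟩ := exists_conj_eq (K := K) h.symm
  rw [ram_eq_of_down_eq h, ← card_inertia, Nat.card_eq_fintype_card, ← Fintype.card_subtype]
  refine Fintype.card_congr ⟨fun σ => ⟨σ₀⁻¹ * σ.1, ?_⟩, fun σ => ⟨σ₀ * σ.1, ?_⟩, ?_, ?_⟩
  · show conj k (σ₀⁻¹ * σ.1) P = P
    rw [conj_mul, σ.2, ← hσ₀, conj_inv_conj]
  · have h1 : conj k σ.1 P = P := σ.2
    rw [conj_mul, h1, hσ₀]
  · intro σ
    exact Subtype.ext (by simp)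
  · intro σ
    exact Subtype.ext (by simp)

open Classical in
theorem sum_conj_down [FiniteDimensional K M] [FiniteDimensional K L] [FiniteDimensional L M]
    [IsGalois K M] (P : Plk k M) (f : Plk k L → k) :
    ∑ σ : M ≃ₐ[K] M, f (down L (conj k σ⁻¹ P)) =
      Module.finrank L M * ∑ P' ∈ (over_finite (L := L) (down K P)).toFinset,
        (ram K P' : k) * f P' := by
  have h1 : ∑ σ : M ≃ₐ[K] M, f (down L (conj k σ⁻¹ P)) =
      ∑ σ : M ≃ₐ[K] M, f (down L (conj k σ P)) :=
    Equiv.sum_comp (Equiv.inv (M ≃ₐ[K] M)) fun σ => f (down L (conj k σ P))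
  rw [h1]
  have h2 : ∀ σ ∈ (Finset.univ : Finset (M ≃ₐ[K] M)), conj k σ P ∈
      (over_finite (L := M) (down K P)).toFinset := fun σ _ => mem_over.2 (down_conj σ P)
  rw [← Finset.sum_fiberwise_of_maps_to h2]
  have h3 : ∀ Q ∈ (over_finite (L := M) (down K P)).toFinset,
      ∑ σ ∈ (Finset.univ : Finset (M ≃ₐ[K] M)).filter (fun σ => conj k σ P = Q),
        f (down L (conj k σ P)) = (ram K Q : k) * f (down L Q) := by
    intro Q hQ
    rw [Finset.sum_congr rfl fun σ hσ => by
      rw [(Finset.mem_filter.1 hσ).2], Finset.sum_const, card_conj_eq (mem_over.1 hQ), nsmul_eq_mul]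
  rw [Finset.sum_congr rfl h3]
  have h4 : ∀ Q ∈ (over_finite (L := M) (down K P)).toFinset, down L Q ∈
      (over_finite (L := L) (down K P)).toFinset := fun Q hQ => mem_over.2 (by
    rw [down_down, mem_over.1 hQ])
  rw [← Finset.sum_fiberwise_of_maps_to h4, Finset.mul_sum]
  refine Finset.sum_congr rfl fun P' hP' => ?_
  have h5 : (Finset.filter (fun Q : Plk k M => down L Q = P')
      (over_finite (L := M) (down K P)).toFinset) = (over_finite (L := M) P').toFinset := by
    ext Q
    rw [Finset.mem_filter, mem_over, mem_over]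
    refine ⟨fun h => h.2, fun h => ⟨?_, h⟩⟩
    rw [← mem_over.1 hP', ← h, down_down]
  rw [h5]
  have h6 : ∀ Q ∈ (over_finite (L := M) P').toFinset, (ram K Q : k) * f (down L Q) =
      (ram L Q : k) * ((ram K P' : k) * f P') := by
    intro Q hQ
    rw [mem_over.1 hQ, ram_mul (K := K) (L := L) Q, mem_over.1 hQ]
    push_cast
    ring
  rw [Finset.sum_congr rfl h6, ← Finset.sum_mul, ← sum_ram (L := M) P']
  push_cast
  rfl

/-- congruences of constants. -/
theorem mem_Mge_up [Algebra.IsAlgebraic K L] {P' : Plk k L} {z : K} :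
    algebraMap K L z ∈ Mge P' 1 ↔ z ∈ Mge (down K P') 1 := by
  rw [mem_Mge, mem_Mge, _root_.map_eq_zero]
  have := ord_up_pos_iff (K := K) P' z
  constructor
  · rintro (h | h)
    · exact Or.inl h
    · exact Or.inr (by omega)
  · rintro (h | h)
    · exact Or.inl h
    · exact Or.inr (by omega)

theorem trace_residue_aux [FiniteDimensional K M] [FiniteDimensional K L] [FiniteDimensional L M]
    [IsGalois K M] [CharZero k] (P : Plk k M) (z : L) (c : Plk k L → k)
    (hz : ∀ P' : Plk k L, down K P' = down K P → z - algebraMap k L (c P') ∈ Mge P' 1) :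
    Algebra.trace K L z - algebraMap k K
      (∑ P' ∈ (over_finite (L := L) (down K P)).toFinset, (ram K P' : k) * c P') ∈
        Mge (down K P) 1 := by
  classical
  rw [← mem_Mge_up (L := M)]
  have hm : (Module.finrank L M : k) ≠ 0 := by
    exact_mod_cast (Module.finrank_pos (R := L) (M := M)).ne'
  have h1 : algebraMap k M (Module.finrank L M : k) * algebraMap K M (Algebra.trace K L z) =
      ∑ σ : M ≃ₐ[K] M, σ (algebraMap L M z) := by
    rw [← trace_eq_sum_automorphisms, ← Algebra.trace_trace (S := L) (algebraMap L M z),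
      Algebra.trace_algebraMap, map_nsmul, map_nsmul, nsmul_eq_mul, map_natCast]
  have h2 : ∑ σ : M ≃ₐ[K] M, (σ (algebraMap L M z) -
      algebraMap k M (c (down L (conj k σ⁻¹ P)))) ∈ Mge P 1 := by
    refine Submodule.sum_mem _ fun σ _ => ?_
    have h3 : σ (algebraMap L M z) - algebraMap k M (c (down L (conj k σ⁻¹ P))) =
        σ (algebraMap L M (z - algebraMap k L (c (down L (conj k σ⁻¹ P))))) := by
      rw [map_sub, map_sub, ← IsScalarTower.algebraMap_apply k L M,
        IsScalarTower.algebraMap_apply k K M, AlgEquiv.commutes]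
    rw [h3]
    have h4 := hz (down L (conj k σ⁻¹ P)) (by rw [down_down, down_conj])
    rw [← mem_Mge_up (K := L) (P' := conj k σ⁻¹ P)] at h4
    rcases mem_Mge.1 h4 with h5 | h5
    · rw [h5, map_zero]
      exact zero_mem _
    · refine mem_Mge.2 (Or.inr ?_)
      rw [ord_aut]
      exact h5
  rw [Finset.sum_sub_distrib, ← h1, ← map_sum, sum_conj_down P c] at h2
  have h3 : algebraMap k M (Module.finrank L M : k)⁻¹ ∈ Mge P 0 := mem_Mge.2 (Or.inr (by
    rw [ord_const]))
  have h4 := mul_mem_Mge h3 h2
  rw [zero_add] at h4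
  have h5 : algebraMap k M (Module.finrank L M : k)⁻¹ *
      (algebraMap k M (Module.finrank L M : k) * algebraMap K M (Algebra.trace K L z) -
        algebraMap k M (Module.finrank L M *
          ∑ P' ∈ (over_finite (L := L) (down K P)).toFinset, (ram K P' : k) * c P')) =
      algebraMap K M (Algebra.trace K L z - algebraMap k K
        (∑ P' ∈ (over_finite (L := L) (down K P)).toFinset, (ram K P' : k) * c P')) := by
    rw [map_sub, ← IsScalarTower.algebraMap_apply k K M, map_mul (algebraMap k M), ← mul_sub,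
      ← mul_assoc, ← map_mul, inv_mul_cancel₀ hm, map_one, one_mul]
  rwa [h5] at h4

end aux

section trace

variable {k K L : Type*} [Field k] [Field K] [Field L] [Algebra k K] [Algebra k L]
  [Algebra K L] [IsScalarTower k K L] [CFF k K] [CFF k L] [FiniteDimensional K L]

/-- the residue of a trace. -/
theorem trace_residue [CharZero k] (P : Plk k K) (z : L) (c : Plk k L → k)
    (hz : ∀ P' : Plk k L, down K P' = P → z - algebraMap k L (c P') ∈ Mge P' 1) :
    Algebra.trace K L z - algebraMap k K
      (∑ P' ∈ (over_finite (L := L) P).toFinset, (ram K P' : k) * c P') ∈ Mge P 1 := by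
  let Ω := AlgebraicClosure L
  let M := normalClosure K L Ω
  haveI hK0 : CharZero K := charZero_of_injective_algebraMap (algebraMap k K).injective
  haveI : FiniteDimensional K M := inferInstance
  haveI : FiniteDimensional L M := Module.Finite.of_restrictScalars_finite K L M
  haveI : IsScalarTower k L M := IsScalarTower.of_algebraMap_eq fun a => by
    apply Subtype.ext
    show algebraMap k Ω a = algebraMap L Ω (algebraMap k L a)
    rw [← IsScalarTower.algebraMap_apply k L Ω]
  haveI : CFF k M := cff_of_finite (K := L)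
  haveI : IsGalois K M := ⟨⟩
  obtain ⟨PM, hPM⟩ := exists_over (K := K) (L := M) P
  subst hPM
  exact trace_residue_aux PM z c hz

theorem ord_nonneg_trace [CharZero k] (P : Plk k K) (z : L)
    (hz : ∀ P' : Plk k L, down K P' = P → 0 ≤ ord P' z) : 0 ≤ ord P (Algebra.trace K L z) := by
  have hi : IsIntegral P.1 z := isIntegral_iff_ord.2 hz
  have h1 : IsIntegral P.1 (Algebra.trace K L z) := Algebra.isIntegral_trace hi
  obtain ⟨y, hy⟩ := IsIntegrallyClosed.isIntegral_iff.1 h1
  refine ord_nonneg_of_mem P ?_
  rw [← hy]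
  exact y.2

open Classical in
/-- the inverse different at a place (all ramification is tame). -/
theorem codifferent [CharZero k] (P : Plk k K) {z : L} (hz0 : z ≠ 0) :
    (∀ b : L, (∀ P' : Plk k L, down K P' = P → 0 ≤ ord P' b) →
      0 ≤ ord P (Algebra.trace K L (z * b))) ↔
    ∀ P' : Plk k L, down K P' = P → 1 - (ram K P' : ℤ) ≤ ord P' z := by
  obtain ⟨π, hπ0, hπ⟩ := exists_unif P
  have hπL : algebraMap K L π ≠ 0 := (_root_.map_ne_zero _).2 hπ0
  have hordπ : ∀ P' : Plk k L, down K P' = P → ord P' (algebraMap K L π) = ram K P' := by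
    rintro P' rfl
    rw [ord_algebraMap, hπ, mul_one]
  have htr : ∀ w : L, Algebra.trace K L (algebraMap K L π * w) = π * Algebra.trace K L w := by
    intro w
    rw [← Algebra.smul_def, map_smul, smul_eq_mul]
  constructor
  · intro h P' hP'
    by_contra hcon
    push Not at hcon
    -- `b` with `ord (z b) = - ram` at `P'` and `z b` small at the other places
    have hex : ∃ b : L, b ≠ 0 ∧ ∀ Q ∈ (over_finite (K := K) (L := L) P).toFinset,
        ord Q b = if Q = P' then -(ram K P' : ℤ) - ord P' z else max 0 (- ord Q z) :=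
      exists_ord_eq _ fun Q => if Q = P' then -(ram K P' : ℤ) - ord P' z else max 0 (- ord Q z)
    obtain ⟨b, hb0, hb⟩ := hex
    have h1 := h b (by
      intro Q hQ
      rw [hb Q (mem_over.2 hQ)]
      split_ifs
      · omega
      · omega)
    -- the values of `π z b`
    have hord : ∀ Q : Plk k L, down K Q = P → ord Q (algebraMap K L π * (z * b)) =
        if Q = P' then 0 else ram K Q + ord Q z + max 0 (- ord Q z) := by
      intro Q hQ
      rw [ord_mul _ hπL (mul_ne_zero hz0 hb0), ord_mul _ hz0 hb0, hordπ Q hQ, hb Q (mem_over.2 hQ)]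
      split_ifs with h2
      · rw [h2]; ring
      · ring
    have hP0 : ord P' (algebraMap K L π * (z * b)) = 0 := by rw [hord P' hP', if_pos rfl]
    obtain ⟨c, hc⟩ := exists_cst P' ((mem_iff_ord P' _).2 (Or.inr hP0.ge))
    have hc0 : c ≠ 0 := by
      rintro rfl
      rw [map_zero, sub_zero] at hc
      rcases hc with h2 | h2
      · exact mul_ne_zero hπL (mul_ne_zero hz0 hb0) h2
      · omega
    have h2 := trace_residue P (algebraMap K L π * (z * b)) (fun Q => if Q = P' then c else 0) (by
      intro Q hQ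
      by_cases hQP : Q = P'
      · rw [if_pos hQP, hQP]
        rcases hc with h3 | h3
        · rw [h3, sub_self]
          exact zero_mem _
        · exact mem_Mge.2 (Or.inr (by omega))
      · rw [if_neg hQP, map_zero, sub_zero]
        refine mem_Mge.2 (Or.inr ?_)
        rw [hord Q hQ, if_neg hQP]
        have := ram_pos (K := K) Q
        omega)
    rw [Finset.sum_eq_single P' (fun Q _ hQ => by rw [if_neg hQ, mul_zero])
      (fun h3 => absurd (mem_over.2 hP') h3), if_pos rfl, htr] at h2
    have h3 : π * Algebra.trace K L (z * b) ∈ Mge P 1 := by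
      by_cases h4 : Algebra.trace K L (z * b) = 0
      · rw [h4, mul_zero]
        exact zero_mem _
      · refine mem_Mge.2 (Or.inr ?_)
        rw [ord_mul _ hπ0 h4, hπ]
        omega
    have h4 := sub_mem h3 h2
    rw [sub_sub_cancel] at h4
    have h5 : algebraMap k K ((ram K P' : k) * c) ≠ 0 := by
      refine (_root_.map_ne_zero _).2 (mul_ne_zero ?_ hc0)
      exact_mod_cast (ram_pos (K := K) P').ne'
    rcases mem_Mge.1 h4 with h6 | h6
    · exact h5 h6
    · rw [ord_const] at h6
      omega
  · intro h b hb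
    by_cases hb0 : b = 0
    · rw [hb0, mul_zero, map_zero, ord_zero]
    have h2 := trace_residue P (algebraMap K L π * (z * b)) (fun Q => 0) (by
      intro Q hQ
      rw [map_zero, sub_zero]
      refine mem_Mge.2 (Or.inr ?_)
      rw [ord_mul _ hπL (mul_ne_zero hz0 hb0), ord_mul _ hz0 hb0, hordπ Q hQ]
      have h3 := h Q hQ
      have h4 := hb Q hQ
      omega)
    rw [Finset.sum_congr rfl fun Q _ => mul_zero _, Finset.sum_const_zero, map_zero, sub_zero,
      htr] at h2
    by_cases h4 : Algebra.trace K L (z * b) = 0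
    · rw [h4, ord_zero]
    rcases mem_Mge.1 h2 with h3 | h3
    · exact absurd h3 (mul_ne_zero hπ0 h4)
    · rw [ord_mul _ hπ0 h4, hπ] at h3
      omega

end trace

end P025H492
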